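import Crest.Agent.R278.Val

/-! Derivations in the blown-up charts. -/

set_option autoImplicit false
set_option linter.unusedSectionVars false

namespace Crest.Agent.R278

def der1 : P1 → P1
  | [] => []
  | _ :: p => add1 p (0 :: der1 p)

section
variable {K : Type} [CommRing K]

theorem fin2_head (S : Subring K) {x n h : K} (hx : x ∈ S) (hn : n ∈ S) (pt : P1) (μ : ℕ)
    (P : P2) (w : ℕ) (hc : fin2 pt μ P w = true)
    (hh : ev1 (P.headD []) x = ev1 (1 :: pt) x ^ w * h) :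
    ∃ r ∈ S, ev2 P x (ev1 (1 :: pt) x ^ μ * n) = ev1 (1 :: pt) x ^ w * (h + n * r) := by
  have hπ := ev1_mem S hx (1 :: pt)
  rcases P with _ | ⟨c, p⟩
  · refine ⟨0, S.zero_mem, ?_⟩
    simp only [List.headD_nil, ev1] at hh
    simp only [ev2, ev1]
    rw [mul_zero, add_zero, ← hh]
  · simp only [List.headD_cons] at hh
    rcases w with _ | w
    · refine ⟨ev1 (1 :: pt) x ^ μ * ev2 p x (ev1 (1 :: pt) x ^ μ * n),
        S.mul_mem (S.pow_mem hπ _) (ev2_mem S hx (S.mul_mem (S.pow_mem hπ _) hn) p), ?_⟩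
      rw [ev2, hh]; ring
    · simp only [fin2, Bool.and_eq_true, decide_eq_true_eq] at hc
      obtain ⟨r, hr, e2⟩ := fin2_sound S hx hn pt μ p _ hc.2
      refine ⟨ev1 (1 :: pt) x ^ (μ + (w + 1 - μ) - (w + 1)) * r,
        S.mul_mem (S.pow_mem hπ _) hr, ?_⟩
      rw [ev2, hh, e2]
      have : μ + (w + 1 - μ) = (w + 1) + (μ + (w + 1 - μ) - (w + 1)) := by omega
      have e3 : ev1 (1 :: pt) x ^ μ * ev1 (1 :: pt) x ^ (w + 1 - μ) =
          ev1 (1 :: pt) x ^ (w + 1) * ev1 (1 :: pt) x ^ (μ + (w + 1 - μ) - (w + 1)) := by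
        rw [← pow_add, ← pow_add, ← this]
      linear_combination (n * r) * e3

theorem ev2_head (S : Subring K) {x l : K} (hx : x ∈ S) (hl : l ∈ S) (P : P2) :
    ∃ r ∈ S, ev2 P x l = ev1 (P.headD []) x + l * r := by
  rcases P with _ | ⟨c, p⟩
  · exact ⟨0, S.zero_mem, by simp [ev2, ev1]⟩
  · exact ⟨_, ev2_mem S hx hl p, rfl⟩

theorem inf2_head (S : Subring K) {x t n : K} (ht : t ∈ S) (hn : n ∈ S) (hxt : x * t = 1)
    (μ : ℕ) (P : P2) (w j : ℕ) (hc : inf2 μ P.tail w = true) (d : ℕ) (hd : d + μ = w + j) :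
    ∃ r ∈ S, t ^ d * ev2 P x (n * t ^ μ) = t ^ d * ev1 (P.headD []) x + n * (t ^ j * r) := by
  rcases P with _ | ⟨c, p⟩
  · exact ⟨0, S.zero_mem, by simp [ev2, ev1]⟩
  · refine ⟨_, inf2_sound S ht hn hxt μ p w hc, ?_⟩
    have e : t ^ d * t ^ μ = t ^ j * t ^ w := by rw [← pow_add, ← pow_add, hd, add_comm]
    simp only [ev2, List.headD_cons]
    linear_combination (n * ev2 p x (n * t ^ μ)) * e

theorem inf2_tail (μ : ℕ) (P : P2) (w : ℕ) (hc : inf2 μ P w = true) :
    inf2 μ P.tail (w + μ) = true := by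
  rcases P with _ | ⟨c, p⟩
  · rfl
  · simp only [inf2, Bool.and_eq_true] at hc
    exact hc.2
end

variable {K : Type} [Field K] [Algebra ℂ K]

theorem der1_sound (D : Derivation ℂ K K) (x : K) :
    ∀ p : P1, D (ev1 p x) = ev1 (der1 p) x * D x
  | [] => by simp [ev1, der1]
  | a :: p => by
    simp only [ev1, der1, ev1_add, map_add, Derivation.leibniz, smul_eq_mul, der1_sound D x p,
      Derivation.map_intCast]
    push_cast; ring

/-- the list of the numerator of `D n` in a finite chart -/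
def finC (pt : P1) (μ : ℕ) (A B : P2) : P2 :=
  sub2 (smul2 (1 :: pt) B) (smul2 (smul1 μ (der1 (1 :: pt))) A)

/-- the list of the numerator of `D n` in a chart at infinity -/
def infC (μ : ℕ) (A B : P2) : P2 := add2 (smul2 [0, 1] B) (smul2 [μ] A)

theorem fin_data (S : Subring K) (D : Derivation ℂ K K) {x n l G g : K} (hx : x ∈ S) (hn : n ∈ S)
    (pt : P1) (μ w j : ℕ) (A B : P2) (hp : ev1 (1 :: pt) x ≠ 0)
    (hl : l = ev1 (1 :: pt) x ^ μ * n) (hG : G = ev1 (1 :: pt) x ^ w * g)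
    (dx : D x * G = ev2 A x l) (dl : D l * G = l * ev2 B x l)
    (cA : fin2 pt μ A (w + j) = true) (cC : fin2 pt μ (finC pt μ A B) (w + 1) = true) :
    ∃ α ∈ S, ∃ κ ∈ S, D x * g = ev1 (1 :: pt) x ^ j * α ∧ D n * g = κ := by
  obtain ⟨α, hα, eA⟩ := fin2_sound S hx hn pt μ A _ cA
  obtain ⟨κ, hκ, eC⟩ := fin2_sound S hx hn pt μ _ _ cC
  rw [← hl] at eA eC
  rw [finC, ev2_sub, ev2_smul, ev2_smul, ev1_smul] at eC
  have dp := der1_sound D x (1 :: pt)
  set p := ev1 (1 :: pt) x with hpdef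
  set p' := ev1 (der1 (1 :: pt)) x
  refine ⟨α, hα, n * κ, S.mul_mem hn hκ, ?_, ?_⟩
  · apply mul_left_cancel₀ (pow_ne_zero w hp)
    rw [hG] at dx
    linear_combination dx + eA
  · have e1 : p * D l = μ * p ^ μ * p' * n * D x + p ^ μ * p * D n := by
      rw [hl, Derivation.leibniz, Derivation.leibniz_pow, dp]
      simp only [smul_eq_mul, nsmul_eq_mul]
      rcases μ with _ | μ
      · simp
      · simp only [Nat.add_sub_cancel]; ring
    apply mul_left_cancel₀ (mul_ne_zero (pow_ne_zero μ hp) (pow_ne_zero (w + 1) hp))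
    push_cast at eC
    have hl' : l = p ^ μ * n := hl
    linear_combination (-G) * e1 + p * dl - μ * p ^ μ * p' * n * dx + p ^ μ * n * eC
      + p * ev2 B x l * hl' - p ^ μ * p * D n * hG

theorem inf_data (S : Subring K) (D : Derivation ℂ K K) {x t n l G g : K} (ht : t ∈ S)
    (hn : n ∈ S) (hxt : x * t = 1) (μ d j : ℕ) (A B : P2)
    (hl : l = n * t ^ μ) (hG : g = t ^ d * G)
    (dx : D x * G = ev2 A x l) (dl : D l * G = l * ev2 B x l)
    (cA : inf2 μ A (d + 2 + j) = true) (cC : inf2 μ (infC μ A B) (d + 1 + j) = true) :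
    ∃ α ∈ S, ∃ κ ∈ S, t ^ j * (D t * g) = α ∧ t ^ j * (D n * g) = κ := by
  have hα := inf2_sound S ht hn hxt μ A _ cA
  have hκ := inf2_sound S ht hn hxt μ _ _ cC
  rw [← hl] at hα hκ
  rw [infC, ev2_add, ev2_smul, ev2_smul] at hκ
  have e0 : x * D t + t * D x = 0 := by
    have := congrArg D hxt
    rwa [Derivation.leibniz, Derivation.map_one_eq_zero, smul_eq_mul, smul_eq_mul] at this
  have e1 : D t = -(t ^ 2 * D x) := by linear_combination t * e0 - D t * hxt
  have t0 : t ≠ 0 := by rintro rfl; simp at hxt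
  refine ⟨_, S.neg_mem hα, _, S.mul_mem hn hκ, ?_, ?_⟩
  · rw [e1, hG]; linear_combination (-(t ^ (d + 2 + j))) * dx
  · have e2 : t * D l = μ * n * t ^ μ * D t + t ^ μ * t * D n := by
      rw [hl, Derivation.leibniz, Derivation.leibniz_pow]
      simp only [smul_eq_mul, nsmul_eq_mul]
      rcases μ with _ | μ
      · simp
      · simp only [Nat.add_sub_cancel]; ring
    apply mul_left_cancel₀ (pow_ne_zero (μ + 1) t0)
    simp only [ev1]
    push_cast
    rw [hG]
    rw [e1] at e2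
    linear_combination (-(t ^ (j + d) * G)) * e2 + t ^ (j + d + 1) * dl
      + μ * n * t ^ (μ + 2 + j + d) * dx + t ^ (j + d + 1) * ev2 B x l * hl
      - n * t ^ (μ + 1 + d + j) * ev2 B x l * hxt

theorem Jac_lin (v1 v2 : Derivation ℂ K K) {x n l a b : K}
    (h : ∀ D : Derivation ℂ K K, D l = a * D x + b * D n) : Jac v1 v2 x l = b * Jac v1 v2 x n := by
  simp only [Jac, h]; ring

theorem Jac_lin' (v1 v2 : Derivation ℂ K K) {x t l a : K}
    (h : ∀ D : Derivation ℂ K K, D x = a * D t) : Jac v1 v2 x l = a * Jac v1 v2 t l := by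
  simp only [Jac, h]; ring

end Crest.Agent.R278
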