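import Crest.Agent.R278.Pack

/-! The chart over `M = 0` and the chart at infinity. -/

set_option autoImplicit false
set_option linter.unusedSectionVars false

namespace Crest.Agent.R278

variable {K : Type} [Field K] [Algebra ℂ K]

theorem Mf_mem' (S : Subring K) {x : K} (hx : x ∈ S) : Mf x ∈ S := Mf_eq x ▸ ev1_mem S hx _

theorem D_Mf (D : Derivation ℂ K K) (x : K) : D (Mf x) = -90 * D x := by
  rw [← Mf_eq, der1_sound]; simp [der1, add1, ev1]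

/-- the branch chart: `Φ2 ^ 2 = M ψ` -/
theorem Setup.chart_branch (T : Setup K) {V : ValuationSubring K} (hC : HC V) (hG : T.Gen (VA hC))
    {n g1 g2 ν ρ1 ρ2 α1 α2 κ1 κ2 σ : K} (hx : T.X ∈ V) (hn : n ∈ V) (hM : V.valuation T.M < 1)
    (mg1 : g1 ∈ Cl V {T.X, n}) (mg2 : g2 ∈ Cl V {T.X, n}) (mν : ν ∈ Cl V {T.X, n})
    (mρ1 : ρ1 ∈ Cl V {T.X, n}) (mρ2 : ρ2 ∈ Cl V {T.X, n}) (mα1 : α1 ∈ Cl V {T.X, n})
    (mα2 : α2 ∈ Cl V {T.X, n}) (mκ1 : κ1 ∈ Cl V {T.X, n}) (mκ2 : κ2 ∈ Cl V {T.X, n})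
    (my : T.Y ∈ Cl V {T.X, n}) (mu : T.UM ∈ Cl V {T.X, n})
    (e1 : T.Φ1 ^ 10 * g1 = ρ1) (e2 : T.Φ2 ^ 10 * g2 = T.M ^ 5 * ρ2)
    (u1 : V.valuation ρ1 = 1) (u2 : V.valuation ρ2 = 1) (ug2 : V.valuation g2 = 1)
    (d1 : T.v1 T.X * g2 = T.Φ1 * (T.M * α1)) (d2 : T.v1 n * g2 = T.Φ1 * κ1)
    (d3 : T.v2 T.X * g1 = T.Φ2 * α2) (d4 : T.v2 n * g1 = T.Φ2 * κ2)
    (eia : T.ia * ν = g1 * g2)
    (eJ : Jac T.v1 T.v2 T.X n * (g1 * g2) = σ * T.Φ1 * T.Φ2 * ν) (uσ : V.valuation σ = 1) :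
    T.Res hC := by
  have sV : ∀ z ∈ Cl V {T.X, n}, z ∈ V := Cl_sub hC (by rintro z (rfl | rfl) <;> assumption)
  obtain ⟨a1, ug1⟩ := unit_of_mul (V.toSubring.pow_mem hG.p1 10) (sV _ mg1) (e1 ▸ u1)
  have uΦ1 := unit_of_pow (by norm_num) a1
  have uν := T.nu_unit hC hG.ia eia (sV _ mν) ug1 ug2
  have M0 : T.M ≠ 0 := T.hM
  obtain ⟨ψ, eψ⟩ : ∃ ψ, T.Φ2 ^ 2 = T.M * ψ := ⟨T.Φ2 ^ 2 / T.M, by rw [mul_div_cancel₀ _ M0]⟩
  have e3 : ψ ^ 5 * g2 = ρ2 := by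
    apply mul_left_cancel₀ (pow_ne_zero 5 M0)
    have : T.Φ2 ^ 10 = T.M ^ 5 * ψ ^ 5 := by rw [← mul_pow, ← eψ]; ring
    linear_combination e2 - g2 * this
  have uψ : V.valuation ψ = 1 := unit_of_pow (by norm_num) (unit_of_mul_unit e3 ug2 u2)
  have lΦ2 : V.valuation T.Φ2 < 1 := lt_of_pow (eψ ▸ lt_mul hM (mem_of_unit uψ))
  have Φ0 : T.Φ2 ≠ 0 := by
    intro h
    rw [h] at eψ
    exact mul_ne_zero M0 (ne_of_unit uψ) (by rw [← eψ]; ring)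
  set R := Cl V {T.X, n, T.Φ1, T.Φ2, ψ} with hR
  have iR : InvCl V R := invCl_Cl _ _
  have xR : T.X ∈ R := subset_Cl _ _ (by simp)
  have nR : n ∈ R := subset_Cl _ _ (by simp)
  have p1 : T.Φ1 ∈ R := subset_Cl _ _ (by simp)
  have p2 : T.Φ2 ∈ R := subset_Cl _ _ (by simp)
  have p3 : ψ ∈ R := subset_Cl _ _ (by simp)
  have MR : T.M ∈ R := Mf_mem' R.toSubring xR
  have le : Cl V {T.X, n} ≤ R := Cl_le (by rintro z (rfl | rfl) <;> assumption) iR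
  have RV : ∀ z ∈ R, z ∈ V := Cl_sub hC (by
    rintro z (rfl | rfl | rfl | rfl | rfl)
    exacts [hx, hn, hG.p1, hG.p2, mem_of_unit uψ])
  have u2' : V.valuation (2 * ψ) = 1 := unit_mul (hC.ofNat 2) uψ
  have m2 : 2 * ψ ∈ R := R.mul_mem (ofNat_mem R 2) p3
  have dΦ : ∀ D : Derivation ℂ K K, 2 * T.Φ2 * D T.Φ2 = T.M * D ψ - 90 * ψ * D T.X := by
    intro D
    have := congrArg D eψ
    rw [Derivation.leibniz_pow, Derivation.leibniz, Setup.M, D_Mf] at this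
    simp only [smul_eq_mul, nsmul_eq_mul, Nat.cast_ofNat, Nat.add_one_sub_one, pow_one] at this
    simp only [Setup.M]
    linear_combination this
  have key : ∀ D : Derivation ℂ K K, D n ∈ R → (∃ r ∈ R, D T.X = T.Φ2 * r) → Stable D R := by
    rintro D dn ⟨r, hr, er⟩
    have dx : D T.X ∈ R := er ▸ R.mul_mem p2 hr
    have hD := deriv_mem D (G := {T.X, n}) iR (by rintro z (rfl | rfl) <;> exact ⟨‹_›, ‹_›⟩)
    have dψ : D ψ ∈ R := root_mem iR (by norm_num) e3 p3 (hD _ mg2) (hD _ mρ2) ug2 u2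
    apply stable_Cl
    rintro z (rfl | rfl | rfl | rfl | rfl)
    · exact dx
    · exact dn
    · exact root_mem iR (by norm_num) e1 p1 (hD _ mg1) (hD _ mρ1) ug1 u1
    · refine iR.of_mul (y := T.Φ2 * D ψ - 90 * ψ ^ 2 * r) ?_ m2 u2'
        (R.sub_mem (R.mul_mem p2 dψ) (R.mul_mem (R.mul_mem (ofNat_mem R 90) (R.pow_mem p3 2)) hr))
      apply mul_left_cancel₀ Φ0
      linear_combination ψ * dΦ D - D ψ * eψ - 90 * ψ ^ 2 * er
    · exact dψ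
  have s1 : Stable T.v1 R := by
    refine key _ (iR.of_mul d2 (le mg2) ug2 (R.mul_mem p1 (le mκ1))) ⟨T.Φ2 * T.Φ1 * α1 / (ψ * g2),
      iR.div (R.mul_mem (R.mul_mem p2 p1) (le mα1)) (R.mul_mem p3 (le mg2)) (unit_mul uψ ug2), ?_⟩
    have := ne_of_unit uψ
    have := ne_of_unit ug2
    field_simp
    linear_combination ψ * d1 - T.Φ1 * α1 * eψ
  have s2 : Stable T.v2 R := by
    refine key _ (iR.of_mul d4 (le mg1) ug1 (R.mul_mem p2 (le mκ2))) ⟨α2 / g1,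
      iR.div (le mα2) (le mg1) ug1, ?_⟩
    have := ne_of_unit ug1
    field_simp
    linear_combination d3
  refine Or.inl ⟨R, RV, ⟨p1, p2, le mu, iR.of_mul eia (le mν) uν (R.mul_mem (le mg1) (le mg2)),
    R.mul_mem (R.mul_mem xR p1) p2, R.mul_mem (R.mul_mem (le my) p1) p2⟩, s1, s2, T.Φ2, p2, n, nR,
    ?_⟩
  have jV : Jac T.v1 T.v2 ψ n ∈ V := RV _ (R.sub_mem (R.mul_mem (s1 _ p3) (s2 _ nR))
    (R.mul_mem (s2 _ p3) (s1 _ nR)))
  have eq : Jac T.v1 T.v2 T.Φ2 n * (2 * ψ * (g1 * g2)) =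
      -90 * ψ ^ 2 * σ * T.Φ1 * ν + T.Φ2 * (Jac T.v1 T.v2 ψ n * (g1 * g2)) := by
    apply mul_left_cancel₀ Φ0
    have h : 2 * T.Φ2 * Jac T.v1 T.v2 T.Φ2 n =
        T.M * Jac T.v1 T.v2 ψ n - 90 * ψ * Jac T.v1 T.v2 T.X n := by
      simp only [Jac]
      linear_combination T.v2 n * dΦ T.v1 - T.v1 n * dΦ T.v2
    linear_combination ψ * (g1 * g2) * h - 90 * ψ ^ 2 * eJ
      - Jac T.v1 T.v2 ψ n * (g1 * g2) * eψ
  refine unit_of_mul_unit eq (unit_mul u2' (unit_mul ug1 ug2)) (unit_add ?_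
    (lt_mul lΦ2 (V.mul_mem _ _ jV (mem_of_unit (unit_mul ug1 ug2)))))
  refine unit_mul (unit_mul (unit_mul (unit_mul ?_ (unit_pow uψ 2)) uσ) uΦ1) uν
  rw [Valuation.map_neg]; exact hC.ofNat 90

namespace Arm
variable {a : Arm} {T : Setup K} (ok : a.Ok) (hf : a.Fits T) {V : ValuationSubring K} (hC : HC V)
  (hG : T.Gen (VA hC))
include ok hf hG

theorem res_M (hx : T.X ∈ V) (hM : V.valuation T.M < 1) (hl : V.valuation (a.l T) < 1) :
    T.Res hC := by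
  have M0 : T.M ≠ 0 := T.hM
  have ux : V.valuation T.X = 1 := by
    refine unit_of_one_add hx (q := -90) (V.neg_mem _ (mem_of_unit (hC.ofNat 90))) ?_
    have : 1 + T.X * -90 = T.M := by simp only [Setup.M, Mf]; ring
    rwa [this]
  have uπ : V.valuation (a.π T) = 1 := by
    have c90 : algebraMap ℂ K (1 / 90) * 90 = 1 := by
      rw [← map_ofNat (algebraMap ℂ K) 90, ← map_mul]; norm_num
    have h1 : V.valuation (T.X - algebraMap ℂ K (1 / 90)) < 1 := by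
      have : T.X - algebraMap ℂ K (1 / 90) = T.M * (-algebraMap ℂ K (1 / 90)) := by
        simp only [Setup.M, Mf]; linear_combination (-T.X) * c90
      rw [this]; exact lt_mul hM (V.neg_mem _ (hC _))
    have h2 := ev1_congr hx (hC _) h1 (1 :: a.pt)
    have h3 : V.valuation (ev1 (1 :: a.pt) (algebraMap ℂ K (1 / 90))) = 1 := by
      rw [← map_ev1]
      refine hC.unit ?_
      have := map_ev1 (algebraMap ℚ ℂ) (1 / 90) (1 :: a.pt)
      rw [show algebraMap ℚ ℂ (1 / 90) = 1 / 90 by simp] at this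
      rw [← this]
      exact (map_ne_zero _).2 ok.cop
    have := add_unit h2 h3
    rwa [sub_add_cancel] at this
  obtain ⟨n, el⟩ : ∃ n, a.l T = T.M ^ a.μ * n :=
    ⟨a.l T / T.M ^ a.μ, by rw [mul_div_cancel₀ _ (pow_ne_zero _ M0)]⟩
  have pU := pr_unit ok hC ux hl
  have eu : T.UM = n ^ a.u0 * a.pr T a.u1 a.u2 a.u3 := by
    apply mul_left_cancel₀ (pow_ne_zero 2 M0)
    have := eU hf
    have e : a.l T ^ a.u0 = T.M ^ 2 * n ^ a.u0 := by rw [el, mul_pow, ← pow_mul, ok.nμ]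
    rw [e] at this
    linear_combination this
  have hn : n ∈ V := mem_of_pow ok.u0 (mem_of_mul_unit eu.symm (pU _ _ _) hG.um)
  have sV : ∀ z ∈ Cl V {T.X, n}, z ∈ V := Cl_sub hC (by rintro z (rfl | rfl) <;> assumption)
  set S := Cl V {T.X, n} with hS
  have xS : T.X ∈ S := subset_Cl _ _ (by simp)
  have nS : n ∈ S := subset_Cl _ _ (by simp)
  have MS : T.M ∈ S := Mf_mem' S.toSubring xS
  have πS : a.π T ∈ S := ev1_mem S.toSubring xS _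
  have lS : a.l T ∈ S := el ▸ S.mul_mem (S.pow_mem MS _) nS
  have yS : T.Y ∈ S := by
    rw [← a.hY T]; exact S.add_mem (S.mul_mem (intCast_mem _ _) xS) lS
  have pS := fun i j k => pr_mem (a := a) S.toSubring xS lS i j k
  have uS : T.UM ∈ S := eu ▸ S.mul_mem (S.pow_mem nS _) (pS _ _ _)
  obtain ⟨g1, hg1, g2, hg2, ν, hν, r1, hr1, r2, hr2, r3, hr3, α1, hα1, κ1, hκ1, α2, hα2, κ2, hκ2,
    eg1, eg2, eν, E1, E2, d1, d2, d3, d4, eia, eJ⟩ := fin_pack hf ok.fM (h1 := a.π T ^ a.e1)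
    (h2 := a.π T ^ a.e2) (p := T.M) S.toSubring xS nS (S.pow_mem πS _) (S.pow_mem πS _)
    (Mf_eq _) M0 el (by rw [hd1 ok]; ring) (by rw [hd2 ok]; ring) (by rw [hdN ok]; ring)
  have t1 : T.Φ1 ^ 10 * g1 = n ^ a.e1 * a.pr T a.f1 a.f2 a.f3 := by
    apply mul_left_cancel₀ (pow_ne_zero a.m1 M0)
    have := eT1 hf
    rw [E1] at this
    have e : a.l T ^ a.e1 * T.M ^ 2 = T.M ^ a.m1 * n ^ a.e1 := by
      rw [el, mul_pow, ← pow_mul, hf.n1]; ring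
    linear_combination this + a.pr T a.f1 a.f2 a.f3 * e
  have t2 : T.Φ2 ^ 10 * g2 = T.M ^ (5 * a.τ) * (n ^ a.e2 * a.pr T a.h1 a.h2 a.h3) := by
    apply mul_left_cancel₀ (pow_ne_zero a.m2 M0)
    have := eT2 hf
    rw [E2] at this
    have e : a.l T ^ a.e2 * T.M ^ 2 = T.M ^ (a.m2 + 5 * a.τ) * n ^ a.e2 := by
      rw [el, mul_pow, ← pow_mul, hf.n2]; ring
    linear_combination this + a.pr T a.h1 a.h2 a.h3 * e
  rcases unit_or_lt hn with un | ln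
  · have uσ : V.valuation (-4 * n * a.pr T 1 1 1) = 1 := by
      refine unit_mul (unit_mul ?_ un) (pU _ _ _)
      rw [Valuation.map_neg]; exact hC.ofNat 4
    rcases hf.n3 with h0 | ⟨h1, h2⟩
    · rw [h0, mul_zero, pow_zero, one_mul] at t2
      exact T.chart_good hC (y := 1) (z1 := T.X) (z2 := T.Y) hG hx hn hG.p1 hg1 hg2 hν
        (S.mul_mem (S.pow_mem nS _) (pS _ _ _)) (S.mul_mem (S.pow_mem nS _) (pS _ _ _))
        (S.mul_mem (S.pow_mem MS _) hα1) hα2 hκ1 hκ2 S.one_mem xS yS uS t1 t2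
        (unit_mul (unit_pow un _) (pU _ _ _)) (unit_mul (unit_pow un _) (pU _ _ _)) d1 d2 d3 d4
        (one_mul _).symm rfl rfl eia eJ uσ
    · rw [h1, mul_one] at t2
      rw [h1, pow_one] at d1
      have ug2 : V.valuation g2 = 1 := by
        obtain ⟨r, hr, E⟩ := ev2_head V.toSubring hx (mem_of_lt hl) a.G2
        rw [← evG2, hd2 ok, E2, h2, pow_zero, one_mul, one_mul] at E
        rw [E]
        exact unit_add (unit_mul (hC.int (by decide)) (unit_pow uπ _)) (lt_mul hl hr)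
      exact T.chart_branch hC hG hx hn hM hg1 hg2 hν (S.mul_mem (S.pow_mem nS _) (pS _ _ _))
        (S.mul_mem (S.pow_mem nS _) (pS _ _ _)) hα1 hα2 hκ1 hκ2 yS uS t1 t2
        (unit_mul (unit_pow un _) (pU _ _ _)) (unit_mul (unit_pow un _) (pU _ _ _)) ug2 d1 d2 d3 d4
        eia eJ uσ
  · refine Or.inr (T.chart_bad hC (y := 1) (z1 := T.X) (z2 := T.Y) (unit_pow uπ _) (unit_pow uπ _)
      (lt_mul ln (sV _ hr1)) (lt_mul ln (sV _ hr2)) (lt_mul ln (sV _ hr3)) eg1 eg2 eν ?_ ?_ ?_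
      V.one_mem hx (sV _ yS) (one_mul _).symm rfl rfl eia)
    · rw [t1]; exact lt_mul (lt_pow ln ok.e1) (mem_of_unit (pU _ _ _))
    · rw [t2]
      exact mul_lt (sV _ (S.pow_mem MS _)) (lt_mul (lt_pow ln ok.e2) (mem_of_unit (pU _ _ _)))
    · rw [eu]; exact lt_mul (lt_pow ln ok.u0) (mem_of_unit (pU _ _ _))

theorem res_inf {t : K} (hxt : T.X * t = 1) (ht : V.valuation t < 1)
    (hl : V.valuation (a.l T * t) < 1) : T.Res hC := by
  have t0 : t ≠ 0 := by rintro rfl; simp at hxt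
  have tV := mem_of_lt ht
  have hp : ∀ k : ℕ, T.X ^ k * t ^ k = 1 := fun k => by rw [← mul_pow, hxt, one_pow]
  obtain ⟨n, el⟩ : ∃ n, a.l T = n * t ^ a.μ' :=
    ⟨a.l T * T.X ^ a.μ', by rw [mul_assoc, hp, mul_one]⟩
  obtain ⟨φ, eφ⟩ : ∃ φ, T.Φ1 = t * φ := ⟨T.X * T.Φ1, by rw [← mul_assoc, mul_comm t, hxt, one_mul]⟩
  have eM : t * T.M = t - 90 := by simp only [Setup.M, Mf]; linear_combination (-90) * hxt
  have uM : V.valuation (t * T.M) = 1 := by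
    rw [eM, sub_eq_add_neg]
    refine add_unit ht ?_
    rw [Valuation.map_neg]; exact hC.ofNat 90
  have pU := prI_unit ok hC hl
  have eu : T.UM * (t * T.M) ^ 2 = n ^ a.u0 * a.prI (a.l T * t) a.u1 a.u2 a.u3 := by
    rw [← pr_inf hxt, ← ok.nu]
    have e : a.l T ^ a.u0 = n ^ a.u0 * t ^ (a.μ' * a.u0) := by rw [el, mul_pow, ← pow_mul]
    have := eU hf
    rw [e] at this
    linear_combination t ^ 2 * this
  have hn : n ∈ V := mem_of_pow ok.u0 (mem_of_mul_unit eu.symm (pU _ _ _)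
    (V.mul_mem _ _ hG.um (mem_of_unit (unit_pow uM 2))))
  have sV : ∀ z ∈ Cl V {t, n}, z ∈ V := Cl_sub hC (by rintro z (rfl | rfl) <;> assumption)
  set S := Cl V {t, n} with hS
  have tS : t ∈ S := subset_Cl _ _ (by simp)
  have nS : n ∈ S := subset_Cl _ _ (by simp)
  have MS : t * T.M ∈ S := eM ▸ S.sub_mem tS (ofNat_mem S 90)
  have lS : a.l T ∈ S := el ▸ S.mul_mem nS (S.pow_mem tS _)
  have pS := fun i j k => prI_mem (a := a) S.toSubring (S.mul_mem lS tS) i j k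
  obtain ⟨rπ, hrπ, eπ⟩ := lead_mem S.toSubring tS hxt a.pt 1
  have uπ : V.valuation (t ^ a.pt.length * a.π T) = 1 := by
    rw [π, eπ]; exact unit_add (hC.int ok.lead) (lt_mul ht (sV _ hrπ))
  have πS : t ^ a.pt.length * a.π T ∈ S := by
    rw [π, eπ]; exact S.add_mem (intCast_mem S _) (S.mul_mem tS hrπ)
  have μ1 := Nat.pos_of_ne_zero ok.μ'
  obtain ⟨r1, hr1, E1⟩ := inf2_head S.toSubring tS nS hxt a.μ' a.G1 _ 1 ok.i1 a.d1 (by omega)
  obtain ⟨r2, hr2, E2⟩ := inf2_head S.toSubring tS nS hxt a.μ' a.G2 _ 0 (inf2_tail _ _ _ ok.i2)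
    a.d2 rfl
  obtain ⟨r3, hr3, E3⟩ := inf2_head S.toSubring tS nS hxt a.μ' a.N _ 0 (inf2_tail _ _ _ ok.iN)
    (a.d1 + a.d2) rfl
  rw [← el, ← evG1, hd1 ok] at E1
  rw [← el, ← evG2, hd2 ok] at E2
  rw [← el, ← evN, hdN ok] at E3
  set h1 := (t * T.M) ^ a.m1 * (t ^ a.pt.length * a.π T) ^ a.e1 with hh1
  set h2 := (t * T.M) ^ a.m2 * (t ^ a.pt.length * a.π T) ^ a.e2 with hh2
  have uh1 : V.valuation h1 = 1 := unit_mul (unit_pow uM _) (unit_pow uπ _)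
  have uh2 : V.valuation h2 = 1 := unit_mul (unit_pow uM _) (unit_pow uπ _)
  have h1S : h1 ∈ S := S.mul_mem (S.pow_mem MS _) (S.pow_mem πS _)
  have h2S : h2 ∈ S := S.mul_mem (S.pow_mem MS _) (S.pow_mem πS _)
  have eh1 : t ^ a.d1 * (T.M ^ a.m1 * a.π T ^ a.e1) = h1 := by
    rw [hh1, ok.nd1, mul_pow, mul_pow, ← pow_mul]; ring
  have eh2 : t ^ a.d2 * (T.M ^ a.m2 * a.π T ^ a.e2) = h2 := by
    rw [hh2, ok.nd2, mul_pow, mul_pow, ← pow_mul]; ring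
  obtain ⟨g1, hg1⟩ : ∃ g, g = t ^ a.d1 * T.G1 := ⟨_, rfl⟩
  obtain ⟨g2, hg2⟩ : ∃ g, g = t ^ a.d2 * T.G2 := ⟨_, rfl⟩
  obtain ⟨ν, hν⟩ : ∃ g, g = t ^ (a.d1 + a.d2) * T.N := ⟨_, rfl⟩
  have eg1 : g1 = gam * h1 + n * (t * r1) := by rw [hg1, E1, ← eh1]; ring
  have eg2 : g2 = gam * h2 + n * r2 := by rw [hg2, E2, ← eh2]; ring
  have eν : ν = cN * (h1 * h2) + n * r3 := by rw [hν, E3, ← eh1, ← eh2]; ring
  have g1S : g1 ∈ S :=
    eg1 ▸ S.add_mem (S.mul_mem (intCast_mem S _) h1S) (S.mul_mem nS (S.mul_mem tS hr1))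
  have g2S : g2 ∈ S := eg2 ▸ S.add_mem (S.mul_mem (intCast_mem S _) h2S) (S.mul_mem nS hr2)
  have νS : ν ∈ S :=
    eν ▸ S.add_mem (S.mul_mem (intCast_mem S _) (S.mul_mem h1S h2S)) (S.mul_mem nS hr3)
  have ug1 : V.valuation g1 = 1 := eg1 ▸ unit_add (unit_mul (hC.int (by decide)) uh1)
    (mul_lt hn (lt_mul ht (sV _ hr1)))
  have t1 : φ ^ 10 * g1 = n ^ a.e1 * (a.prI (a.l T * t) a.f1 a.f2 a.f3 * (t * T.M) ^ 2) := by
    apply mul_left_cancel₀ (pow_ne_zero 10 t0)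
    have e : a.l T ^ a.e1 * t ^ a.d1 = n ^ a.e1 * t ^ (a.f1 + a.f2 + a.f3 + 12) := by
      rw [el, mul_pow, ← pow_mul, ← ok.nf]; ring
    have := eT1 hf
    rw [eφ] at this
    rw [← pr_inf hxt, hg1]
    linear_combination t ^ a.d1 * this + a.pr T a.f1 a.f2 a.f3 * T.M ^ 2 * e
  have t2 : T.Φ2 ^ 10 * g2 = n ^ a.e2 * (a.prI (a.l T * t) a.h1 a.h2 a.h3 * (t * T.M) ^ 2) := by
    have e : a.l T ^ a.e2 * t ^ a.d2 = n ^ a.e2 * t ^ (a.h1 + a.h2 + a.h3 + 2) := by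
      rw [el, mul_pow, ← pow_mul, ← ok.nh]; ring
    rw [← pr_inf hxt, hg2]
    linear_combination t ^ a.d2 * eT2 hf + a.pr T a.h1 a.h2 a.h3 * T.M ^ 2 * e
  have M2 := unit_pow uM 2
  have hφ : φ ∈ V := mem_of_pow (by norm_num) (mem_of_mul_unit t1 ug1
    (V.mul_mem _ _ (V.toSubring.pow_mem hn _) (mem_of_unit (unit_mul (pU _ _ _) M2))))
  have ez1 : T.X * T.Φ1 = 1 * φ := by rw [eφ]; linear_combination φ * hxt
  have ez2 : T.Y * T.Φ1 = (a.s + a.l T * t) * φ := by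
    rw [eφ, ← a.hY T]; linear_combination a.s * φ * hxt
  have zS : a.s + a.l T * t ∈ S := S.add_mem (intCast_mem S _) (S.mul_mem lS tS)
  have eia : T.ia * ν = g1 * g2 := by
    rw [hν, hg1, hg2]; linear_combination t ^ (a.d1 + a.d2) * ia_mul (T := T)
  rcases unit_or_lt hn with un | ln
  · obtain ⟨α1, hα1, κ1, hκ1, d1, d2⟩ := inf_data S.toSubring T.w1 tS nS hxt a.μ' a.d2 1 _ _ el hg2
      (a.dX1 T) (dl1 hf) ok.iA1 ok.iC1
    obtain ⟨α2, hα2, κ2, hκ2, d3, d4⟩ := inf_data S.toSubring T.w2 tS nS hxt a.μ' a.d1 0 _ _ el hg1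
      (a.dX2 T) (dl2 hf) ok.iA2 ok.iC2
    refine T.chart_good hC (y := t) (σ := 4 * n * a.prI (a.l T * t) 1 1 1) hG tV hn hφ g1S g2S νS
      ?_ ?_ hα1 hα2 hκ1 hκ2 tS S.one_mem zS ?_ t1 t2 (unit_mul (unit_pow un _)
      (unit_mul (pU _ _ _) M2)) (unit_mul (unit_pow un _) (unit_mul (pU _ _ _) M2)) ?_ ?_ ?_ ?_ eφ
      ez1 ez2 eia ?_ (unit_mul (unit_mul (hC.ofNat 4) un) (pU _ _ _))
    · exact S.mul_mem (S.pow_mem nS _) (S.mul_mem (pS _ _ _) (S.pow_mem MS _))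
    · exact S.mul_mem (S.pow_mem nS _) (S.mul_mem (pS _ _ _) (S.pow_mem MS _))
    · exact (invCl_Cl _ _).of_mul eu (S.pow_mem MS _) M2 (S.mul_mem (S.pow_mem nS _) (pS _ _ _))
    · rw [T.v1_apply, eφ, ← d1]; ring
    · rw [T.v1_apply, eφ, ← d2]; ring
    · rw [T.v2_apply, ← d3]; ring
    · rw [T.v2_apply, ← d4]; ring
    · have hJ := jac_l hf
      rw [Jac_lin' T.v1 T.v2 (x := T.X) (t := t) (l := a.l T) (a := -T.X ^ 2) (fun D => by
        have := congrArg D hxt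
        rw [Derivation.leibniz, Derivation.map_one_eq_zero, smul_eq_mul, smul_eq_mul] at this
        linear_combination T.X * this - D T.X * hxt),
        Jac_lin T.v1 T.v2 (x := t) (n := n) (l := a.l T)
        (a := n * (a.μ' * t ^ (a.μ' - 1))) (b := t ^ a.μ') (fun D => by
        rw [el, Derivation.leibniz, Derivation.leibniz_pow]
        simp only [smul_eq_mul, nsmul_eq_mul]; ring)] at hJ
      rw [← pr_inf hxt, hg1, hg2, hν]
      apply mul_left_cancel₀ (pow_ne_zero a.μ' t0)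
      have h2 := hp 2
      linear_combination (-(t ^ (a.d1 + a.d2 + 2))) * hJ
        - t ^ (a.μ' + a.d1 + a.d2) * Jac T.v1 T.v2 t n * (T.G1 * T.G2) * h2
        + 4 * t ^ (a.d1 + a.d2 + 2) * T.Φ2 * a.pr T 1 1 1 * T.N * (a.l T * eφ + t * φ * el)
  · refine Or.inr (T.chart_bad hC (y := t) uh1 uh2
      (lt_mul ln (sV _ (S.mul_mem tS hr1))) (lt_mul ln (sV _ hr2)) (lt_mul ln (sV _ hr3)) eg1 eg2 eν
      ?_ ?_ ?_ tV V.one_mem (sV _ zS) eφ ez1 ez2 eia)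
    · rw [t1]; exact lt_mul (lt_pow ln ok.e1) (mem_of_unit (unit_mul (pU _ _ _) M2))
    · rw [t2]; exact lt_mul (lt_pow ln ok.e2) (mem_of_unit (unit_mul (pU _ _ _) M2))
    · exact lt_of_mul_unit eu M2 (lt_mul (lt_pow ln ok.u0) (mem_of_unit (pU _ _ _)))

end Arm

end Crest.Agent.R278
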