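import Crest.Agent.R278.Fin
import Crest.Agent.R278.MInf

/-! Classification of the places over the surface, and the place at the origin. -/

set_option autoImplicit false
set_option linter.unusedSectionVars false

namespace Crest.Agent.R278

variable {K : Type} [Field K] [Algebra ℂ K] {V : ValuationSubring K}

theorem not_mem_inv {y : K} (h : y ∉ V) : y ≠ 0 ∧ V.valuation y⁻¹ < 1 := by
  refine ⟨by rintro rfl; exact h V.zero_mem, ?_⟩
  rw [← V.valuation_le_one_iff, not_le] at h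
  rw [map_inv₀]
  exact inv_lt_one_of_one_lt₀ h

theorem ofNat_memV (c : ℕ) [c.AtLeastTwo] : (ofNat(c) : K) ∈ V := ofNat_mem V.toSubring c

theorem Y_mem {x y : K} (hx : x ∈ V) (hU : Uf x y ∈ V) : y ∈ V := by
  by_contra hy
  obtain ⟨y0, hz⟩ := not_mem_inv hy
  have u : ∀ c : K, c ∈ V → V.valuation (1 + c * x * y⁻¹) = 1 := fun c hc =>
    unit_add (map_one _) (mul_lt (V.mul_mem _ _ hc hx) hz)
  have e : Uf x y * y⁻¹ ^ 6 = (1 + -9 * x * y⁻¹) ^ 2 * (1 + 9 * x * y⁻¹) ^ 2 *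
      (1 + -26 * x * y⁻¹) * (1 + 26 * x * y⁻¹) := by
    simp only [Uf]; field_simp; ring
  have h1 := mul_lt hU (lt_pow hz (n := 6) (by norm_num))
  rw [e] at h1
  exact h1.ne (unit_mul (unit_mul (unit_mul (unit_pow (u _ (V.neg_mem _ (ofNat_memV 9))) 2)
    (unit_pow (u _ (ofNat_memV 9)) 2)) (u _ (V.neg_mem _ (ofNat_memV 26)))) (u _ (ofNat_memV 26)))

theorem lines {x y : K} (hx : x ∈ V) (hy : y ∈ V) :
    (V.valuation (Uf x y) = 1 ∧ V.valuation (Qf x y) = 1) ∨ V.valuation (y - 9 * x) < 1 ∨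
      V.valuation (-y - 9 * x) < 1 ∨ V.valuation (y - 26 * x) < 1 ∨
      V.valuation (-y - 26 * x) < 1 := by
  have m : ∀ z c : K, z ∈ V → c ∈ V → z - c * x ∈ V := fun z c hz hc =>
    V.toSubring.sub_mem hz (V.mul_mem _ _ hc hx)
  rcases unit_or_lt (m y 9 hy (ofNat_memV 9)) with h1 | h1
  swap; · exact Or.inr (Or.inl h1)
  rcases unit_or_lt (m (-y) 9 (V.neg_mem _ hy) (ofNat_memV 9)) with h2 | h2
  swap; · exact Or.inr (Or.inr (Or.inl h2))
  rcases unit_or_lt (m y 26 hy (ofNat_memV 26)) with h3 | h3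
  swap; · exact Or.inr (Or.inr (Or.inr (Or.inl h3)))
  rcases unit_or_lt (m (-y) 26 (V.neg_mem _ hy) (ofNat_memV 26)) with h4 | h4
  swap; · exact Or.inr (Or.inr (Or.inr (Or.inr h4)))
  rw [show -y - 9 * x = -(y + 9 * x) by ring, Valuation.map_neg] at h2
  rw [show -y - 26 * x = -(y + 26 * x) by ring, Valuation.map_neg] at h4
  exact Or.inl ⟨unit_mul (unit_mul (unit_mul (unit_pow h1 2) (unit_pow h2 2)) h3) h4,
    unit_mul (unit_mul (unit_mul h1 h2) h3) h4⟩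

theorem res_fin {a : Arm} {T : Setup K} (ok : a.Ok) (hf : a.Fits T) (hC : HC V)
    (hG : T.Gen (VA hC)) (hx : T.X ∈ V) (hl : V.valuation (a.l T) < 1) : T.Res hC := by
  rcases unit_or_lt (x := T.M) (Mf_mem V.toSubring hx) with hM | hM
  · exact Arm.res_line ok hf hC hG hx hM hl
  · exact Arm.res_M ok hf hC hG hx hM hl

theorem l1 (T : Setup K) : arm1.l T = T.Y - 9 * T.X := by simp [Arm.l, arm1]
theorem l3 (T : Setup K) : arm3.l T = T.Y - 26 * T.X := by simp [Arm.l, arm3]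

theorem classify (T : Setup K) (hC : HC V) (hG : T.Gen (VA hC)) : T.Res hC := by
  have eU : T.UM * T.M ^ 2 = Uf T.X T.Y := div_mul_cancel₀ _ (pow_ne_zero 2 T.hM)
  have hG' := T.gen_swap hG
  by_cases hx : T.X ∈ V
  · have MV : T.M ^ 2 ∈ V := V.toSubring.pow_mem (Mf_mem V.toSubring hx) 2
    have hy : T.Y ∈ V := Y_mem hx (eU ▸ V.mul_mem _ _ hG.um MV)
    rcases lines hx hy with ⟨h, hQ⟩ | h | h | h | h
    · exact Arm.res_plane arm1_ok (arm1_fits T) hC hG hx hy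
        (unit_of_pow (by norm_num) (unit_of_mul hG.um MV (eU ▸ h)).2) hQ
    · exact res_fin arm1_ok (arm1_fits T) hC hG hx (by rwa [l1])
    · exact T.res_of_swap hC (res_fin arm1_ok (arm1_fits T.swap) hC hG' hx (by rwa [l1]))
    · exact res_fin arm3_ok (arm3_fits T) hC hG hx (by rwa [l3])
    · exact T.res_of_swap hC (res_fin arm3_ok (arm3_fits T.swap) hC hG' hx (by rwa [l3]))
  · obtain ⟨x0, ht⟩ := not_mem_inv hx
    obtain ⟨t, hxt, ht⟩ : ∃ t, T.X * t = 1 ∧ V.valuation t < 1 := ⟨_, mul_inv_cancel₀ x0, ht⟩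
    have e : Uf 1 (T.Y * t) = T.UM * (t - 90) ^ 2 * t ^ 4 := by
      have e1 : Uf (T.X * t) (T.Y * t) = Uf T.X T.Y * t ^ 6 := by simp only [Uf]; ring
      have e2 : t * T.M = t - 90 := by simp only [Setup.M, Mf]; linear_combination (-90) * hxt
      rw [hxt] at e1
      rw [e1, ← eU, ← e2]; ring
    have hU : V.valuation (Uf 1 (T.Y * t)) < 1 := by
      rw [e]
      exact mul_lt (V.mul_mem _ _ hG.um (V.toSubring.pow_mem
        (V.toSubring.sub_mem (mem_of_lt ht) (ofNat_memV 90)) 2)) (lt_pow ht (by norm_num))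
    have hy : T.Y * t ∈ V := Y_mem V.one_mem (mem_of_lt hU)
    have e1 : ∀ y c : K, (y - c * T.X) * t = y * t - c * 1 := fun y c => by
      linear_combination (-c) * hxt
    rcases lines V.one_mem hy with ⟨h, hQ⟩ | h | h | h | h
    · exact absurd h hU.ne
    · exact Arm.res_inf arm1_ok (arm1_fits T) hC hG hxt ht (by rwa [l1, e1])
    · exact T.res_of_swap hC (Arm.res_inf arm1_ok (arm1_fits T.swap) hC hG' hxt ht
        (by rw [l1]; erw [e1]; rwa [← neg_mul] at h))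
    · exact Arm.res_inf arm3_ok (arm3_fits T) hC hG hxt ht (by rwa [l3, e1])
    · exact T.res_of_swap hC (Arm.res_inf arm3_ok (arm3_fits T.swap) hC hG' hxt ht
        (by rw [l3]; erw [e1]; rwa [← neg_mul] at h))

theorem ev1_unit (hC : HC V) {x : K} (hx : V.valuation x < 1) (p : P1) (h : p.headD 0 ≠ 0) :
    V.valuation (ev1 p x) = 1 := by
  rcases p with _ | ⟨c, p⟩
  · exact absurd rfl h
  · exact unit_add (hC.int h) (lt_mul hx (ev1_mem V.toSubring (mem_of_lt hx) p))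

theorem ev2_unit (hC : HC V) {x y : K} (hx : V.valuation x < 1) (hy : V.valuation y < 1) (P : P2)
    (h : (P.headD []).headD 0 ≠ 0) : V.valuation (ev2 P x y) = 1 := by
  obtain ⟨r, hr, e⟩ := ev2_head V.toSubring (mem_of_lt hx) (mem_of_lt hy) P
  rw [e]
  exact unit_add (ev1_unit hC hx _ h) (lt_mul hy hr)

theorem g1_unit (hC : HC V) {x y : K} (hx : V.valuation x < 1) (hy : V.valuation y < 1) :
    V.valuation (ev2 g1L x y) = 1 := ev2_unit hC hx hy _ (by decide +kernel)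

theorem Nf_eq (x y : K) : Nf x y = ev2 (sub2 (mul2 a1L b2L) (mul2 a2L b1L)) x y := by
  rw [ev2_sub, ev2_mul, ev2_mul, b2L, a2L, ev2_smul, ev2_neg, ev2_neg]; simp [Nf, ev1]

theorem N_unit (hC : HC V) {x y : K} (hx : V.valuation x < 1) (hy : V.valuation y < 1) :
    V.valuation (Nf x y) = 1 := Nf_eq x y ▸ ev2_unit hC hx hy _ (by decide +kernel)

theorem M_unit (hC : HC V) {x : K} (hx : V.valuation x < 1) : V.valuation (Mf x) = 1 :=
  Mf_eq x ▸ ev1_unit hC hx _ (by decide)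

theorem logIn_l {a : Arm} {T : Setup K} (hf : a.Fits T) {R : Subalgebra ℂ K} (iR : InvCl V R)
    (xR : T.X ∈ R) (yR : T.Y ∈ R) (u1 : V.valuation T.G1 = 1) (u2 : V.valuation T.G2 = 1) :
    LogIn T.w1 R (a.l T) ∧ LogIn T.w2 R (a.l T) := by
  have lR : a.l T ∈ R := R.sub_mem yR (R.mul_mem (intCast_mem R _) xR)
  have eS := fun P => ev2_mem R.toSubring xR lR P
  constructor
  · refine ⟨Arm.l_ne hf, _, iR.div (eS a.B1) (a.evG2 T ▸ eS _) u2, ?_⟩
    have := ne_of_unit u2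
    field_simp
    linear_combination Arm.dl1 hf
  · refine ⟨Arm.l_ne hf, _, iR.div (eS a.B2) (a.evG1 T ▸ eS _) u1, ?_⟩
    have := ne_of_unit u1
    field_simp
    linear_combination Arm.dl2 hf

theorem origin (T : Setup K) (hC : HC V) (hx : V.valuation T.X < 1) (hy : V.valuation T.Y < 1) :
    ∃ R : Subalgebra ℂ K, (∀ x ∈ R, x ∈ V) ∧ T.Gen R ∧ Stable T.w1 R ∧ Stable T.w2 R ∧
      V.valuation T.Φ1 < 1 ∧ V.valuation T.Φ2 < 1 ∧ T.Gen (Cst hC) := by
  have hy' : V.valuation (-T.Y) < 1 := by rwa [Valuation.map_neg]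
  have u1 : V.valuation T.G1 = 1 := g1_unit hC hx hy
  have u2 : V.valuation T.G2 = 1 := g1_unit hC hx hy'
  have uN : V.valuation T.N = 1 := N_unit hC hx hy
  have uM : V.valuation T.M = 1 := M_unit hC hx
  have hl : V.valuation (arm1.l T) < 1 := l1 T ▸ lt_sub hy (mul_lt (ofNat_memV 9) hx)
  have pV := fun i j k => Arm.pr_mem (a := arm1) V.toSubring (mem_of_lt hx) (mem_of_lt hl) i j k
  have M2 := mem_of_unit (unit_pow uM 2)
  have a1 : V.valuation T.Φ1 < 1 := lt_of_pow (lt_of_mul_unit (Arm.eT1 (arm1_fits T)) u1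
    (lt_mul (lt_mul (lt_pow hl arm1_ok.e1) (pV _ _ _)) M2))
  have a2 : V.valuation T.Φ2 < 1 := lt_of_pow (lt_of_mul_unit (Arm.eT2 (arm1_fits T)) u2
    (lt_mul (lt_mul (lt_pow hl arm1_ok.e2) (pV _ _ _)) M2))
  set R := Cl V {T.X, T.Y, T.Φ1, T.Φ2} with hR
  have iR : InvCl V R := invCl_Cl _ _
  have xR : T.X ∈ R := subset_Cl _ _ (by simp)
  have yR : T.Y ∈ R := subset_Cl _ _ (by simp)
  have p1 : T.Φ1 ∈ R := subset_Cl _ _ (by simp)
  have p2 : T.Φ2 ∈ R := subset_Cl _ _ (by simp)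
  have RV : ∀ z ∈ R, z ∈ V := Cl_sub hC (by
    rintro z (rfl | rfl | rfl | rfl)
    exacts [mem_of_lt hx, mem_of_lt hy, mem_of_lt a1, mem_of_lt a2])
  set S := Cl V {T.X, T.Y} with hS
  have xS : T.X ∈ S := subset_Cl _ _ (by simp)
  have yS : T.Y ∈ S := subset_Cl _ _ (by simp)
  have le : S ≤ R := Cl_le (by rintro z (rfl | rfl) <;> assumption) iR
  have eS := fun P => ev2_mem S.toSubring xS yS P
  have eS' := fun P => ev2_mem S.toSubring xS (S.neg_mem yS) P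
  have G1S : T.G1 ∈ S := eS _
  have G2S : T.G2 ∈ S := eS' _
  have NS : T.N ∈ S := by rw [Setup.N, Nf_eq]; exact eS _
  have MS : T.M ∈ S := Mf_mem S.toSubring xS
  have QXS : QX T.X T.Y ∈ S := S.add_mem (S.mul_mem (S.mul_mem (S.neg_mem (ofNat_mem S 1514)) xS)
    (S.pow_mem yS 2)) (S.mul_mem (ofNat_mem S 219024) (S.pow_mem xS 3))
  have QYS : QY T.X T.Y ∈ S := Arm.evQY T ▸ eS _
  have lR : arm1.l T ∈ R := R.sub_mem yR (R.mul_mem (intCast_mem R _) xR)
  have gen : T.Gen R := ⟨p1, p2, iR.of_mul (Arm.eU (arm1_fits T)) (R.pow_mem (le MS) 2)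
    (unit_pow uM 2) (R.mul_mem (R.pow_mem lR _) (Arm.pr_mem R.toSubring xR lR _ _ _)),
    iR.div (R.mul_mem (le G1S) (le G2S)) (le NS) uN, R.mul_mem (R.mul_mem xR p1) p2,
    R.mul_mem (R.mul_mem yR p1) p2⟩
  have L1 := logIn_l (arm1_fits T) iR xR yR u1 u2
  have L3 := logIn_l (arm3_fits T) iR xR yR u1 u2
  have u1' : V.valuation T.swap.G2 = 1 := by simpa [Setup.G2, Setup.G1, Setup.swap] using u1
  have L2 := logIn_l (arm1_fits T.swap) iR xR (R.neg_mem yR) u2 u1'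
  have L4 := logIn_l (arm3_fits T.swap) iR xR (R.neg_mem yR) u2 u1'
  have key : ∀ D : Derivation ℂ K K, D T.X ∈ R → D T.Y ∈ R → LogIn D R (arm1.l T) →
      LogIn D R (arm1.l T.swap) → LogIn D R (arm3.l T) → LogIn D R (arm3.l T.swap) →
      Stable D R := by
    intro D dx dy k1 k2 k3 k4
    have hD := deriv_mem D (G := {T.X, T.Y}) iR (by rintro z (rfl | rfl) <;> exact ⟨‹_›, ‹_›⟩)
    have kM := LogIn.of_unit iR (le MS) uM (hD _ MS).2
    apply stable_Cl
    rintro z (rfl | rfl | rfl | rfl)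
    · exact dx
    · exact dy
    · refine (LogIn.root (m := 10) (by norm_num) ?_ (LogIn.of_unit iR (le G1S) u1 (hD _ G1S).2)
        (((((k1.pow 4).mul (k2.pow 3)).mul (k3.pow 2)).mul k4).mul (kM.pow 2))).mem p1
      rw [Setup.G1, T.T1, l1, l1, l3, l3]
      simp only [Tf, Setup.swap, Setup.M]; ring
    · refine (LogIn.root (m := 10) (by norm_num) ?_ (LogIn.of_unit iR (le G2S) u2 (hD _ G2S).2)
        (((((k1.pow 3).mul (k2.pow 4)).mul k3).mul (k4.pow 2)).mul (kM.pow 2))).mem p2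
      rw [Setup.G2, T.T2, l1, l1, l3, l3]
      simp only [Tf, Setup.swap, Setup.M]; ring
  refine ⟨R, RV, gen, key _ ?_ ?_ L1.1 L2.2 L3.1 L4.2, key _ ?_ ?_ L1.2 L2.1 L3.2 L4.1, a1, a2, ?_⟩
  · exact iR.of_mul T.w1X (le G2S) u2
      (le (S.add_mem (S.mul_mem (eS _) xS) (S.mul_mem (eS _) QYS)))
  · exact iR.of_mul T.w1Y (le G2S) u2
      (le (S.sub_mem (S.mul_mem (eS _) yS) (S.mul_mem (eS _) QXS)))
  · exact iR.of_mul T.w2X (le G1S) u1
      (le (S.sub_mem (S.mul_mem (eS' _) xS) (S.mul_mem (eS' _) QYS)))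
  · exact iR.of_mul T.w2Y (le G1S) u1
      (le (S.add_mem (S.mul_mem (eS' _) yS) (S.mul_mem (eS' _) QXS)))
  · exact Arm.bad_line arm1_ok (arm1_fits T) hC
      ⟨RV _ gen.p1, RV _ gen.p2, RV _ gen.um, RV _ gen.ia, RV _ gen.xp, RV _ gen.yp⟩
      (mem_of_lt hx) uM hl (ev1_unit hC hx _ (by decide))

end Crest.Agent.R278
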