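import Mathlib

/-! Interface for row 278 (Lipman--Zariski counterexample). -/

set_option autoImplicit false

namespace Crest.Agent.R278

section
variable {K : Type} [Field K] [Algebra ℂ K]

/-- Jacobian of `u, w` with respect to two derivations. -/
def Jac (v1 v2 : Derivation ℂ K K) (u w : K) : K := v1 u * v2 w - v2 u * v1 w

/-- `K` is the fraction field of `R`. -/
def FracTop (R : Subalgebra ℂ K) : Prop := ∀ z : K, ∃ a ∈ R, ∃ b ∈ R, b ≠ 0 ∧ z = a / b

def Stable (D : Derivation ℂ K K) (R : Subalgebra ℂ K) : Prop := ∀ x ∈ R, D x ∈ R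

/-- at a good place the two derivations are regular and form a frame -/
def Good (V : ValuationSubring K) (v1 v2 : Derivation ℂ K K) (A' : Subalgebra ℂ K) : Prop :=
  ∃ R : Subalgebra ℂ K, (∀ x ∈ R, x ∈ V) ∧ A' ≤ R ∧ FracTop R ∧ Stable v1 R ∧ Stable v2 R ∧
    ∃ u ∈ R, ∃ w ∈ R, V.valuation (Jac v1 v2 u w) = 1

/-- the place is centred at a closed point -/
def Bad (V : ValuationSubring K) (A' : Subalgebra ℂ K) : Prop :=
  ∀ x ∈ A', ∃ c : ℂ, V.valuation (x - algebraMap ℂ K c) < 1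

/-- a place over which both derivations vanish -/
def Origin (v1 v2 : Derivation ℂ K K) (A' : Subalgebra ℂ K) : Prop :=
  ∃ (V : ValuationSubring K) (R : Subalgebra ℂ K) (w1 w2 : Derivation ℂ K K) (f1 f2 : K),
    IsNoetherianRing V ∧ (∀ x ∈ R, x ∈ V) ∧ A' ≤ R ∧ FracTop R ∧ Stable w1 R ∧ Stable w2 R ∧
    v1 = f1 • w1 ∧ v2 = f2 • w2 ∧ V.valuation f1 < 1 ∧ V.valuation f2 < 1 ∧ Bad V A'
end

/-- The target statement. -/
def Target : Prop :=
  ∃ (A : Type) (_ : CommRing A) (_ : Algebra ℂ A),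
      IsDomain A ∧ Algebra.FiniteType ℂ A ∧ IsIntegrallyClosed A ∧
      ringKrullDim A = 2 ∧
      Nonempty (Derivation ℂ A A ≃ₗ[A] (Fin 2 → A)) ∧
      ∃ (m : Ideal A) (_ : m.IsMaximal), ¬ IsRegularLocalRing (Localization.AtPrime m)

/-- Algebraic Hartogs: an element outside a normal Noetherian domain `A` lies outside some
localisation of `A` which is a Noetherian valuation ring. -/
def HartogsStmt : Prop :=
  ∀ (A K : Type) [CommRing A] [IsDomain A] [IsNoetherianRing A] [IsIntegrallyClosed A]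
    [Field K] [Algebra A K] [IsFractionRing A K] (x : K), x ∉ (algebraMap A K).range →
    ∃ (q : Ideal A) (V : ValuationSubring K), q.IsPrime ∧ IsNoetherianRing V ∧ x ∉ V ∧
      (∀ z : K, z ∈ V ↔ ∃ a b : A, b ∉ q ∧ z = algebraMap A K a / algebraMap A K b) ∧
      (∀ a : A, V.valuation (algebraMap A K a) < 1 ↔ a ∈ q)

/-- Seidenberg's lemma, valuation form. -/
def SeidenbergStmt : Prop :=
  ∀ (K : Type) [Field K] [Algebra ℂ K] (D : Derivation ℂ K K) (R : Subalgebra ℂ K)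
    (V : ValuationSubring K), IsNoetherianRing V → (∀ x ∈ R, x ∈ V) → FracTop R → Stable D R →
    ∀ u : K, IsIntegral R u → D u ∈ V

/-- Normalisation of a finitely generated subalgebra. -/
def NormStmt : Prop :=
  ∀ (K : Type) [Field K] [Algebra ℂ K] (A' : Subalgebra ℂ K), A'.FG → FracTop A' →
    Algebra.trdeg ℂ K = 2 →
    ∃ A : Subalgebra ℂ K, (∀ x, x ∈ A ↔ IsIntegral A' x) ∧ Algebra.FiniteType ℂ A ∧
      IsIntegrallyClosed A ∧ IsFractionRing A K ∧ ringKrullDim A = 2 ∧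
      -- a prime all of whose residues are constants is maximal ...
      (∀ V : ValuationSubring K, (∀ x ∈ A', x ∈ V) → Bad V A' →
        ∃ m : Ideal A, m.IsMaximal ∧ (∀ a : A, a ∈ m ↔ V.valuation (a : K) < 1) ∧
          (∀ a : A, ∃ c : ℂ, a - algebraMap ℂ A c ∈ m)) ∧
      -- ... and the localisation at a maximal ideal is not a valuation ring
      (∀ m : Ideal A, m.IsMaximal → ∀ V : ValuationSubring K, IsNoetherianRing V →
        ¬ (∀ z : K, z ∈ V ↔ ∃ a b : A, b ∉ m ∧ z = (a : K) / (b : K)))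

/-- If the derivation module is generated by derivations vanishing at `m`, the point is singular. -/
def SingStmt : Prop :=
  ∀ (K : Type) [Field K] [Algebra ℂ K] (A : Subalgebra ℂ K) [IsFractionRing A K]
    (v1 v2 : Derivation ℂ K K) (m : Ideal A) [m.IsMaximal], Algebra.FiniteType ℂ A →
    ringKrullDim A = 2 → (∃ x y : K, Jac v1 v2 x y ≠ 0) →
    (∀ a : A, ∃ c : ℂ, a - algebraMap ℂ A c ∈ m) →
    (∀ a : A, ∃ b ∈ m, v1 a = (b : K)) → (∀ a : A, ∃ b ∈ m, v2 a = (b : K)) →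
    (∀ D : Derivation ℂ K K, Stable D A → ∃ α ∈ A, ∃ β ∈ A, D = α • v1 + β • v2) →
    (∀ D : Derivation ℂ K K, ∃ α β : K, D = α • v1 + β • v2) →
    ¬ IsRegularLocalRing (Localization.AtPrime m)

/-- The abstract criterion. -/
def MainStmt : Prop :=
  ∀ (K : Type) [Field K] [Algebra ℂ K] (v1 v2 : Derivation ℂ K K) (A' : Subalgebra ℂ K),
    A'.FG → FracTop A' → Algebra.trdeg ℂ K = 2 →
    (∀ D : Derivation ℂ K K, ∃ α β : K, D = α • v1 + β • v2) →
    (∃ x y : K, Jac v1 v2 x y ≠ 0) →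
    (∀ V : ValuationSubring K, (∀ x ∈ A', x ∈ V) → Good V v1 v2 A' ∨ Bad V A') →
    Origin v1 v2 A' → Target

/-- The function field: `ℂ(X, s)` with two tenth roots adjoined. -/
def FieldStmt : Prop :=
  ∀ t1 t2 : FractionRing (MvPolynomial (Fin 2) ℂ),
    ∃ (K : Type) (_ : Field K) (_ : Algebra ℂ K)
      (ι : FractionRing (MvPolynomial (Fin 2) ℂ) →ₐ[ℂ] K) (X s Φ1 Φ2 : K),
      X = ι (algebraMap (MvPolynomial (Fin 2) ℂ) _ (MvPolynomial.X 0)) ∧
      s = ι (algebraMap (MvPolynomial (Fin 2) ℂ) _ (MvPolynomial.X 1)) ∧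
      Φ1 ^ 10 = ι t1 ∧ Φ2 ^ 10 = ι t2 ∧ X ≠ 0 ∧
      Algebra.trdeg ℂ K = 2 ∧
      (∀ R : Subalgebra ℂ K, X ∈ R → s * X ∈ R → Φ1 ∈ R → Φ2 ∈ R → FracTop R) ∧
      (∀ a b : K, ∃ D : Derivation ℂ K K, D X = a ∧ D s = b) ∧
      (∀ D : Derivation ℂ K K, D X = 0 → D s = 0 → D = 0) ∧
      ∃ V : ValuationSubring K, IsNoetherianRing V ∧ (∀ c : ℂ, algebraMap ℂ K c ∈ V) ∧
        V.valuation X < 1 ∧ s ∈ V

end Crest.Agent.R278
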