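import Crest.Agent.R278.Defs

/-! Row 278: the function field `ℂ(X, s)` with two tenth roots adjoined. -/

set_option autoImplicit false
set_option linter.unusedSectionVars false

namespace Crest.Agent.R278

namespace FieldAux

open MvPolynomial

abbrev P : Type := MvPolynomial (Fin 2) ℂ
abbrev F : Type := FractionRing P

section
variable (K : Type) [Field K] [Algebra ℂ K] [Algebra P K] [Algebra F K]
  [IsScalarTower ℂ P K] [IsScalarTower P F K] [FiniteDimensional F K]

theorem inj : Function.Injective (algebraMap P K) := by
  rw [IsScalarTower.algebraMap_eq P F K]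
  exact (algebraMap F K).injective.comp (IsFractionRing.injective P F)

theorem etale : Algebra.FormallyEtale P K := by
  have h1 : Algebra.FormallyEtale P F := Algebra.FormallyEtale.of_isLocalization (nonZeroDivisors P)
  have h2 : Algebra.FormallyEtale F K := Algebra.FormallyEtale.of_isSeparable F K
  exact Algebra.FormallyEtale.comp P F K

theorem trdeg : Algebra.trdeg ℂ K = 2 := by
  have : FaithfulSMul P K := (faithfulSMul_iff_algebraMap_injective P K).2 (inj K)
  have h1 : Algebra.IsAlgebraic P F := IsLocalization.isAlgebraic F (nonZeroDivisors P)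
  have h2 : Algebra.IsAlgebraic P K := Algebra.IsAlgebraic.trans P F K
  rw [← trdeg_add_eq ℂ P (A := K), trdeg_eq_zero (R := P) (A := K), add_zero,
    MvPolynomial.trdeg_of_isDomain]
  simp

theorem exists_der (a b : K) : ∃ D : Derivation ℂ K K,
    D (algebraMap P K (X 0)) = a ∧ D (algebraMap P K (X 1)) = b := by
  have := etale K
  have h := KaehlerDifferential.isBaseChange_of_formallyEtale ℂ P K
  let d : Derivation ℂ P K := MvPolynomial.mkDerivation ℂ ![a, b]
  have key : ∀ p : P, (h.lift d.liftKaehlerDifferential).compDer (KaehlerDifferential.D ℂ K)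
      (algebraMap P K p) = d p := by
    intro p
    change h.lift d.liftKaehlerDifferential (KaehlerDifferential.D ℂ K (algebraMap P K p)) = _
    rw [← KaehlerDifferential.map_D ℂ ℂ P K, h.lift_eq, Derivation.liftKaehlerDifferential_comp_D]
  refine ⟨(h.lift d.liftKaehlerDifferential).compDer (KaehlerDifferential.D ℂ K), ?_, ?_⟩
  · rw [key]; simp [d]
  · rw [key]; simp [d]

theorem der_unique (D : Derivation ℂ K K) (h0 : D (algebraMap P K (X 0)) = 0)
    (h1 : D (algebraMap P K (X 1)) = 0) : D = 0 := by
  have := etale K
  have h := KaehlerDifferential.isBaseChange_of_formallyEtale ℂ P K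
  have hP : D.compAlgebraMap P = 0 := by
    refine MvPolynomial.derivation_ext (fun i => ?_)
    fin_cases i
    · exact h0
    · exact h1
  have hl : D.liftKaehlerDifferential = 0 := by
    refine h.algHom_ext _ _ (fun x => ?_)
    have : (D.liftKaehlerDifferential.restrictScalars P).comp (KaehlerDifferential.map ℂ ℂ P K) =
        0 := by
      refine Derivation.liftKaehlerDifferential_unique _ _ ?_
      refine Derivation.ext (fun p => ?_)
      change D.liftKaehlerDifferential (KaehlerDifferential.map ℂ ℂ P K
        (KaehlerDifferential.D ℂ P p)) = 0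
      rw [KaehlerDifferential.map_D, Derivation.liftKaehlerDifferential_comp_D]
      exact DFunLike.congr_fun hP p
    exact DFunLike.congr_fun this x
  ext z
  rw [← Derivation.liftKaehlerDifferential_comp_D D z, hl]
  rfl

theorem place (hH : HartogsStmt) : ∃ V : ValuationSubring K, IsNoetherianRing V ∧
    (∀ c : ℂ, algebraMap ℂ K c ∈ V) ∧ V.valuation (algebraMap P K (X 0)) < 1 ∧
    algebraMap P K (X 1) ∈ V := by
  have : FaithfulSMul P K := (faithfulSMul_iff_algebraMap_injective P K).2 (inj K)
  have h1 : IsNoetherianRing (integralClosure P K) := integralClosure.isNoetherianRing (K := F) K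
  have h2 : IsIntegrallyClosed (integralClosure P K) :=
    integralClosure.isIntegrallyClosedOfFiniteExtension F
  have h3 : IsFractionRing (integralClosure P K) K :=
    integralClosure.isFractionRing_of_finite_extension F K
  have hX : (algebraMap P K (X 0))⁻¹ ∉ (algebraMap (integralClosure P K) K).range := by
    rintro ⟨⟨y, hy⟩, hy'⟩
    have e : y = algebraMap F K (algebraMap P F (X 0))⁻¹ := by
      rw [map_inv₀, ← IsScalarTower.algebraMap_apply]; exact hy'
    have hi : IsIntegral P (algebraMap P F (X 0))⁻¹ := by
      rw [← isIntegral_algebraMap_iff (algebraMap F K).injective, ← e]; exact hy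
    obtain ⟨z, hz⟩ := IsIntegrallyClosed.isIntegral_iff.1 hi
    have hX0 : algebraMap P F (X 0) ≠ 0 :=
      (map_ne_zero_iff _ (IsFractionRing.injective P F)).2 (X_ne_zero 0)
    have h4 : z * X 0 = 1 := by
      apply IsFractionRing.injective P F
      rw [map_mul, hz, map_one, inv_mul_cancel₀ hX0]
    have := congrArg (MvPolynomial.eval (fun _ => (0 : ℂ))) h4
    simp at this
  obtain ⟨q, V, hq, hV, hx, hmem, -⟩ := hH (integralClosure P K) K _ hX
  have hB : ∀ p : P, algebraMap P K p ∈ V := by
    intro p
    refine (hmem _).2 ⟨algebraMap P _ p, 1, (Ideal.ne_top_iff_one q).1 hq.ne_top, ?_⟩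
    rw [map_one, div_one]
    rfl
  refine ⟨V, hV, fun c => ?_, ?_, hB _⟩
  · rw [IsScalarTower.algebraMap_apply ℂ P K]; exact hB _
  · by_contra hlt
    apply hx
    rw [← V.valuation_le_one_iff, map_inv₀]
    exact inv_le_one_of_one_le₀ (not_lt.1 hlt)

theorem fracTop {r1 r2 : K} (htop : IntermediateField.adjoin F {r1, r2} = ⊤)
    (R : Subalgebra ℂ K) (hX : algebraMap P K (X 0) ∈ R)
    (hs : algebraMap P K (X 1) * algebraMap P K (X 0) ∈ R) (h1 : r1 ∈ R) (h2 : r2 ∈ R) :
    FracTop R := by
  let S : Subfield K := Subfield.closure (R : Set K)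
  have hR : ∀ x ∈ R, x ∈ S := fun x hx => Subfield.subset_closure hx
  have hX0 : algebraMap P K (X 0) ≠ 0 := (map_ne_zero_iff _ (inj K)).2 (X_ne_zero 0)
  have hP : ∀ p : P, algebraMap P K p ∈ S := by
    intro p
    induction p using MvPolynomial.induction_on with
    | C c =>
      rw [← MvPolynomial.algebraMap_eq, ← IsScalarTower.algebraMap_apply]
      exact hR _ (R.algebraMap_mem c)
    | add p q hp hq => rw [map_add]; exact add_mem hp hq
    | mul_X p i hp =>
      rw [map_mul]
      refine mul_mem hp ?_
      fin_cases i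
      · exact hR _ hX
      · have := div_mem (hR _ hs) (hR _ hX)
        rwa [mul_div_cancel_right₀ _ hX0] at this
  have hF : ∀ x : F, algebraMap F K x ∈ S := by
    intro x
    obtain ⟨a, b, -, rfl⟩ := IsFractionRing.div_surjective (A := P) x
    rw [map_div₀, ← IsScalarTower.algebraMap_apply, ← IsScalarTower.algebraMap_apply]
    exact div_mem (hP a) (hP b)
  intro z
  have hz : z ∈ S := by
    have : IntermediateField.adjoin F {r1, r2} ≤ S.toIntermediateField hF := by
      rw [IntermediateField.adjoin_le_iff]
      rintro x (rfl | rfl)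
      · exact hR _ h1
      · exact hR _ h2
    rw [htop] at this
    exact this IntermediateField.mem_top
  obtain ⟨a, ha, b, hb, rfl⟩ := Subfield.mem_closure_iff.1 hz
  have hc : Subring.closure (R : Set K) = R.toSubring := Subring.closure_eq R.toSubring
  rw [hc] at ha hb
  by_cases hb0 : b = 0
  · exact ⟨0, zero_mem _, 1, one_mem _, one_ne_zero, by simp [hb0]⟩
  · exact ⟨a, ha, b, hb, hb0, rfl⟩

end

end FieldAux

open FieldAux in
theorem field_of (hH : HartogsStmt) : FieldStmt := by
  intro t1 t2
  obtain ⟨r1, hr1⟩ := IsAlgClosed.exists_pow_nat_eq (algebraMap F (AlgebraicClosure F) t1)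
    (n := 10) (by norm_num)
  obtain ⟨r2, hr2⟩ := IsAlgClosed.exists_pow_nat_eq (algebraMap F (AlgebraicClosure F) t2)
    (n := 10) (by norm_num)
  let K : IntermediateField F (AlgebraicClosure F) := IntermediateField.adjoin F {r1, r2}
  have hfin : FiniteDimensional F K := IntermediateField.finiteDimensional_adjoin
    (fun x _ => Algebra.IsIntegral.isIntegral x)
  let s1 : K := ⟨r1, IntermediateField.subset_adjoin _ _ (by simp)⟩
  let s2 : K := ⟨r2, IntermediateField.subset_adjoin _ _ (by simp)⟩
  have htop : IntermediateField.adjoin F {s1, s2} = ⊤ := by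
    apply IntermediateField.lift_injective
    rw [IntermediateField.lift_adjoin, IntermediateField.lift_top]
    simp [s1, s2, K, Set.image_insert_eq]
  have htow : IsScalarTower ℂ P K := IsScalarTower.of_algebraMap_eq (fun c => by
    rw [IsScalarTower.algebraMap_apply P F K, ← IsScalarTower.algebraMap_apply ℂ P F,
      ← IsScalarTower.algebraMap_apply ℂ F K])
  refine ⟨K, inferInstance, inferInstance, IsScalarTower.toAlgHom ℂ F K,
    algebraMap P K (MvPolynomial.X 0), algebraMap P K (MvPolynomial.X 1), s1, s2,
    IsScalarTower.algebraMap_apply P F K _, IsScalarTower.algebraMap_apply P F K _,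
    Subtype.ext hr1, Subtype.ext hr2,
    (map_ne_zero_iff _ (inj K)).2 (MvPolynomial.X_ne_zero 0), trdeg K,
    fun R h1 h2 h3 h4 => fracTop K htop R h1 h2 h3 h4, exists_der K, der_unique K, place K hH⟩

end Crest.Agent.R278
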