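import Crest.Agent.R278.Pack

/-! The finite charts. -/

set_option autoImplicit false
set_option linter.unusedSectionVars false

namespace Crest.Agent.R278

variable {K : Type} [Field K] [Algebra ℂ K]

theorem Mf_mem (S : Subring K) {x : K} (hx : x ∈ S) : Mf x ∈ S := Mf_eq x ▸ ev1_mem S hx _

namespace Arm
variable {a : Arm} {T : Setup K} (ok : a.Ok) (hf : a.Fits T) {V : ValuationSubring K} (hC : HC V)
  (hG : T.Gen (VA hC))
include ok hf hG

/-- the generic point of the line, and the origin -/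
theorem bad_line (hx : T.X ∈ V) (hM : V.valuation T.M = 1) (hl : V.valuation (a.l T) < 1)
    (hπ : V.valuation (a.π T) = 1) : T.Gen (Cst hC) := by
  have lV := mem_of_lt hl
  obtain ⟨r1, hr1, E1⟩ := ev2_head V.toSubring hx lV a.G1
  obtain ⟨r2, hr2, E2⟩ := ev2_head V.toSubring hx lV a.G2
  obtain ⟨r3, hr3, E3⟩ := ev2_head V.toSubring hx lV a.N
  rw [← evG1, hd1 ok] at E1
  rw [← evG2, hd2 ok] at E2
  rw [← evN, hdN ok] at E3
  have pV := fun i j k => pr_mem (a := a) V.toSubring hx lV i j k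
  have MV : T.M ^ 2 ∈ V := mem_of_unit (unit_pow hM 2)
  refine T.chart_bad hC (φ1 := T.Φ1) (y := 1) (z1 := T.X) (z2 := T.Y) (ν := T.N)
    (unit_mul (unit_pow hM a.m1) (unit_pow hπ a.e1))
    (unit_mul (unit_pow hM a.m2) (unit_pow hπ a.e2)) (lt_mul hl hr1) (lt_mul hl hr2)
    (lt_mul hl hr3) E1 E2 (by rw [E3]; ring) ?_ ?_ ?_ V.one_mem hx ?_ (one_mul _).symm rfl rfl
    ia_mul
  · rw [eT1 hf]; exact lt_mul (lt_mul (lt_pow hl ok.e1) (pV _ _ _)) MV
  · rw [eT2 hf]; exact lt_mul (lt_mul (lt_pow hl ok.e2) (pV _ _ _)) MV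
  · exact lt_of_mul_unit (eU hf) (unit_pow hM 2) (lt_mul (lt_pow hl ok.u0) (pV _ _ _))
  · rw [← a.hY T]
    exact V.add_mem _ _ (V.mul_mem _ _ (intCast_mem V.toSubring _) hx) lV

/-- the chart `π = l n'` at `n' = 0` -/
theorem bad_pole (hx : T.X ∈ V) (hM : V.valuation T.M = 1) (hl : V.valuation (a.l T) < 1)
    (hπ : V.valuation (a.π T) < 1) (hn : V.valuation (a.π T / a.l T) < 1) : T.Gen (Cst hC) := by
  have l0 := l_ne hf
  have xC : T.X ∈ Cst hC := Cst_of_ev1 hC hx a.pt hπ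
  have lC : a.l T ∈ Cst hC := Cst_of_lt hC hl
  have nC := Cst_of_lt hC hn
  have ux : V.valuation T.X = 1 :=
    unit_of_one_add hx (ev1_mem V.toSubring hx a.pt) (by simpa [π, ev1] using hπ)
  have e : ev1 (1 :: a.pt) T.X = a.l T * (a.π T / a.l T) := by
    rw [mul_div_cancel₀ _ l0]; rfl
  obtain ⟨g1, hg1, E1⟩ := fin2_sound' (Cst hC).toSubring xC lC nC a.pt e _ _ ok.fπ.g1
  obtain ⟨g2, hg2, E2⟩ := fin2_sound' (Cst hC).toSubring xC lC nC a.pt e _ _ ok.fπ.g2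
  obtain ⟨ν, hν, E3⟩ := fin2_sound' (Cst hC).toSubring xC lC nC a.pt e _ _ ok.fπ.n
  rw [← evG1] at E1
  rw [← evG2] at E2
  rw [← evN] at E3
  have pC := fun i j k => pr_mem (a := a) (Cst hC).toSubring xC lC i j k
  have pU := pr_unit ok hC ux hl
  have MC : T.M ^ 2 ∈ Cst hC := Subalgebra.pow_mem _ (Mf_mem (Cst hC).toSubring xC) 2
  have t1 : T.Φ1 ^ 10 * g1 = a.pr T a.f1 a.f2 a.f3 * T.M ^ 2 := by
    apply mul_left_cancel₀ (pow_ne_zero a.e1 l0)
    linear_combination eT1 hf - T.Φ1 ^ 10 * E1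
  have t2 : T.Φ2 ^ 10 * g2 = a.pr T a.h1 a.h2 a.h3 * T.M ^ 2 := by
    apply mul_left_cancel₀ (pow_ne_zero a.e2 l0)
    linear_combination eT2 hf - T.Φ2 ^ 10 * E2
  have u1 := (unit_of_mul (V.toSubring.pow_mem hG.p1 10) (mem_of_Cst hC hg1)
    (t1 ▸ unit_mul (pU _ _ _) (unit_pow hM 2))).2
  have u2 := (unit_of_mul (V.toSubring.pow_mem hG.p2 10) (mem_of_Cst hC hg2)
    (t2 ▸ unit_mul (pU _ _ _) (unit_pow hM 2))).2
  have c1 : T.Φ1 ∈ Cst hC :=
    Cst_of_pow hC (by norm_num) t1 hG.p1 hg1 u1 (Subalgebra.mul_mem _ (pC _ _ _) MC)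
  have c2 : T.Φ2 ∈ Cst hC :=
    Cst_of_pow hC (by norm_num) t2 hG.p2 hg2 u2 (Subalgebra.mul_mem _ (pC _ _ _) MC)
  have eia : T.ia * ν = g1 * g2 := by
    apply mul_left_cancel₀ (pow_ne_zero (a.e1 + a.e2) l0)
    have := ia_mul (T := T)
    rw [E1, E2, E3] at this
    linear_combination this
  have uν := T.nu_unit hC hG.ia eia (mem_of_Cst hC hν) u1 u2
  have yC : T.Y ∈ Cst hC := by
    rw [← a.hY T]
    exact Subalgebra.add_mem _ (Subalgebra.mul_mem _ (intCast_mem _ _) xC) lC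
  refine ⟨c1, c2, ?_, ?_, ?_, ?_⟩
  · exact (invCl_Cst hC).of_mul (eU hf) MC (unit_pow hM 2)
      (Subalgebra.mul_mem _ (Subalgebra.pow_mem _ lC _) (pC _ _ _))
  · exact (invCl_Cst hC).of_mul eia hν uν (Subalgebra.mul_mem _ hg1 hg2)
  · exact Subalgebra.mul_mem _ (Subalgebra.mul_mem _ xC c1) c2
  · exact Subalgebra.mul_mem _ (Subalgebra.mul_mem _ yC c1) c2

/-- the chart `l = π n` -/
theorem res_pi (hx : T.X ∈ V) (hM : V.valuation T.M = 1) (hl : V.valuation (a.l T) < 1)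
    (hπ : V.valuation (a.π T) < 1) (hn : a.l T / a.π T ∈ V) : T.Res hC := by
  set n := a.l T / a.π T with hndef
  have ux : V.valuation T.X = 1 :=
    unit_of_one_add hx (ev1_mem V.toSubring hx a.pt) (by simpa [π, ev1] using hπ)
  have el : a.l T = a.π T ^ 1 * n := by rw [pow_one, hndef, mul_div_cancel₀ _ hf.hπ]
  have sV : ∀ z ∈ Cl V {T.X, n}, z ∈ V := Cl_sub hC (by rintro z (rfl | rfl) <;> assumption)
  set S := Cl V {T.X, n} with hS
  have xS : T.X ∈ S := subset_Cl _ _ (by simp)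
  have nS : n ∈ S := subset_Cl _ _ (by simp)
  have MS : T.M ∈ S := Mf_mem S.toSubring xS
  have πS : a.π T ∈ S := ev1_mem S.toSubring xS _
  have lS : a.l T ∈ S := el ▸ S.mul_mem (S.pow_mem πS _) nS
  have yS : T.Y ∈ S := by
    rw [← a.hY T]; exact S.add_mem (S.mul_mem (intCast_mem _ _) xS) lS
  have pS := fun i j k => pr_mem (a := a) S.toSubring xS lS i j k
  have pU := pr_unit ok hC ux hl
  obtain ⟨g1, hg1, g2, hg2, ν, hν, r1, hr1, r2, hr2, r3, hr3, α1, hα1, κ1, hκ1, α2, hα2, κ2, hκ2,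
    eg1, eg2, eν, E1, E2, d1, d2, d3, d4, eia, eJ⟩ := fin_pack hf ok.fπ (h1 := T.M ^ a.m1)
    (h2 := T.M ^ a.m2) (p := a.π T) S.toSubring xS nS (S.pow_mem MS _) (S.pow_mem MS _) rfl hf.hπ
    el (by rw [hd1 ok]; ring) (by rw [hd2 ok]; ring) (by rw [hdN ok]; ring)
  have t1 : T.Φ1 ^ 10 * g1 = n ^ a.e1 * (a.pr T a.f1 a.f2 a.f3 * T.M ^ 2) := by
    apply mul_left_cancel₀ (pow_ne_zero a.e1 hf.hπ)
    have := eT1 hf
    rw [E1] at this
    have e : a.l T ^ a.e1 = a.π T ^ a.e1 * n ^ a.e1 := by rw [el, pow_one, mul_pow]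
    rw [e] at this
    linear_combination this
  have t2 : T.Φ2 ^ 10 * g2 = n ^ a.e2 * (a.pr T a.h1 a.h2 a.h3 * T.M ^ 2) := by
    apply mul_left_cancel₀ (pow_ne_zero a.e2 hf.hπ)
    have := eT2 hf
    rw [E2] at this
    have e : a.l T ^ a.e2 = a.π T ^ a.e2 * n ^ a.e2 := by rw [el, pow_one, mul_pow]
    rw [e] at this
    linear_combination this
  have M2 := unit_pow hM 2
  rcases unit_or_lt hn with un | ln
  · refine T.chart_good hC (y := 1) (z1 := T.X) (z2 := T.Y) hG hx hn hG.p1 hg1 hg2 hν ?_ ?_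
      (S.mul_mem (S.pow_mem πS _) hα1) hα2 hκ1 hκ2 S.one_mem xS yS ?_ t1 t2 ?_ ?_ d1 d2 d3 d4
      (one_mul _).symm rfl rfl eia eJ ?_
    · exact S.mul_mem (S.pow_mem nS _) (S.mul_mem (pS _ _ _) (S.pow_mem MS _))
    · exact S.mul_mem (S.pow_mem nS _) (S.mul_mem (pS _ _ _) (S.pow_mem MS _))
    · exact (invCl_Cl _ _).of_mul (eU hf) (S.pow_mem MS _) M2
        (S.mul_mem (S.pow_mem lS _) (pS _ _ _))
    · exact unit_mul (unit_pow un _) (unit_mul (pU _ _ _) M2)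
    · exact unit_mul (unit_pow un _) (unit_mul (pU _ _ _) M2)
    · refine unit_mul (unit_mul ?_ un) (pU _ _ _)
      rw [Valuation.map_neg]; exact hC.ofNat 4
  · refine Or.inr (T.chart_bad hC (y := 1) (z1 := T.X) (z2 := T.Y) (unit_pow hM _) (unit_pow hM _)
      (lt_mul ln (sV _ hr1)) (lt_mul ln (sV _ hr2)) (lt_mul ln (sV _ hr3)) eg1 eg2 eν ?_ ?_ ?_
      V.one_mem hx (sV _ yS) (one_mul _).symm rfl rfl eia)
    · rw [t1]; exact lt_mul (lt_pow ln ok.e1) (mem_of_unit (unit_mul (pU _ _ _) M2))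
    · rw [t2]; exact lt_mul (lt_pow ln ok.e2) (mem_of_unit (unit_mul (pU _ _ _) M2))
    · exact lt_of_mul_unit (eU hf) M2 (lt_mul (lt_pow hl ok.u0) (mem_of_unit (pU _ _ _)))

theorem res_line (hx : T.X ∈ V) (hM : V.valuation T.M = 1) (hl : V.valuation (a.l T) < 1) :
    T.Res hC := by
  rcases unit_or_lt (x := a.π T) (ev1_mem V.toSubring hx _) with hπ | hπ
  · exact Or.inr (bad_line ok hf hC hG hx hM hl hπ)
  · by_cases hn : a.l T / a.π T ∈ V
    · exact res_pi ok hf hC hG hx hM hl hπ hn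
    · refine Or.inr (bad_pole ok hf hC hG hx hM hl hπ ?_)
      rw [← V.valuation_le_one_iff, not_le] at hn
      rw [← inv_div, map_inv₀]
      exact inv_lt_one_of_one_lt₀ hn

/-- the plane away from the lines -/
theorem res_plane (hx : T.X ∈ V) (hy : T.Y ∈ V) (hM : V.valuation T.M = 1)
    (hQ : V.valuation (Qf T.X T.Y) = 1) : T.Res hC := by
  have lV : a.l T ∈ V :=
    V.toSubring.sub_mem hy (V.mul_mem _ _ (intCast_mem V.toSubring _) hx)
  have mV : ∀ c : ℤ, a.l T + c * T.X ∈ V := fun c =>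
    V.add_mem _ _ lV (V.mul_mem _ _ (intCast_mem V.toSubring _) hx)
  rw [hf.q] at hQ
  obtain ⟨ul, up⟩ := unit_of_mul lV (pr_mem V.toSubring hx lV 1 1 1) hQ
  have pU : ∀ i j k, V.valuation (a.pr T i j k) = 1 := by
    simp only [pr, pow_one] at up
    obtain ⟨u12, u3⟩ := unit_of_mul (V.mul_mem _ _ (mV _) (mV _)) (mV _) up
    obtain ⟨u1, u2⟩ := unit_of_mul (mV _) (mV _) u12
    exact fun i j k => unit_mul (unit_mul (unit_pow u1 _) (unit_pow u2 _)) (unit_pow u3 _)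
  set S := Cl V {T.X, a.l T} with hS
  have xS : T.X ∈ S := subset_Cl _ _ (by simp)
  have lS : a.l T ∈ S := subset_Cl _ _ (by simp)
  have MS : T.M ∈ S := Mf_mem S.toSubring xS
  have yS : T.Y ∈ S := by
    rw [← a.hY T]; exact S.add_mem (S.mul_mem (intCast_mem _ _) xS) lS
  have pS := fun i j k => pr_mem (a := a) S.toSubring xS lS i j k
  have eS := fun P => ev2_mem S.toSubring xS lS P
  have M2 := unit_pow hM 2
  refine T.chart_good hC (y := 1) (z1 := T.X) (z2 := T.Y) (g1 := T.G1) (g2 := T.G2) (ν := T.N)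
    (σ := -4 * (a.l T * a.pr T 1 1 1))
    hG hx lV hG.p1 (a.evG1 T ▸ eS _) (a.evG2 T ▸ eS _) (a.evN T ▸ eS _) ?_ ?_
    (eS a.A1) (eS a.A2) (S.mul_mem lS (eS a.B1)) (S.mul_mem lS (eS a.B2)) S.one_mem xS yS ?_
    (eT1 hf) (eT2 hf) ?_ ?_ ?_ ?_ ?_ ?_ (one_mul _).symm rfl rfl ia_mul ?_ ?_
  · exact S.mul_mem (S.mul_mem (S.pow_mem lS _) (pS _ _ _)) (S.pow_mem MS _)
  · exact S.mul_mem (S.mul_mem (S.pow_mem lS _) (pS _ _ _)) (S.pow_mem MS _)
  · exact (invCl_Cl _ _).of_mul (eU hf) (S.pow_mem MS _) M2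
      (S.mul_mem (S.pow_mem lS _) (pS _ _ _))
  · exact unit_mul (unit_mul (unit_pow ul _) (pU _ _ _)) M2
  · exact unit_mul (unit_mul (unit_pow ul _) (pU _ _ _)) M2
  · rw [T.v1_apply, mul_assoc, dX1]
  · rw [T.v1_apply, mul_assoc, dl1 hf]
  · rw [T.v2_apply, mul_assoc, dX2]
  · rw [T.v2_apply, mul_assoc, dl2 hf]
  · rw [jac_l hf]; ring
  · refine unit_mul ?_ hQ
    rw [Valuation.map_neg]; exact hC.ofNat 4

end Arm

end Crest.Agent.R278
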