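import Crest.Agent.R278.Defs

/-! Row 278, part A: algebraic Hartogs and Seidenberg's lemma. -/

set_option autoImplicit false

namespace Crest.Agent.R278

open Finset

section Seid
variable {K : Type} [Field K] [Algebra ℂ K]

lemma iter_leibniz (D : Derivation ℂ K K) (n : ℕ) (a b : K) :
    D^[n] (a * b) = ∑ ij ∈ antidiagonal n, Nat.choose n ij.1 • (D^[ij.1] a * D^[ij.2] b) := by
  induction n with
  | zero => simp
  | succ n ih =>
    rw [sum_antidiagonal_choose_succ_nsmul (M := K) (fun i j => D^[i] a * D^[j] b) n]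
    simp only [Function.iterate_succ_apply', ih, map_sum, map_nsmul, Derivation.leibniz,
      smul_eq_mul, smul_add, sum_add_distrib, add_right_inj]
    refine sum_congr rfl fun ⟨i, j⟩ hij ↦ ?_
    rw [n.choose_symm_of_eq_add (mem_antidiagonal.1 hij).symm, mul_comm]

lemma iter_add (D : Derivation ℂ K K) (n : ℕ) (a b : K) :
    D^[n] (a + b) = D^[n] a + D^[n] b := by
  induction n with
  | zero => simp
  | succ n ih => simp only [Function.iterate_succ_apply', ih, map_add]

lemma iter_zero (D : Derivation ℂ K K) (n : ℕ) : D^[n] (0 : K) = 0 := by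
  induction n with
  | zero => simp
  | succ n ih => simp only [Function.iterate_succ_apply', ih, map_zero]

lemma iter_one (D : Derivation ℂ K K) (n : ℕ) : D^[n + 1] (1 : K) = 0 := by
  rw [Function.iterate_succ_apply, Derivation.map_one_eq_zero, iter_zero]

/-- The exponential `exp (t D)` as a ring homomorphism to power series. -/
noncomputable def expD (D : Derivation ℂ K K) : K →+* PowerSeries K where
  toFun x := PowerSeries.mk fun n => ((n.factorial : ℂ)⁻¹) • D^[n] x
  map_zero' := by
    ext n
    simp
  map_one' := by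
    ext n
    cases n with
    | zero => simp
    | succ n =>
      rw [PowerSeries.coeff_mk, iter_one, smul_zero, PowerSeries.coeff_one]
      simp
  map_add' a b := by
    ext n
    simp
  map_mul' a b := by
    ext n
    rw [PowerSeries.coeff_mul, PowerSeries.coeff_mk, iter_leibniz, Finset.smul_sum]
    refine sum_congr rfl fun ⟨i, j⟩ hij ↦ ?_
    have hn : i + j = n := mem_antidiagonal.1 hij
    simp only [PowerSeries.coeff_mk]
    rw [smul_mul_smul_comm, ← Nat.cast_smul_eq_nsmul ℂ, smul_smul]
    congr 1
    subst hn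
    have h := Nat.add_choose_mul_factorial_mul_factorial i j
    have h1 : ((i + j).factorial : ℂ) = ((i + j).choose i : ℂ) * i.factorial * j.factorial := by
      rw [← h, Nat.choose_symm_add]; push_cast; ring
    have hi : (i.factorial : ℂ) ≠ 0 := by exact_mod_cast i.factorial_ne_zero
    have hj : (j.factorial : ℂ) ≠ 0 := by exact_mod_cast j.factorial_ne_zero
    have hc : ((i + j).choose i : ℂ) ≠ 0 := by
      exact_mod_cast (Nat.choose_pos (Nat.le_add_right i j)).ne'
    rw [h1]; field_simp

lemma coeff_expD (D : Derivation ℂ K K) (x : K) (n : ℕ) :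
    PowerSeries.coeff n (expD D x) = ((n.factorial : ℂ)⁻¹) • D^[n] x := by
  simp [expD]

lemma coeff_expD_mem (D : Derivation ℂ K K) (R : Subalgebra ℂ K) (hR : Stable D R) {x : K}
    (hx : x ∈ R) (n : ℕ) : PowerSeries.coeff n (expD D x) ∈ R := by
  rw [coeff_expD]
  refine R.smul_mem ?_ _
  induction n with
  | zero => simpa using hx
  | succ n ih => rw [Function.iterate_succ_apply']; exact hR _ ih

lemma sq_mul_pow_mem (D : Derivation ℂ K K) (R : Subalgebra ℂ K) (hR : Stable D R) {c u : K}
    (hc : ∀ n : ℕ, c * u ^ n ∈ R) (n : ℕ) : c * c * D u ^ n ∈ R := by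
  obtain ⟨g, hg⟩ : (PowerSeries.X : PowerSeries K) ∣ expD D u - PowerSeries.C u := by
    rw [PowerSeries.X_dvd_iff, map_sub, ← PowerSeries.coeff_zero_eq_constantCoeff_apply,
      coeff_expD]
    simp
  have hg0 : PowerSeries.constantCoeff g = D u := by
    have h := congrArg (PowerSeries.coeff 1) hg
    rw [PowerSeries.coeff_succ_X_mul, map_sub, coeff_expD] at h
    simpa [PowerSeries.coeff_C] using h.symm
  have hE0 : PowerSeries.constantCoeff (expD D c) = c := by
    rw [← PowerSeries.coeff_zero_eq_constantCoeff_apply, coeff_expD]; simp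
  have h1 : PowerSeries.coeff n
      (PowerSeries.C c * expD D c * (expD D u - PowerSeries.C u) ^ n) = c * c * D u ^ n := by
    have : PowerSeries.C c * expD D c * (expD D u - PowerSeries.C u) ^ n =
        PowerSeries.X ^ n * (PowerSeries.C c * expD D c * g ^ n) := by
      rw [hg]; ring
    rw [this]
    have h2 := PowerSeries.coeff_X_pow_mul (PowerSeries.C c * expD D c * g ^ n) n 0
    rw [zero_add] at h2
    rw [h2, PowerSeries.coeff_zero_eq_constantCoeff_apply]
    simp [hg0, hE0]
  rw [← h1, sub_eq_add_neg, add_pow, Finset.mul_sum, map_sum]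
  refine R.sum_mem fun k _ => ?_
  have h3 : PowerSeries.C c * expD D c *
      (expD D u ^ k * (-PowerSeries.C u) ^ (n - k) * (n.choose k : PowerSeries K)) =
      PowerSeries.C ((-1) ^ (n - k) * (n.choose k : K) * (c * u ^ (n - k))) *
        expD D (c * u ^ k) := by
    simp only [map_mul, map_pow, map_neg, map_one, map_natCast]
    rw [neg_pow (PowerSeries.C u)]
    ring
  rw [h3, PowerSeries.coeff_C_mul]
  refine R.mul_mem (R.mul_mem (R.mul_mem ?_ ?_) (hc _)) (coeff_expD_mem D R hR (hc k) n)
  · exact R.pow_mem (R.neg_mem R.one_mem) _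
  · exact R.natCast_mem _

end Seid

theorem seidenberg : SeidenbergStmt := by
  intro K _ _ D R V hV hRV hF hS u hu
  have : IsFractionRing R K := IsFractionRing.of_field R K fun z => by
    obtain ⟨a, ha, b, hb, -, h⟩ := hF z
    exact ⟨⟨a, ha⟩, ⟨b, hb⟩, h⟩
  obtain ⟨c, hc0, hc⟩ := hu.isAlmostIntegral
  have hc' : ∀ n : ℕ, (c : K) * u ^ n ∈ R := fun n => by
    obtain ⟨r, hr⟩ := hc n
    have : (c : K) * u ^ n = (r : K) := hr.symm
    rw [this]; exact r.2
  have hcne : (c : K) ≠ 0 := fun h => nonZeroDivisors.ne_zero hc0 (Subtype.ext h)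
  have hal : IsAlmostIntegral V (D u) := by
    refine ⟨⟨(c : K) * c, hRV _ (R.mul_mem c.2 c.2)⟩, ?_, fun n => ?_⟩
    · refine mem_nonZeroDivisors_of_ne_zero fun h => ?_
      exact mul_ne_zero hcne hcne (congrArg Subtype.val h)
    · exact ⟨⟨_, hRV _ (sq_mul_pow_mem D R hS hc' n)⟩, rfl⟩
  obtain ⟨y, hy⟩ := IsIntegrallyClosed.algebraMap_eq_of_integral hal.isIntegral
  rw [← hy]; exact y.2

section Hart
variable {A K : Type} [CommRing A] [Field K] [Algebra A K]

/-- The ideal of denominators of `y`. -/
def den (A : Type) {K : Type} [CommRing A] [Field K] [Algebra A K] (y : K) : Ideal A where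
  carrier := {a | algebraMap A K a * y ∈ (algebraMap A K).range}
  add_mem' := by
    intro a b ha hb
    simp only [Set.mem_ofPred_eq, map_add, add_mul] at *
    exact add_mem ha hb
  zero_mem' := ⟨0, by simp⟩
  smul_mem' := by
    intro c a ha
    simp only [Set.mem_ofPred_eq, smul_eq_mul, map_mul, mul_assoc] at *
    exact mul_mem ⟨c, rfl⟩ ha

lemma mem_den {y : K} {a : A} :
    a ∈ den A y ↔ algebraMap A K a * y ∈ (algebraMap A K).range := Iff.rfl

end Hart

theorem hartogs : HartogsStmt := by
  intro A K _ _ _ _ _ _ _ x hx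
  have hinj : Function.Injective (algebraMap A K) := IsFractionRing.injective A K
  obtain ⟨q, ⟨r, hr, rfl⟩, hmax⟩ := (set_has_maximal_iff_noetherian (R := A) (M := A)).2
    inferInstance
    {I : Ideal A | ∃ r : A, algebraMap A K r * x ∉ (algebraMap A K).range ∧
      I = den A (algebraMap A K r * x)} ⟨_, 1, by simpa using hx, rfl⟩
  set y := algebraMap A K r * x with hy
  have hprime : (den A y).IsPrime := by
    refine ⟨?_, fun {a b} hab => ?_⟩
    · rw [Ideal.ne_top_iff_one, mem_den]; simpa using hr
    · by_cases ha : a ∈ den A y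
      · exact Or.inl ha
      right
      have hay : algebraMap A K (a * r) * x = algebraMap A K a * y := by
        rw [hy, map_mul, mul_assoc]
      have hle : den A y ≤ den A (algebraMap A K (a * r) * x) := by
        intro c hc
        rw [mem_den] at hc ⊢
        rw [hay, mul_left_comm]
        exact mul_mem ⟨a, rfl⟩ hc
      have heq : den A y = den A (algebraMap A K (a * r) * x) := by
        by_contra hne
        exact hmax _ ⟨a * r, by rw [hay]; exact ha, rfl⟩ (lt_of_le_of_ne hle hne)
      rw [heq, mem_den, hay, ← mul_assoc, ← map_mul, mul_comm b a]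
      exact hab
  set q := den A y with hq
  -- some `a0 ∈ q` with `a0 * y = b0 ∉ q`
  obtain ⟨a0, ha0, b0, hb0, hab0⟩ : ∃ a0 ∈ q, ∃ b0, b0 ∉ q ∧
      algebraMap A K b0 = algebraMap A K a0 * y := by
    by_contra hcon
    push Not at hcon
    apply hr
    have hint : IsIntegral A y := by
      refine isIntegral_of_smul_mem_submodule
        (Submodule.map (Algebra.linearMap A K) (q : Submodule A A)) ?_ ?_ y ?_
      · obtain ⟨n, d, hd, hnd⟩ := IsFractionRing.div_surjective A y
        have hd0 : algebraMap A K d ≠ 0 := fun h =>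
          nonZeroDivisors.ne_zero hd (hinj (by rw [h, map_zero]))
        rw [Submodule.ne_bot_iff]
        refine ⟨algebraMap A K d, ⟨d, ?_, rfl⟩, hd0⟩
        change d ∈ den A y
        rw [mem_den, ← hnd, mul_div_cancel₀ _ hd0]
        exact ⟨n, rfl⟩
      · exact Submodule.FG.map _ (IsNoetherian.noetherian _)
      · rintro _ ⟨a, ha, rfl⟩
        obtain ⟨b, hb⟩ := mem_den.1 ha
        have hbq : b ∈ q := by
          by_contra hbq
          exact hcon a ha b hbq hb
        refine ⟨b, hbq, ?_⟩
        simp only [Algebra.linearMap_apply, smul_eq_mul]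
        rw [hb, mul_comm]
    obtain ⟨z, hz⟩ := IsIntegrallyClosed.algebraMap_eq_of_integral hint
    exact ⟨z, hz⟩
  have hS : q.primeCompl ≤ nonZeroDivisors A := q.primeCompl_le_nonZeroDivisors
  set L := Localization.subalgebra.ofField K q.primeCompl hS with hL
  have hloc : IsLocalization.AtPrime L q := Localization.subalgebra.isLocalization_ofField K _ hS
  have : IsLocalRing L := IsLocalization.AtPrime.isLocalRing L q
  have : IsNoetherianRing L := IsLocalization.isNoetherianRing q.primeCompl L inferInstance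
  have hmemL : ∀ z : K, z ∈ L ↔ ∃ a b : A, b ∉ q ∧ z = algebraMap A K a / algebraMap A K b := by
    intro z
    constructor
    · rintro ⟨a, s, hs, h⟩
      exact ⟨a, s, hs, by rw [h, div_eq_mul_inv]⟩
    · rintro ⟨a, s, hs, h⟩
      exact ⟨a, s, hs, by rw [h, div_eq_mul_inv]⟩
  have hne : ∀ b : A, b ∉ q → algebraMap A K b ≠ 0 := fun b hb h =>
    hb (by rw [hinj (h.trans (map_zero _).symm)]; exact q.zero_mem)
  have hprinc : (IsLocalRing.maximalIdeal L).IsPrincipal := by
    refine ⟨algebraMap A L a0, le_antisymm ?_ ?_⟩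
    · rw [← IsLocalization.AtPrime.map_eq_maximalIdeal q L, Ideal.map_le_iff_le_comap]
      intro a ha
      obtain ⟨b, hb⟩ := mem_den.1 ha
      rw [Ideal.mem_comap, Ideal.submodule_span_eq, Ideal.mem_span_singleton']
      refine ⟨⟨algebraMap A K b / algebraMap A K b0, (hmemL _).2 ⟨b, b0, hb0, rfl⟩⟩, ?_⟩
      apply Subtype.ext
      change algebraMap A K b / algebraMap A K b0 * algebraMap A K a0 = algebraMap A K a
      have h0 := hne b0 hb0
      rw [div_mul_eq_mul_div, div_eq_iff h0, hb, hab0]
      ring
    · rw [Ideal.submodule_span_eq, Ideal.span_singleton_le_iff_mem,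
        IsLocalization.AtPrime.to_map_mem_maximal_iff L q]
      exact ha0
  have hval : ValuationRing L :=
    ((tfae_of_isNoetherianRing_of_isLocalRing_of_isDomain L).out 4 1).1 hprinc
  have hor : ∀ z : K, z ∈ L.toSubring ∨ z⁻¹ ∈ L.toSubring := by
    intro z
    rcases ValuationRing.isInteger_or_isInteger L z with ⟨w, hw⟩ | ⟨w, hw⟩
    · left; rw [← hw]; exact w.2
    · right; rw [← hw]; exact w.2
  let V : ValuationSubring K := ValuationSubring.ofSubring L.toSubring hor
  have hmemV : ∀ z : K, z ∈ V ↔ ∃ a b : A, b ∉ q ∧ z = algebraMap A K a / algebraMap A K b :=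
    fun z => hmemL z
  have hAV : ∀ a : A, algebraMap A K a ∈ V := fun a =>
    (hmemV _).2 ⟨a, 1, hprime.one_notMem, by simp⟩
  refine ⟨q, V, hprime, (inferInstance : IsNoetherianRing L), ?_, hmemV, fun a => ?_⟩
  · intro hxV
    obtain ⟨a, b, hb, hab⟩ := (hmemV _).1 (V.mul_mem _ _ (hAV r) hxV)
    apply hb
    change b ∈ den A y
    rw [mem_den, hy, hab, mul_div_cancel₀ _ (hne b hb)]
    exact ⟨a, rfl⟩
  · constructor
    · intro h
      by_contra ha
      have h1 : (algebraMap A K a)⁻¹ ∈ V := (hmemV _).2 ⟨1, a, ha, by simp⟩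
      rw [← V.valuation_le_one_iff, map_inv₀] at h1
      have h0 : V.valuation (algebraMap A K a) ≠ 0 := by
        simpa using hne a ha
      rw [inv_le_one₀ (zero_lt_iff.2 h0)] at h1
      exact absurd h (not_lt.2 h1)
    · intro ha
      by_contra h
      have h1 : V.valuation (algebraMap A K a) = 1 :=
        le_antisymm ((V.valuation_le_one_iff _).2 (hAV a)) (not_lt.1 h)
      have h2 : (algebraMap A K a)⁻¹ ∈ V := by
        rw [← V.valuation_le_one_iff, map_inv₀, h1, inv_one]
      obtain ⟨c, d, hd, hcd⟩ := (hmemV _).1 h2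
      have ha0' : algebraMap A K a ≠ 0 := by
        intro h0; rw [h0, map_zero] at h1; exact zero_ne_one h1
      have : d = a * c := by
        apply hinj
        rw [eq_div_iff (hne d hd)] at hcd
        rw [map_mul, ← hcd]; field_simp
      exact hd (this ▸ q.mul_mem_right c ha)

end Crest.Agent.R278
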