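import Crest.Agent.R278.Defs

/-! Row 278: the singularity criterion and the abstract criterion. -/

set_option autoImplicit false

namespace Crest.Agent.R278

namespace MainAux

variable {K : Type} [Field K] [Algebra ℂ K]

/-- a derivation of `K` killing `A` vanishes -/
lemma eq_zero_of_kill (A : Subalgebra ℂ K) [IsFractionRing A K] (D : Derivation ℂ K K)
    (h : ∀ a : A, D a = 0) : D = 0 := by
  ext z
  obtain ⟨a, b, -, rfl⟩ := IsFractionRing.div_surjective (A := A) z
  have ha : D (algebraMap A K a) = 0 := h a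
  have hb : D (algebraMap A K b) = 0 := h b
  rw [Derivation.leibniz_div, ha, hb]
  simp

lemma indep {v1 v2 : Derivation ℂ K K} (hJ : ∃ x y : K, Jac v1 v2 x y ≠ 0) {α β : K}
    (h : α • v1 + β • v2 = 0) : α = 0 ∧ β = 0 := by
  obtain ⟨x, y, hxy⟩ := hJ
  have hx : α * v1 x + β * v2 x = 0 := by
    simpa using congrArg (fun D : Derivation ℂ K K => D x) h
  have hy : α * v1 y + β * v2 y = 0 := by
    simpa using congrArg (fun D : Derivation ℂ K K => D y) h
  constructor
  · refine (mul_eq_zero.1 (?_ : α * Jac v1 v2 x y = 0)).resolve_right hxy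
    unfold Jac
    linear_combination v2 y * hx - v2 x * hy
  · refine (mul_eq_zero.1 (?_ : β * Jac v1 v2 x y = 0)).resolve_right hxy
    unfold Jac
    linear_combination v1 x * hy - v1 y * hx

/-- two generators of the maximal ideal up to units -/
lemma exists_gens {A : Type} [CommRing A] (m : Ideal A) [m.IsMaximal] (hd : ringKrullDim A = 2)
    (hr : IsRegularLocalRing (Localization.AtPrime m)) :
    ∃ t1 ∈ m, ∃ t2 ∈ m, ∀ a ∈ m, ∃ s, s ∉ m ∧ ∃ p q : A, s * a = p * t1 + q * t2 := by
  classical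
  set L := Localization.AtPrime m
  have h1 : ((IsLocalRing.maximalIdeal L).spanFinrank : WithBot ℕ∞) ≤ 2 := by
    rw [hr.spanFinrank_maximalIdeal, IsLocalization.AtPrime.ringKrullDim_eq_height m L, ← hd]
    exact Ideal.height_le_ringKrullDim_of_isPrime
  have h2 : (IsLocalRing.maximalIdeal L).spanFinrank ≤ 2 := by exact_mod_cast h1
  obtain ⟨S, hS, hsp⟩ := Submodule.FG.exists_span_finset_card_eq_spanFinrank
    (IsNoetherian.noetherian (IsLocalRing.maximalIdeal L))
  have hmem : ∀ y ∈ S, y ∈ IsLocalRing.maximalIdeal L := fun y hy =>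
    hsp ▸ Submodule.subset_span hy
  have h3 : ∃ y1 ∈ IsLocalRing.maximalIdeal L, ∃ y2 ∈ IsLocalRing.maximalIdeal L,
      (S : Set L) ⊆ {y1, y2} := by
    have hc : S.card ≤ 2 := hS ▸ h2
    rcases Nat.lt_or_ge S.card 1 with h | h
    · have : S = ∅ := Finset.card_eq_zero.1 (by omega)
      exact ⟨0, zero_mem _, 0, zero_mem _, by simp [this]⟩
    · rcases Nat.lt_or_ge S.card 2 with h' | h'
      · obtain ⟨y, rfl⟩ := Finset.card_eq_one.1 (show S.card = 1 by omega)
        exact ⟨y, hmem y (by simp), y, hmem y (by simp), by simp⟩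
      · obtain ⟨y1, y2, -, rfl⟩ := Finset.card_eq_two.1 (show S.card = 2 by omega)
        exact ⟨y1, hmem y1 (by simp), y2, hmem y2 (by simp), by simp⟩
  obtain ⟨y1, hy1, y2, hy2, hsub⟩ := h3
  obtain ⟨⟨t1, s1⟩, rfl⟩ := IsLocalization.mk'_surjective m.primeCompl y1
  obtain ⟨⟨t2, s2⟩, rfl⟩ := IsLocalization.mk'_surjective m.primeCompl y2
  refine ⟨t1, (IsLocalization.AtPrime.mk'_mem_maximal_iff L m t1 s1).1 hy1,
    t2, (IsLocalization.AtPrime.mk'_mem_maximal_iff L m t2 s2).1 hy2, fun a ha => ?_⟩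
  have ha' : algebraMap A L a ∈ (Ideal.span {t1, t2}).map (algebraMap A L) := by
    have : algebraMap A L a ∈ IsLocalRing.maximalIdeal L :=
      (IsLocalization.AtPrime.to_map_mem_maximal_iff L m a).2 ha
    rw [← hsp] at this
    refine Submodule.span_le.2 (hsub.trans ?_) this
    rintro y (rfl | rfl)
    · exact (IsLocalization.mk'_mem_iff).2 (Ideal.mem_map_of_mem _ (Ideal.subset_span (by simp)))
    · exact (IsLocalization.mk'_mem_iff).2 (Ideal.mem_map_of_mem _ (Ideal.subset_span (by simp)))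
  obtain ⟨s, hs, hsa⟩ :=
    (IsLocalization.algebraMap_mem_map_algebraMap_iff m.primeCompl L _ a).1 ha'
  obtain ⟨p, q, hpq⟩ := Ideal.mem_span_pair.1 hsa
  exact ⟨s, hs, p, q, hpq.symm⟩

/-- restriction of a stable derivation -/
def restr (A : Subalgebra ℂ K) (D : Derivation ℂ K K) (h : Stable D A) : Derivation ℂ A A :=
  Derivation.mk'
    { toFun := fun a => ⟨D a, h a a.2⟩
      map_add' := fun a b => Subtype.ext (by simp)
      map_smul' := fun c a => Subtype.ext (by simp) }
    (fun a b => Subtype.ext (by simp [Derivation.leibniz]))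

lemma restr_apply (A : Subalgebra ℂ K) (D : Derivation ℂ K K) (h : Stable D A) (a : A) :
    (restr A D h a : K) = D a := rfl

/-- extension of a derivation to the fraction field -/
lemma exists_extend (A : Subalgebra ℂ K) [IsFractionRing A K] (d : Derivation ℂ A A) :
    ∃ D : Derivation ℂ K K, ∀ a : A, D a = (d a : K) := by
  let φ : A →+* TrivSqZeroExt K K :=
    { toFun := fun a => TrivSqZeroExt.inl (a : K) + TrivSqZeroExt.inr (d a : K)
      map_one' := by ext <;> simp
      map_mul' := fun a b => by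
        ext
        · simp
        · simp [Derivation.leibniz, mul_comm]
      map_zero' := by ext <;> simp
      map_add' := fun a b => by ext <;> simp }
  have hφ1 : ∀ a, (φ a).fst = (a : K) := fun a => by simp [φ]
  have hφ2 : ∀ a, (φ a).snd = (d a : K) := fun a => by simp [φ]
  have hu : ∀ y : nonZeroDivisors A, IsUnit (φ y) := by
    intro y
    rw [TrivSqZeroExt.isUnit_iff_isUnit_fst, hφ1, isUnit_iff_ne_zero]
    exact_mod_cast nonZeroDivisors.ne_zero y.2
  let ψ : K →+* TrivSqZeroExt K K := IsLocalization.lift hu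
  have hψ : ∀ a : A, ψ (a : K) = φ a := fun a => IsLocalization.lift_eq hu a
  have hfst : ∀ z, (ψ z).fst = z := by
    have : (TrivSqZeroExt.fstHom K K K).toRingHom.comp ψ = RingHom.id K := by
      refine IsLocalization.ringHom_ext (nonZeroDivisors A) ?_
      ext a
      change (ψ (a : K)).fst = (a : K)
      rw [hψ, hφ1]
    exact fun z => congrArg (fun f : K →+* K => f z) this
  have hmul : ∀ x y, (ψ (x * y)).snd = x * (ψ y).snd + y * (ψ x).snd := by
    intro x y
    rw [map_mul, TrivSqZeroExt.snd_mul, hfst, hfst]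
    simp [mul_comm]
  have hc : ∀ c : ℂ, (ψ (algebraMap ℂ K c)).snd = 0 := by
    intro c
    have : algebraMap ℂ K c = ((algebraMap ℂ A c : A) : K) := rfl
    rw [this, hψ, hφ2, Derivation.map_algebraMap]
    rfl
  refine ⟨Derivation.mk'
    { toFun := fun z => (ψ z).snd
      map_add' := fun x y => by rw [map_add, TrivSqZeroExt.snd_add]
      map_smul' := fun c x => by
        rw [Algebra.smul_def, hmul, hc, RingHom.id_apply, Algebra.smul_def]
        simp } (fun x y => hmul x y), fun a => ?_⟩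
  change (ψ (a : K)).snd = _
  rw [hψ, hφ2]

end MainAux

open MainAux in
theorem sing : SingStmt := by
  intro K _ _ A _ v1 v2 m _ hft hdim hJ hres h1 h2 hgen _ hr
  obtain ⟨t1, ht1, t2, ht2, hts⟩ := exists_gens m hdim hr
  let δ : A → K × K := fun a => (v1 a, v2 a)
  have δadd : ∀ a b, δ (a + b) = δ a + δ b := fun a b => by simp [δ]
  have δmul : ∀ a b, δ (a * b) = a • δ b + b • δ a := fun a b => by
    simp only [δ, Subalgebra.coe_mul, Derivation.leibniz, Prod.smul_mk, Prod.mk_add_mk]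
    rfl
  have δc : ∀ c : ℂ, δ (algebraMap ℂ A c) = 0 := fun c => by
    have : ((algebraMap ℂ A c : A) : K) = algebraMap ℂ K c := rfl
    simp [δ, this]
  obtain ⟨S, hS⟩ := hft.out
  let M : Submodule A (K × K) := Submodule.span A (δ '' S)
  have hM : ∀ a, δ a ∈ M := by
    intro a
    have ha : a ∈ Algebra.adjoin ℂ (S : Set A) := hS ▸ Algebra.mem_top
    induction ha using Algebra.adjoin_induction with
    | mem x hx => exact Submodule.subset_span ⟨x, hx, rfl⟩
    | algebraMap c => rw [δc]; exact zero_mem _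
    | add x y _ _ hx hy => rw [δadd]; exact add_mem hx hy
    | mul x y _ _ hx hy =>
      rw [δmul]; exact add_mem (Submodule.smul_mem _ _ hy) (Submodule.smul_mem _ _ hx)
  let N : Submodule A (K × K) := Submodule.span A {δ t1, δ t2}
  have hle : M ≤ N ⊔ m • M := by
    refine Submodule.span_le.2 ?_
    rintro _ ⟨a, -, rfl⟩
    obtain ⟨c, hc⟩ := hres a
    obtain ⟨s, hs, p, q, hpq⟩ := hts _ hc
    obtain ⟨s', μ, hμ, hsμ⟩ := Ideal.IsMaximal.exists_inv inferInstance hs
    set a' := a - algebraMap ℂ A c with ha'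
    have e1 : a = algebraMap ℂ A c + ((s' * p) * t1 + (s' * q) * t2 + μ * a') := by
      have : a' = s' * (s * a') + μ * a' := by rw [← mul_assoc, ← add_mul, hsμ, one_mul]
      rw [hpq] at this
      linear_combination this + ha'.symm - ha'.symm
    have hn1 : δ t1 ∈ N ⊔ m • M := Submodule.mem_sup_left (Submodule.subset_span (by simp))
    have hn2 : δ t2 ∈ N ⊔ m • M := Submodule.mem_sup_left (Submodule.subset_span (by simp))
    have hmm : ∀ x ∈ m, ∀ y, x • δ y ∈ N ⊔ m • M := fun x hx y =>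
      Submodule.mem_sup_right (Submodule.smul_mem_smul hx (hM y))
    change δ a ∈ N ⊔ m • M
    rw [e1, δadd, δc, zero_add, δadd, δadd, δmul _ t1, δmul _ t2, δmul μ]
    exact add_mem (add_mem (add_mem (Submodule.smul_mem _ _ hn1) (hmm _ ht1 _))
      (add_mem (Submodule.smul_mem _ _ hn2) (hmm _ ht2 _))) (add_mem (hmm _ hμ _) (hmm _ hc _))
  obtain ⟨r, hr1, hrM⟩ := Submodule.exists_sub_one_mem_and_smul_le_of_fg_of_le_sup
    (Submodule.fg_span (S.finite_toSet.image δ)) le_rfl hle
  have hrm : r ∉ m := fun h => by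
    have : (1 : A) ∈ m := by simpa using m.sub_mem h hr1
    exact (Ideal.IsMaximal.ne_top inferInstance) ((Ideal.eq_top_iff_one _).2 this)
  have hr0 : (r : K) ≠ 0 := fun h => hrm (by rw [show r = 0 from Subtype.ext h]; exact zero_mem _)
  have key : ∀ a : A, ∃ p q : A, (r : K) * v1 a = p * v1 t1 + q * v1 t2 ∧
      (r : K) * v2 a = p * v2 t1 + q * v2 t2 := by
    intro a
    obtain ⟨p, q, hpq⟩ := Submodule.mem_span_pair.1
      (hrM (Submodule.smul_mem_pointwise_smul _ r M (hM a)))
    exact ⟨p, q, (congrArg Prod.fst hpq).symm, (congrArg Prod.snd hpq).symm⟩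
  have kill : ∀ α β : K, α * v1 t1 + β * v2 t1 = 0 → α * v1 t2 + β * v2 t2 = 0 →
      α = 0 ∧ β = 0 := by
    intro α β e1 e2
    refine indep hJ (eq_zero_of_kill A _ fun a => ?_)
    obtain ⟨p, q, k1, k2⟩ := key a
    refine (mul_eq_zero.1 (?_ : (r : K) * _ = 0)).resolve_left hr0
    simp only [Derivation.add_apply, Derivation.smul_apply, smul_eq_mul]
    linear_combination α * k1 + β * k2 + (p : K) * e1 + (q : K) * e2
  by_cases hJt : Jac v1 v2 t1 t2 = 0
  · unfold Jac at hJt
    obtain ⟨a1, a2⟩ := kill (v2 t2) (-v1 t2) (by linear_combination hJt) (by ring)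
    obtain ⟨b1, b2⟩ := kill (v2 t1) (-v1 t1) (by ring) (by linear_combination -hJt)
    exact one_ne_zero (kill 1 0 (by linear_combination -b2) (by linear_combination -a2)).1
  · let D1 : Derivation ℂ K K := (r * (Jac v1 v2 t1 t2)⁻¹ * v2 t2) • v1 +
      (-(r * (Jac v1 v2 t1 t2)⁻¹ * v1 t2)) • v2
    have hD : ∀ z, D1 z = (Jac v1 v2 t1 t2)⁻¹ * (v2 t2 * (r * v1 z) - v1 t2 * (r * v2 z)) := by
      intro z
      simp only [D1, Derivation.add_apply, Derivation.smul_apply, smul_eq_mul]
      ring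
    have hst : Stable D1 A := by
      intro x hx
      obtain ⟨p, q, k1, k2⟩ := key ⟨x, hx⟩
      have : D1 x = p := by
        rw [hD]
        simp only at k1 k2
        rw [k1, k2, inv_mul_eq_iff_eq_mul₀ hJt]
        unfold Jac
        ring
      rw [this]
      exact p.2
    have hD1 : D1 t1 = r := by
      rw [hD, inv_mul_eq_iff_eq_mul₀ hJt]
      unfold Jac
      ring
    obtain ⟨α, hα, β, hβ, hαβ⟩ := hgen D1 hst
    obtain ⟨b1, hb1, e1⟩ := h1 t1
    obtain ⟨b2, hb2, e2⟩ := h2 t1
    have : r = ⟨α, hα⟩ * b1 + ⟨β, hβ⟩ * b2 := by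
      apply Subtype.ext
      rw [← hD1, hαβ]
      simp [e1, e2]
    exact hrm (this ▸ m.add_mem (m.mul_mem_left _ hb1) (m.mul_mem_left _ hb2))

open MainAux in
theorem main_of (hH : HartogsStmt) (hS : SeidenbergStmt) (hN : NormStmt) : MainStmt := by
  intro K _ _ v1 v2 A' hfg hfr htr hspan hJ hGB hO
  obtain ⟨A, hA, hft, hic, hfrac, hdim, h3, h4⟩ := hN K A' hfg hfr htr
  have hno : IsNoetherianRing A := Algebra.FiniteType.isNoetherianRing ℂ A
  have hA'A : ∀ x ∈ A', x ∈ A := fun x hx =>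
    (hA x).2 (isIntegral_algebraMap (x := (⟨x, hx⟩ : A')))
  have hint : ∀ R : Subalgebra ℂ K, A' ≤ R → ∀ u ∈ A, IsIntegral R u := fun R hR u hu =>
    IsIntegral.map_of_comp_eq (Subalgebra.inclusion hR).toRingHom (RingHom.id K)
      (by ext; rfl) ((hA u).1 hu)
  have key : ∀ z : K, (∀ (q : Ideal A) (V : ValuationSubring K), q.IsPrime →
      IsNoetherianRing V → (∀ z : K, z ∈ V ↔ ∃ a b : A, b ∉ q ∧ z = (a : K) / (b : K)) →
      Good V v1 v2 A' → z ∈ V) → z ∈ A := by
    intro z hz
    by_contra hzA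
    obtain ⟨q, V, hq, hV, hzV, hVq, hval⟩ := hH A K z (by
      rintro ⟨a, rfl⟩
      exact hzA a.2)
    have hA'V : ∀ x ∈ A', x ∈ V := fun x hx =>
      (hVq x).2 ⟨⟨x, hA'A x hx⟩, 1, (Ideal.ne_top_iff_one _).1 hq.ne_top, by simp⟩
    rcases hGB V hA'V with hg | hb
    · exact hzV (hz q V hq hV hVq hg)
    · obtain ⟨m, hm, hmV, -⟩ := h3 V hA'V hb
      have : m = q := Ideal.ext fun a => (hmV a).trans (hval a)
      subst this
      exact h4 m hm V hV hVq
  have hs1 : Stable v1 A := fun u hu => key _ fun q V _ hV _ hg => by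
    obtain ⟨R, r1, r2, r3, r4, -, -⟩ := hg
    exact hS K v1 R V hV r1 r3 r4 u (hint R r2 u hu)
  have hs2 : Stable v2 A := fun u hu => key _ fun q V _ hV _ hg => by
    obtain ⟨R, r1, r2, r3, -, r5, -⟩ := hg
    exact hS K v2 R V hV r1 r3 r5 u (hint R r2 u hu)
  have hgen : ∀ D : Derivation ℂ K K, Stable D A → ∃ α ∈ A, ∃ β ∈ A, D = α • v1 + β • v2 := by
    intro D hD
    obtain ⟨α, β, hαβ⟩ := hspan D
    have both : ∀ (q : Ideal A) (V : ValuationSubring K), q.IsPrime →
        (∀ z : K, z ∈ V ↔ ∃ a b : A, b ∉ q ∧ z = (a : K) / (b : K)) →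
        Good V v1 v2 A' → α ∈ V ∧ β ∈ V := by
      intro q V hq hVq hg
      have hDV : ∀ z ∈ V, D z ∈ V := by
        intro z hz
        obtain ⟨a, b, hb, rfl⟩ := (hVq z).1 hz
        refine (hVq _).2 ⟨b * ⟨D a, hD a a.2⟩ - a * ⟨D b, hD b b.2⟩, b * b,
          fun h => hb ((hq.mem_or_mem h).elim id id), ?_⟩
        rw [Derivation.leibniz_div]
        simp only [smul_eq_mul, AddSubgroupClass.coe_sub, MulMemClass.coe_mul]
        rw [div_eq_inv_mul, mul_inv, sq]
      obtain ⟨R, r1, -, -, r4, r5, u, hu, w, hw, hJ1⟩ := hg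
      have hJ0 : Jac v1 v2 u w ≠ 0 := fun h => by simp [h] at hJ1
      have hdiv : ∀ x : K, x * Jac v1 v2 u w ∈ V → x ∈ V := by
        intro x hx
        rw [← V.valuation_le_one_iff] at hx ⊢
        rwa [map_mul, hJ1, mul_one] at hx
      have hDu : D u = α * v1 u + β * v2 u := by rw [hαβ]; simp
      have hDw : D w = α * v1 w + β * v2 w := by rw [hαβ]; simp
      constructor
      · refine hdiv α ?_
        have : α * Jac v1 v2 u w = D u * v2 w - v2 u * D w := by
          rw [hDu, hDw]; unfold Jac; ring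
        rw [this]
        exact sub_mem (mul_mem (hDV u (r1 u hu)) (r1 _ (r5 w hw)))
          (mul_mem (r1 _ (r5 u hu)) (hDV w (r1 w hw)))
      · refine hdiv β ?_
        have : β * Jac v1 v2 u w = v1 u * D w - D u * v1 w := by
          rw [hDu, hDw]; unfold Jac; ring
        rw [this]
        exact sub_mem (mul_mem (r1 _ (r4 u hu)) (hDV w (r1 w hw)))
          (mul_mem (hDV u (r1 u hu)) (r1 _ (r4 w hw)))
    exact ⟨α, key α fun q V hq _ hVq hg => (both q V hq hVq hg).1,
      β, key β fun q V hq _ hVq hg => (both q V hq hVq hg).2, hαβ⟩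
  let Φ : (Fin 2 → A) →ₗ[A] Derivation ℂ A A :=
    { toFun := fun c => c 0 • restr A v1 hs1 + c 1 • restr A v2 hs2
      map_add' := fun c c' => by
        simp only [Pi.add_apply, add_smul]
        abel
      map_smul' := fun a c => by
        simp only [Pi.smul_apply, smul_eq_mul, RingHom.id_apply, smul_add, mul_smul] }
  have hΦ : ∀ (c : Fin 2 → A) (a : A), (Φ c a : K) = (c 0 : K) * v1 a + (c 1 : K) * v2 a :=
    fun c a => rfl
  have hbij : Function.Bijective Φ := by
    constructor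
    · rw [injective_iff_map_eq_zero]
      intro c hc
      have := indep hJ (α := c 0) (β := c 1) (eq_zero_of_kill A _ fun a => by
        have h := hΦ c a
        rw [hc] at h
        simpa using h.symm)
      funext i
      fin_cases i
      · exact Subtype.ext this.1
      · exact Subtype.ext this.2
    · intro d
      obtain ⟨D, hD⟩ := exists_extend A d
      obtain ⟨α, hα, β, hβ, hαβ⟩ := hgen D fun x hx => by
        rw [hD ⟨x, hx⟩]; exact (d ⟨x, hx⟩).2
      refine ⟨![⟨α, hα⟩, ⟨β, hβ⟩], ?_⟩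
      ext a
      rw [hΦ, ← hD, hαβ]
      simp
  obtain ⟨V, R, w1, w2, f1, f2, hV, r1, r2, r3, r4, r5, e1, e2, hf1, hf2, hb⟩ := hO
  obtain ⟨m, hm, hmV, hres⟩ := h3 V (fun x hx => r1 x (r2 hx)) hb
  have hvan : ∀ (v w : Derivation ℂ K K) (f : K), Stable v A → Stable w R → v = f • w →
      V.valuation f < 1 → ∀ a : A, ∃ b ∈ m, v a = (b : K) := by
    intro v w f hv hw e hf a
    refine ⟨⟨v a, hv a a.2⟩, (hmV _).2 ?_, rfl⟩
    have hwa : w a ∈ V := hS K w R V hV r1 r3 hw a (hint R r2 a a.2)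
    rw [← V.valuation_le_one_iff] at hwa
    change V.valuation (v a) < 1
    rw [e, Derivation.smul_apply, smul_eq_mul, map_mul]
    exact mul_lt_one_of_lt_of_le hf hwa
  exact ⟨A, inferInstance, inferInstance, inferInstance, hft, hic, hdim,
    ⟨(LinearEquiv.ofBijective Φ hbij).symm⟩, m, hm,
    sing K A v1 v2 m hft hdim hJ hres (hvan v1 w1 f1 hs1 r4 e1 hf1) (hvan v2 w2 f2 hs2 r5 e2 hf2)
      hgen hspan⟩

end Crest.Agent.R278
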