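import Crest.Agent.R278.Defs

/-! Row 278, part B: normalisation of a finitely generated subalgebra. -/

set_option autoImplicit false

namespace Crest.Agent.R278

open MvPolynomial
open scoped nonZeroDivisors

namespace NormAux

theorem residue {R : Type} [CommRing R] [Algebra ℂ R] [Algebra.FiniteType ℂ R] (m : Ideal R)
    [hm : m.IsMaximal] (a : R) : ∃ c : ℂ, a - algebraMap ℂ R c ∈ m := by
  let := Ideal.Quotient.field m
  have : Module.Finite ℂ (R ⧸ m) := finite_of_finite_type_of_isJacobsonRing ℂ (R ⧸ m)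
  obtain ⟨c, hc⟩ := (IsAlgClosed.algebraMap_bijective_of_isIntegral (k := ℂ) (K := R ⧸ m)).2
    (Ideal.Quotient.mk m a)
  exact ⟨c, Ideal.Quotient.eq.mp hc.symm⟩

theorem isMaximal_of_residue {R : Type} [CommRing R] [Algebra ℂ R] (m : Ideal R) (h1 : m ≠ ⊤)
    (h : ∀ a, ∃ c : ℂ, a - algebraMap ℂ R c ∈ m) : m.IsMaximal := by
  refine Ideal.isMaximal_iff.mpr ⟨(Ideal.ne_top_iff_one m).mp h1, fun J x hJ hx hxJ => ?_⟩
  obtain ⟨c, hc⟩ := h x
  have hc0 : c ≠ 0 := by
    rintro rfl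
    exact hx (by simpa using hc)
  have h2 : algebraMap ℂ R c ∈ J := by simpa using J.sub_mem hxJ (hJ hc)
  have h3 := J.mul_mem_left (algebraMap ℂ R c⁻¹) h2
  rwa [← map_mul, inv_mul_cancel₀ hc0, map_one] at h3

theorem chain_poly (p : Ideal (MvPolynomial (Fin 2) ℂ)) [p.IsMaximal] :
    ∃ q : Ideal (MvPolynomial (Fin 2) ℂ), q.IsPrime ∧ q ≠ ⊥ ∧ q < p := by
  obtain ⟨c0, h0⟩ := residue p (X 0)
  obtain ⟨c1, h1⟩ := residue p (X 1)
  let ψ : MvPolynomial (Fin 2) ℂ →ₐ[ℂ] MvPolynomial (Fin 2) ℂ := aeval ![C c0, X 1]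
  have hne : ∀ (i : Fin 2) (c : ℂ), (X i - C c : MvPolynomial (Fin 2) ℂ) ≠ 0 := fun i c h => by
    have := congrArg (eval fun _ => c + 1) h
    simp at this
  refine ⟨RingHom.ker ψ, RingHom.ker_isPrime ψ, fun h => hne 0 c0 ?_, lt_of_le_of_ne ?_ fun h => ?_⟩
  · rw [← Ideal.mem_bot, ← h, RingHom.mem_ker]
    simp [ψ]
  · have : (Ideal.Quotient.mkₐ ℂ p).comp ψ = Ideal.Quotient.mkₐ ℂ p := by
      ext i
      fin_cases i
      · simpa [ψ] using (Ideal.Quotient.eq.mpr h0).symm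
      · simp [ψ]
    intro f hf
    have h2 := AlgHom.congr_fun this f
    rw [AlgHom.comp_apply, RingHom.mem_ker.mp hf, map_zero] at h2
    exact Ideal.Quotient.eq_zero_iff_mem.mp h2.symm
  · rw [← h, RingHom.mem_ker] at h1
    exact hne 1 c1 (by simpa [ψ] using h1)

theorem chain {A : Type} [CommRing A] [IsDomain A] [Algebra (MvPolynomial (Fin 2) ℂ) A]
    [FaithfulSMul (MvPolynomial (Fin 2) ℂ) A] [Algebra.IsIntegral (MvPolynomial (Fin 2) ℂ) A]
    (m : Ideal A) [m.IsMaximal] : ∃ Q : Ideal A, Q.IsPrime ∧ Q ≠ ⊥ ∧ Q < m := by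
  have := Ideal.isMaximal_comap_of_isIntegral_of_isMaximal (R := MvPolynomial (Fin 2) ℂ) m
  obtain ⟨q, h1, h2, h3⟩ := chain_poly (m.comap (algebraMap (MvPolynomial (Fin 2) ℂ) A))
  have : m.LiesOver (m.comap (algebraMap (MvPolynomial (Fin 2) ℂ) A)) := ⟨rfl⟩
  obtain ⟨Q, h4, h5, h6⟩ := Ideal.exists_ideal_lt_liesOver_of_lt m h3
  refine ⟨Q, h5, ?_, h4⟩
  rintro rfl
  apply h2
  rw [h6.over, Ideal.under_def]
  exact Ideal.comap_bot_of_injective _ (FaithfulSMul.algebraMap_injective _ _)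

theorem dim {A : Type} [CommRing A] [IsDomain A] [Algebra (MvPolynomial (Fin 2) ℂ) A]
    [FaithfulSMul (MvPolynomial (Fin 2) ℂ) A] [Algebra.IsIntegral (MvPolynomial (Fin 2) ℂ) A] :
    ringKrullDim A = 2 := by
  refine le_antisymm ?_ ?_
  · have h1 : ringKrullDim (MvPolynomial (Fin 2) ℂ) = 2 := by
      rw [MvPolynomial.ringKrullDim_of_isNoetherianRing, ringKrullDim_eq_zero_of_field]
      simp
    rw [← h1]
    exact Order.krullDim_le_of_strictMono
      (PrimeSpectrum.comap (algebraMap (MvPolynomial (Fin 2) ℂ) A))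
      fun I J h => Ideal.IsIntegral.comap_lt_comap (R := MvPolynomial (Fin 2) ℂ) h
  · obtain ⟨m, hm⟩ := Ideal.exists_maximal A
    obtain ⟨Q, h1, h2, h3⟩ := chain m
    let l : LTSeries (PrimeSpectrum A) :=
      ((RelSeries.singleton _ (⟨⊥, Ideal.isPrime_bot⟩ : PrimeSpectrum A)).snoc ⟨Q, h1⟩
        (bot_lt_iff_ne_bot.mpr h2 : (⊥ : Ideal A) < Q)).snoc ⟨m, hm.isPrime⟩
        (by rw [RelSeries.last_snoc]; exact h3)
    exact Order.LTSeries.length_le_krullDim l

theorem not_val {K : Type} [Field K] [Algebra ℂ K] (A : Subalgebra ℂ K) {m Q : Ideal A}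
    (hm : m.IsPrime) (h1 : Q.IsPrime) (h2 : Q ≠ ⊥) (h3 : Q < m) (V : ValuationSubring K)
    (hV : IsNoetherianRing V) :
    ¬ (∀ z : K, z ∈ V ↔ ∃ a b : A, b ∉ m ∧ z = (a : K) / (b : K)) := by
  intro h
  have hA : ∀ a : A, (a : K) ∈ V := fun a =>
    (h _).mpr ⟨a, 1, (Ideal.ne_top_iff_one m).mp hm.ne_top, by simp⟩
  have hne : ∀ s : A, s ∉ m → (s : K) ≠ 0 := fun s hs h0 =>
    hs (by rw [show s = 0 from Subtype.ext h0]; exact m.zero_mem)
  obtain ⟨a, ha, ha0⟩ := Submodule.exists_mem_ne_zero_of_ne_bot h2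
  obtain ⟨b, hb, hbQ⟩ := SetLike.exists_of_lt h3
  have hnu : ¬IsUnit (⟨b, hA b⟩ : V) := by
    intro hu
    obtain ⟨z, hz⟩ := hu.exists_right_inv
    obtain ⟨x, s, hs, hx⟩ := (h z).mp z.2
    have h4 : (b : K) * z = 1 := congrArg Subtype.val hz
    rw [hx, ← mul_div_assoc, div_eq_one_iff_eq (hne s hs)] at h4
    have h5 : b * x = s := Subtype.ext h4
    exact hs (h5 ▸ m.mul_mem_right x hb)
  obtain ⟨n, hn⟩ := FiniteMultiplicity.of_not_isUnit hnu (b := (⟨a, hA a⟩ : V))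
    fun h0 => ha0 (Subtype.ext (congrArg (Subtype.val : V → K) h0))
  obtain ⟨z, hz⟩ := (ValuationRing.dvd_total _ _).resolve_left hn
  obtain ⟨x, s, hs, hx⟩ := (h z).mp z.2
  have h4 : (b : K) ^ (n + 1) = a * z := congrArg Subtype.val hz
  rw [hx, ← mul_div_assoc, eq_div_iff (hne s hs)] at h4
  have h5 : b ^ (n + 1) * s = a * x := Subtype.ext h4
  rcases h1.mem_or_mem (h5 ▸ Q.mul_mem_right x ha) with h6 | h6
  · exact hbQ (h1.mem_of_pow_mem _ h6)
  · exact hs (h3.le h6)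

theorem center {K : Type} [Field K] [Algebra ℂ K] (A' A : Subalgebra ℂ K)
    (hA : ∀ x, x ∈ A ↔ IsIntegral A' x) [Algebra.FiniteType ℂ A] (V : ValuationSubring K)
    (hV : ∀ x ∈ A', x ∈ V) (hB : Bad V A') :
    ∃ m : Ideal A, m.IsMaximal ∧ (∀ a : A, a ∈ m ↔ V.valuation (a : K) < 1) ∧
      (∀ a : A, ∃ c : ℂ, a - algebraMap ℂ A c ∈ m) := by
  have hle : A' ≤ A := fun x hx => (hA x).mpr (isIntegral_algebraMap (x := (⟨x, hx⟩ : A')))
  have hAV : ∀ a : A, (a : K) ∈ V := fun a => by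
    let : Algebra A' V := ((A'.val : A' →+* K).codRestrict V fun x => hV x x.2).toAlgebra
    have : IsScalarTower A' V K := IsScalarTower.of_algebraMap_eq fun _ => rfl
    obtain ⟨y, hy⟩ := IsIntegrallyClosed.algebraMap_eq_of_integral (R := V)
      (((hA a).mp a.2).tower_top (A := V))
    exact hy ▸ y.2
  let φ : A →+* V := (A.val : A →+* K).codRestrict V hAV
  let m : Ideal A := (IsLocalRing.maximalIdeal V).comap φ
  have hm : ∀ a : A, a ∈ m ↔ V.valuation (a : K) < 1 := fun a => V.valuation_lt_one_iff (φ a)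
  have : m.IsPrime := Ideal.comap_isPrime φ _
  let : Algebra A' A := (Subalgebra.inclusion hle).toAlgebra
  have : IsScalarTower A' A K := IsScalarTower.of_algebraMap_eq fun _ => rfl
  have : Algebra.IsIntegral A' A := ⟨fun a =>
    (isIntegral_algebraMap_iff (B := K) Subtype.val_injective).mp ((hA a).mp a.2)⟩
  have hmax : m.IsMaximal := Ideal.isMaximal_of_isIntegral_of_isMaximal_comap (R := A') m
    (isMaximal_of_residue _ (Ideal.comap_isPrime _ m).ne_top fun x => by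
      obtain ⟨c, hc⟩ := hB x x.2
      exact ⟨c, (hm _).mpr hc⟩)
  exact ⟨m, hmax, hm, residue m⟩

end NormAux

open NormAux in
theorem normalization : NormStmt := by
  intro K _ _ A' hfg hfr htr
  have : Algebra.FiniteType ℂ A' := (Subalgebra.fg_iff_finiteType A').mp hfg
  obtain ⟨s, g, hinj, hfin⟩ := exists_finite_inj_algHom_of_fg ℂ A'
  have : IsFractionRing A' K := IsFractionRing.of_field _ _ fun z => by
    obtain ⟨a, ha, b, hb, -, h⟩ := hfr z
    exact ⟨⟨a, ha⟩, ⟨b, hb⟩, h⟩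
  let : Algebra (MvPolynomial (Fin s) ℂ) A' := g.toRingHom.toAlgebra
  let : Algebra (MvPolynomial (Fin s) ℂ) K := (A'.val.comp g).toRingHom.toAlgebra
  have : IsScalarTower (MvPolynomial (Fin s) ℂ) A' K :=
    IsScalarTower.of_algebraMap_eq fun _ => rfl
  have : IsScalarTower ℂ (MvPolynomial (Fin s) ℂ) K :=
    IsScalarTower.of_algebraMap_eq fun c => ((A'.val.comp g).commutes c).symm
  have : Module.Finite (MvPolynomial (Fin s) ℂ) A' := hfin
  have : FaithfulSMul (MvPolynomial (Fin s) ℂ) A' :=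
    (faithfulSMul_iff_algebraMap_injective _ _).mpr hinj
  have : FaithfulSMul (MvPolynomial (Fin s) ℂ) K :=
    (faithfulSMul_iff_algebraMap_injective _ _).mpr (Subtype.val_injective.comp hinj)
  let := FractionRing.liftAlgebra (MvPolynomial (Fin s) ℂ) K
  have : Module.Finite (FractionRing (MvPolynomial (Fin s) ℂ)) K :=
    Module.Finite.of_isLocalization (MvPolynomial (Fin s) ℂ) A' (MvPolynomial (Fin s) ℂ)⁰
  have : Algebra.IsAlgebraic (MvPolynomial (Fin s) ℂ) K :=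
    (IsFractionRing.comap_isAlgebraic_iff (K := FractionRing (MvPolynomial (Fin s) ℂ))).mpr
      inferInstance
  have hs : s = 2 := by
    have := trdeg_add_eq ℂ (MvPolynomial (Fin s) ℂ) (A := K)
    rw [htr, trdeg_eq_zero (A := K), add_zero, MvPolynomial.trdeg_of_isDomain] at this
    simp only [Cardinal.mk_fintype, Fintype.card_fin, Cardinal.lift_natCast] at this
    exact_mod_cast this
  subst hs
  let A : Subalgebra ℂ K := (integralClosure (MvPolynomial (Fin 2) ℂ) K).restrictScalars ℂ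
  have hA : ∀ x, x ∈ A ↔ IsIntegral A' x := fun x =>
    ⟨fun h => IsIntegral.tower_top (R := MvPolynomial (Fin 2) ℂ) h,
      fun h => isIntegral_trans (R := MvPolynomial (Fin 2) ℂ) x h⟩
  let : Algebra (MvPolynomial (Fin 2) ℂ) A :=
    (integralClosure (MvPolynomial (Fin 2) ℂ) K).algebra
  have : IsScalarTower (MvPolynomial (Fin 2) ℂ) A K :=
    IsScalarTower.of_algebraMap_eq fun _ => rfl
  have : IsScalarTower ℂ (MvPolynomial (Fin 2) ℂ) A :=
    IsScalarTower.of_algebraMap_eq fun c => Subtype.ext ((A'.val.comp g).commutes c).symm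
  have : IsIntegralClosure A (MvPolynomial (Fin 2) ℂ) K :=
    integralClosure.isIntegralClosure (MvPolynomial (Fin 2) ℂ) K
  have : Module.Finite (MvPolynomial (Fin 2) ℂ) A :=
    IsIntegralClosure.finite _ (FractionRing (MvPolynomial (Fin 2) ℂ)) K A
  have : FaithfulSMul (MvPolynomial (Fin 2) ℂ) A :=
    FaithfulSMul.tower_bot (MvPolynomial (Fin 2) ℂ) A K
  have hft : Algebra.FiniteType ℂ A :=
    Algebra.FiniteType.trans (S := MvPolynomial (Fin 2) ℂ) inferInstance inferInstance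
  have hfrac : IsFractionRing A K :=
    IsIntegralClosure.isFractionRing_of_finite_extension (A := MvPolynomial (Fin 2) ℂ)
      (FractionRing (MvPolynomial (Fin 2) ℂ)) K A
  refine ⟨A, hA, hft, ?_, hfrac, dim, fun V hV hB => center A' A hA V hV hB, fun m hm V hV => ?_⟩
  · refine (isIntegrallyClosed_iff K).mpr fun {x} hx => ⟨⟨x, ?_⟩, rfl⟩
    exact isIntegral_trans (R := MvPolynomial (Fin 2) ℂ) x hx
  · obtain ⟨Q, h1, h2, h3⟩ := chain m
    exact not_val A hm.isPrime h1 h2 h3 V hV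

end Crest.Agent.R278
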