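import Crest.Agent.R278.Classify
import Crest.Agent.R278.Hartogs
import Crest.Agent.R278.Norm
import Crest.Agent.R278.Main
import Crest.Agent.R278.Field

/-! Assembly. -/

set_option autoImplicit false
set_option linter.unusedSectionVars false

namespace Crest.Agent.R278

section
variable {K : Type} [Field K] [Algebra ℂ K]

def Setup.A (T : Setup K) : Subalgebra ℂ K :=
  Algebra.adjoin ℂ {T.Φ1, T.Φ2, T.UM, T.ia, T.X * T.Φ1 * T.Φ2, T.Y * T.Φ1 * T.Φ2}

theorem Setup.A_le (T : Setup K) {R : Subalgebra ℂ K} (h : T.Gen R) : T.A ≤ R := by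
  apply Algebra.adjoin_le
  rintro z (rfl | rfl | rfl | rfl | rfl | rfl)
  exacts [h.p1, h.p2, h.um, h.ia, h.xp, h.yp]

theorem Setup.gen_A (T : Setup K) : T.Gen T.A := by
  refine ⟨?_, ?_, ?_, ?_, ?_, ?_⟩ <;> exact Algebra.subset_adjoin (by simp)

theorem FracTop.mono {R S : Subalgebra ℂ K} (h : FracTop R) (le : R ≤ S) : FracTop S := by
  intro z
  obtain ⟨a, ha, b, hb, b0, e⟩ := h z
  exact ⟨a, le ha, b, le hb, b0, e⟩

/-- quotients of elements of `R` -/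
def Quo (R : Subalgebra ℂ K) : Subalgebra ℂ K where
  carrier := {z | ∃ a ∈ R, ∃ b ∈ R, b ≠ 0 ∧ z = a / b}
  mul_mem' := by
    rintro _ _ ⟨a, ha, b, hb, b0, rfl⟩ ⟨c, hc, d, hd, d0, rfl⟩
    exact ⟨a * c, R.mul_mem ha hc, b * d, R.mul_mem hb hd, mul_ne_zero b0 d0,
      div_mul_div_comm _ _ _ _⟩
  add_mem' := by
    rintro _ _ ⟨a, ha, b, hb, b0, rfl⟩ ⟨c, hc, d, hd, d0, rfl⟩
    exact ⟨a * d + b * c, R.add_mem (R.mul_mem ha hd) (R.mul_mem hb hc), b * d, R.mul_mem hb hd,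
      mul_ne_zero b0 d0, div_add_div _ _ b0 d0⟩
  algebraMap_mem' := fun c => ⟨_, R.algebraMap_mem c, 1, R.one_mem, one_ne_zero, by simp⟩

theorem FracTop.of_Quo {R : Subalgebra ℂ K} (h : FracTop (Quo R)) : FracTop R := by
  intro z
  obtain ⟨_, ⟨a, ha, b, hb, b0, rfl⟩, _, ⟨c, hc, d, hd, d0, rfl⟩, h0, rfl⟩ := h z
  have c0 : c ≠ 0 := by rintro rfl; simp at h0
  exact ⟨a * d, R.mul_mem ha hd, b * c, R.mul_mem hb hc, mul_ne_zero b0 c0, by field_simp⟩

theorem Tf_ne {x y : K} (h : Qf x y ≠ 0) : Tf x y ≠ 0 := by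
  simp only [Qf, ne_eq, mul_eq_zero, not_or] at h
  exact mul_ne_zero (mul_ne_zero (mul_ne_zero (pow_ne_zero _ h.1.1.1) (pow_ne_zero _ h.1.1.2))
    (pow_ne_zero _ h.1.2)) h.2

theorem Setup.Φ1_ne (T : Setup K) : T.Φ1 ≠ 0 := by
  intro h
  have := T.T1
  rw [h, zero_pow (by norm_num), zero_mul] at this
  exact mul_ne_zero (Tf_ne T.hQ) (pow_ne_zero 2 T.hM) this.symm

theorem Setup.Φ2_ne (T : Setup K) : T.Φ2 ≠ 0 := T.swap.Φ1_ne

theorem Setup.jac_ne (T : Setup K) : Jac T.v1 T.v2 T.X T.Y ≠ 0 := by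
  intro h
  have e := T.jac
  rw [h, zero_mul] at e
  have : CharZero K := charZero_of_injective_algebraMap (algebraMap ℂ K).injective
  have h4 : (-4 : K) ≠ 0 := by norm_num
  exact mul_ne_zero (mul_ne_zero (mul_ne_zero (mul_ne_zero h4 T.Φ1_ne) T.Φ2_ne) T.hQ)
    T.hN e.symm

theorem target_of (T : Setup K) (htr : Algebra.trdeg ℂ K = 2)
    (hF : ∀ R : Subalgebra ℂ K, T.X ∈ R → T.Y ∈ R → T.Φ1 ∈ R → T.Φ2 ∈ R → FracTop R)
    (hD : ∀ D : Derivation ℂ K K, D T.X = 0 → D T.Y = 0 → D = 0)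
    (V : ValuationSubring K) (hV : IsNoetherianRing V) (hC : HC V) (hx : V.valuation T.X < 1)
    (hy : V.valuation T.Y < 1) : Target := by
  have g := T.gen_A
  have h12 := mul_ne_zero T.Φ1_ne T.Φ2_ne
  have fA : FracTop T.A := by
    refine FracTop.of_Quo (hF _ ?_ ?_ ⟨_, g.p1, 1, T.A.one_mem, one_ne_zero, by simp⟩
      ⟨_, g.p2, 1, T.A.one_mem, one_ne_zero, by simp⟩)
    · exact ⟨_, g.xp, _, T.A.mul_mem g.p1 g.p2, h12, by rw [mul_assoc, mul_div_cancel_right₀ _ h12]⟩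
    · exact ⟨_, g.yp, _, T.A.mul_mem g.p1 g.p2, h12, by rw [mul_assoc, mul_div_cancel_right₀ _ h12]⟩
  refine main_of hartogs seidenberg normalization K T.v1 T.v2 T.A
    (Subalgebra.fg_def.2 ⟨_, Set.toFinite _, rfl⟩) fA htr ?_ ⟨_, _, T.jac_ne⟩ ?_ ?_
  · intro D
    have hJ := T.jac_ne
    refine ⟨(D T.X * T.v2 T.Y - D T.Y * T.v2 T.X) / Jac T.v1 T.v2 T.X T.Y,
      (T.v1 T.X * D T.Y - T.v1 T.Y * D T.X) / Jac T.v1 T.v2 T.X T.Y, ?_⟩
    rw [← sub_eq_zero]
    apply hD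
    · simp only [Derivation.coe_sub, Derivation.coe_add, Derivation.coe_smul, Pi.sub_apply,
        Pi.add_apply, Pi.smul_apply, smul_eq_mul]
      field_simp
      simp only [Jac]; ring
    · simp only [Derivation.coe_sub, Derivation.coe_add, Derivation.coe_smul, Pi.sub_apply,
        Pi.add_apply, Pi.smul_apply, smul_eq_mul]
      field_simp
      simp only [Jac]; ring
  · intro W hW
    have hC' : HC W := fun c => hW _ (T.A.algebraMap_mem c)
    rcases classify T hC' ⟨hW _ g.p1, hW _ g.p2, hW _ g.um, hW _ g.ia, hW _ g.xp, hW _ g.yp⟩ with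
      ⟨R, h1, h2, h3, h4, h5⟩ | h
    · exact Or.inl ⟨R, h1, T.A_le h2, fA.mono (T.A_le h2), h3, h4, h5⟩
    · exact Or.inr fun x hx => T.A_le h hx
  · obtain ⟨R, h1, h2, h3, h4, h5, h6, h7⟩ := origin T hC hx hy
    exact ⟨V, R, T.w1, T.w2, T.Φ1, T.Φ2, hV, h1, T.A_le h2, fA.mono (T.A_le h2), h3, h4, rfl, rfl,
      h5, h6, fun x hx => T.A_le h7 hx⟩

end

theorem target : Target := by
  let P := MvPolynomial (Fin 2) ℂ
  let F := FractionRing P
  let x0 : F := algebraMap P F (MvPolynomial.X 0)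
  let s0 : F := algebraMap P F (MvPolynomial.X 1)
  obtain ⟨K, _, _, ι, X, s, Φ1, Φ2, eX, es, e1, e2, X0, htr, hF, hE, hD, V, hV, hC, hx, hs⟩ :=
    field_of hartogs (Tf x0 (s0 * x0) * Mf x0 ^ 2 / ev2 g1L x0 (s0 * x0))
      (Tf x0 (-(s0 * x0)) * Mf x0 ^ 2 / ev2 g1L x0 (-(s0 * x0)))
  have hy : V.valuation (s * X) < 1 := mul_lt hs hx
  have hy' : V.valuation (-(s * X)) < 1 := by rwa [Valuation.map_neg]
  have g1 := ne_of_unit (g1_unit hC hx hy)
  have g2 := ne_of_unit (g1_unit hC hx hy')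
  have ex : ι x0 = X := eX.symm
  have es' : ι s0 = s := es.symm
  have mapT : ∀ y : F, ι (Tf x0 y * Mf x0 ^ 2 / ev2 g1L x0 y) =
      Tf X (ι y) * Mf X ^ 2 / ev2 g1L X (ι y) := by
    intro y
    have := map_ev2 (ι : F →+* K) x0 y g1L
    simp only [RingHom.coe_coe] at this
    rw [map_div₀, this]
    simp only [Tf, Mf, map_mul, map_pow, map_sub, map_add, map_ofNat, map_one, ex]
  rw [mapT, map_mul, ex, es'] at e1
  rw [mapT, map_neg, map_mul, ex, es'] at e2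
  have hs0 : ∀ c : ℤ, s * X - c * X ≠ 0 := by
    intro c h
    obtain ⟨D, -, d2⟩ := hE 0 1
    have : s = c := by
      rw [← sub_mul, mul_eq_zero, sub_eq_zero] at h
      exact h.resolve_right X0
    rw [this, Derivation.map_intCast] at d2
    exact zero_ne_one d2
  have hW : ∀ a b : K, ∃ D : Derivation ℂ K K, D X = a ∧ D (s * X) = b := by
    intro a b
    obtain ⟨D, d1, d2⟩ := hE a ((b - s * a) / X)
    refine ⟨D, d1, ?_⟩
    rw [Derivation.leibniz, d1, d2, smul_eq_mul, smul_eq_mul, mul_div_cancel₀ _ X0]; ring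
  obtain ⟨w1, a1, b1⟩ := hW
    ((ev2 a1L X (s * X) * X + ev2 b1L X (s * X) * QY X (s * X)) / ev2 g1L X (-(s * X)))
    ((ev2 a1L X (s * X) * (s * X) - ev2 b1L X (s * X) * QX X (s * X)) / ev2 g1L X (-(s * X)))
  obtain ⟨w2, a2, b2⟩ := hW
    ((ev2 a1L X (-(s * X)) * X - ev2 b1L X (-(s * X)) * QY X (s * X)) / ev2 g1L X (s * X))
    ((ev2 a1L X (-(s * X)) * (s * X) + ev2 b1L X (-(s * X)) * QX X (s * X)) / ev2 g1L X (s * X))
  let T : Setup K :=
    { X := X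
      Y := s * X
      Φ1 := Φ1
      Φ2 := Φ2
      w1 := w1
      w2 := w2
      hX := X0
      hQ := by
        have h1 := hs0 9
        have h2 := hs0 (-9)
        have h3 := hs0 26
        have h4 := hs0 (-26)
        push_cast at h1 h2 h3 h4
        rw [neg_mul, sub_neg_eq_add] at h2 h4
        exact mul_ne_zero (mul_ne_zero (mul_ne_zero h1 h2) h3) h4
      hM := ne_of_unit (M_unit hC hx)
      hπ1 := ne_of_unit (ev1_unit hC hx _ (by decide))
      hπ3 := ne_of_unit (ev1_unit hC hx _ (by decide))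
      hg1 := g1
      hg2 := g2
      hN := ne_of_unit (N_unit hC hx hy)
      T1 := by rw [e1, div_mul_cancel₀ _ g1]
      T2 := by rw [e2, div_mul_cancel₀ _ g2]
      w1X := by rw [a1, div_mul_cancel₀ _ g2]
      w1Y := by rw [b1, div_mul_cancel₀ _ g2]
      w2X := by rw [a2, div_mul_cancel₀ _ g1]
      w2Y := by rw [b2, div_mul_cancel₀ _ g1] }
  refine target_of T htr hF ?_ V hV hC hx hy
  intro D d1 d2
  refine hD D d1 ?_
  have d1' : D X = 0 := d1
  have d2' : D (s * X) = 0 := d2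
  rw [Derivation.leibniz, d1', smul_zero, zero_add, smul_eq_mul] at d2'
  exact (mul_eq_zero.1 d2').resolve_left X0

end Crest.Agent.R278
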