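import Crest.Agent.R278.Arm

/-! The chart data along one of the four lines. -/

set_option autoImplicit false
set_option linter.unusedSectionVars false

namespace Crest.Agent.R278

variable {K : Type} [Field K] [Algebra ℂ K]

namespace Arm
variable (a : Arm) (T : Setup K)

def l : K := T.Y - a.s * T.X
def π : K := ev1 (1 :: a.pt) T.X
def pr (i j k : ℕ) : K :=
  (a.l T + a.c1 * T.X) ^ i * (a.l T + a.c2 * T.X) ^ j * (a.l T + a.c3 * T.X) ^ k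

structure Fits : Prop where
  hπ : a.π T ≠ 0
  t1 : Tf T.X T.Y = a.l T ^ a.e1 * a.pr T a.f1 a.f2 a.f3
  t2 : Tf T.X (-T.Y) = a.l T ^ a.e2 * a.pr T a.h1 a.h2 a.h3
  u : Uf T.X T.Y = a.l T ^ a.u0 * a.pr T a.u1 a.u2 a.u3
  q : Qf T.X T.Y = a.l T * a.pr T 1 1 1
  dq : QX T.X T.Y + a.s * QY T.X T.Y = a.l T * ev2 a.DQ T.X (a.l T)
  n1 : a.m1 = a.μ * a.e1 + 2
  n2 : a.m2 + 5 * a.τ = a.μ * a.e2 + 2
  n3 : a.τ = 0 ∨ (a.τ = 1 ∧ a.m2 = 0)

theorem hY : a.s * T.X + a.l T = T.Y := by simp [l]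

theorem ev_shift (P : P2) : ev2 (shift2 a.s P) T.X (a.l T) = ev2 P T.X T.Y := by
  rw [ev2_shift, hY]

theorem evG1 : T.G1 = ev2 a.G1 T.X (a.l T) := by rw [G1, ev_shift]; rfl
theorem evG2 : T.G2 = ev2 a.G2 T.X (a.l T) := by rw [G2, ev_shift, g2L, ev2_neg]; rfl
theorem evQY : ev2 QYL T.X T.Y = QY T.X T.Y := by simp [QYL, ev2, ev1, QY]; ring
theorem evb2 : ev2 b2L T.X T.Y = -ev2 b1L T.X (-T.Y) := by
  rw [b2L, ev2_smul, ev2_neg]; simp [ev1]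
theorem eva2 : ev2 a2L T.X T.Y = ev2 a1L T.X (-T.Y) := by rw [a2L, ev2_neg]
theorem evN : T.N = ev2 a.N T.X (a.l T) := by
  rw [N, ev2_sub, ev2_mul, ev2_mul, ev_shift, ev_shift, ev_shift, ev_shift, evb2, eva2]
  simp only [Setup.N, Nf]; ring

theorem evA (aL bL : P2) : ev2 (a.A aL bL) T.X (a.l T) =
    ev2 aL T.X T.Y * T.X + ev2 bL T.X T.Y * QY T.X T.Y := by
  rw [A, ev2_add, ev2_smul, ev2_mul, ev_shift, ev_shift, ev_shift, evQY]; simp [ev1]; ring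

theorem evB (aL bL : P2) : ev2 (a.B aL bL) T.X (a.l T) =
    ev2 aL T.X T.Y - ev2 bL T.X T.Y * ev2 a.DQ T.X (a.l T) := by
  rw [B, ev2_sub, ev2_mul, ev_shift, ev_shift]

theorem Dl (D : Derivation ℂ K K) : D (a.l T) = D T.Y - a.s * D T.X := by
  simp [l, Derivation.leibniz]

theorem dX1 : T.w1 T.X * T.G2 = ev2 a.A1 T.X (a.l T) := by rw [A1, evA]; exact T.w1X
theorem dX2 : T.w2 T.X * T.G1 = ev2 a.A2 T.X (a.l T) := by
  rw [A2, evA, evb2, eva2, Setup.G1, T.w2X]; ring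

variable {a T}

theorem dl1 (hf : a.Fits T) : T.w1 (a.l T) * T.G2 = a.l T * ev2 a.B1 T.X (a.l T) := by
  rw [B1, evB, Dl, Setup.G2]
  have := a.hY T
  linear_combination T.w1Y - a.s * T.w1X - ev2 b1L T.X T.Y * hf.dq - ev2 a1L T.X T.Y * this

theorem dl2 (hf : a.Fits T) : T.w2 (a.l T) * T.G1 = a.l T * ev2 a.B2 T.X (a.l T) := by
  rw [B2, evB, Dl, Setup.G1, evb2, eva2]
  have := a.hY T
  linear_combination T.w2Y - a.s * T.w2X + ev2 b1L T.X (-T.Y) * hf.dq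
    - ev2 a1L T.X (-T.Y) * this

theorem ev_head (c : ℤ) (i j : ℕ) : ev1 (a.head c i j) T.X = c * (T.M ^ i * a.π T ^ j) := by
  rw [head, ev1_smul, ev1_mul, ev1_pow, ev1_pow, Mf_eq]; rfl

theorem hd1 (ok : a.Ok) : ev1 (a.G1.headD []) T.X = gam * (T.M ^ a.m1 * a.π T ^ a.e1) := by
  rw [ev1_eq _ _ _ ok.hd1, ev_head]
theorem hd2 (ok : a.Ok) : ev1 (a.G2.headD []) T.X = gam * (T.M ^ a.m2 * a.π T ^ a.e2) := by
  rw [ev1_eq _ _ _ ok.hd2, ev_head]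
theorem hdN (ok : a.Ok) : ev1 (a.N.headD []) T.X =
    cN * (T.M ^ (a.m1 + a.m2) * a.π T ^ (a.e1 + a.e2)) := by
  rw [ev1_eq _ _ _ ok.hdN, ev_head]

theorem l_ne (hf : a.Fits T) : a.l T ≠ 0 := by
  intro h
  have := T.hQ
  rw [hf.q, h, zero_mul] at this
  exact this rfl

theorem jac_l (hf : a.Fits T) : Jac T.v1 T.v2 T.X (a.l T) * (T.G1 * T.G2) =
    -4 * T.Φ1 * T.Φ2 * (a.l T * a.pr T 1 1 1) * T.N := by
  rw [← hf.q, ← T.jac, Jac_lin T.v1 T.v2 (x := T.X) (n := T.Y) (a := -a.s) (b := 1)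
    (fun D => by rw [Dl]; ring), one_mul]

theorem ia_mul : T.ia * T.N = T.G1 * T.G2 := div_mul_cancel₀ _ T.hN

theorem eT1 (hf : a.Fits T) :
    T.Φ1 ^ 10 * T.G1 = a.l T ^ a.e1 * a.pr T a.f1 a.f2 a.f3 * T.M ^ 2 := by
  rw [← hf.t1]; exact T.T1
theorem eT2 (hf : a.Fits T) :
    T.Φ2 ^ 10 * T.G2 = a.l T ^ a.e2 * a.pr T a.h1 a.h2 a.h3 * T.M ^ 2 := by
  rw [← hf.t2]; exact T.T2
theorem eU (hf : a.Fits T) : T.UM * T.M ^ 2 = a.l T ^ a.u0 * a.pr T a.u1 a.u2 a.u3 := by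
  rw [← hf.u]; exact div_mul_cancel₀ _ (pow_ne_zero 2 T.hM)

theorem fin_pack (hf : a.Fits T) {pt : P1} {μ w1 w2 τ : ℕ} (ok : a.FinOk pt μ w1 w2 τ)
    {n h1 h2 p : K} (S : Subring K) (hx : T.X ∈ S) (hn : n ∈ S) (hh1 : h1 ∈ S) (hh2 : h2 ∈ S)
    (hp : ev1 (1 :: pt) T.X = p) (p0 : p ≠ 0) (hl : a.l T = p ^ μ * n)
    (e1 : ev1 (a.G1.headD []) T.X = p ^ w1 * (gam * h1))
    (e2 : ev1 (a.G2.headD []) T.X = p ^ w2 * (gam * h2))
    (e3 : ev1 (a.N.headD []) T.X = p ^ (w1 + w2) * (cN * (h1 * h2))) :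
    ∃ g1 ∈ S, ∃ g2 ∈ S, ∃ ν ∈ S, ∃ r1 ∈ S, ∃ r2 ∈ S, ∃ r3 ∈ S,
      ∃ α1 ∈ S, ∃ κ1 ∈ S, ∃ α2 ∈ S, ∃ κ2 ∈ S,
      g1 = gam * h1 + n * r1 ∧ g2 = gam * h2 + n * r2 ∧ ν = cN * (h1 * h2) + n * r3 ∧
      T.G1 = p ^ w1 * g1 ∧ T.G2 = p ^ w2 * g2 ∧
      T.v1 T.X * g2 = T.Φ1 * (p ^ τ * α1) ∧ T.v1 n * g2 = T.Φ1 * κ1 ∧
      T.v2 T.X * g1 = T.Φ2 * α2 ∧ T.v2 n * g1 = T.Φ2 * κ2 ∧ T.ia * ν = g1 * g2 ∧
      Jac T.v1 T.v2 T.X n * (g1 * g2) = (-4 * n * a.pr T 1 1 1) * T.Φ1 * T.Φ2 * ν := by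
  subst hp
  obtain ⟨r1, hr1, E1⟩ := fin2_head S hx hn pt μ _ _ ok.g1 e1
  obtain ⟨r2, hr2, E2⟩ := fin2_head S hx hn pt μ _ _ ok.g2 e2
  obtain ⟨r3, hr3, E3⟩ := fin2_head S hx hn pt μ _ _ ok.n e3
  rw [← hl, ← evG1] at E1
  rw [← hl, ← evG2] at E2
  rw [← hl, ← evN] at E3
  obtain ⟨α1, hα1, κ1, hκ1, d1, d2⟩ := fin_data S T.w1 hx hn pt μ w2 τ _ _ p0 hl E2 (a.dX1 T)
    (dl1 hf) ok.a1 ok.c1
  obtain ⟨α2, hα2, κ2, hκ2, d3, d4⟩ := fin_data S T.w2 hx hn pt μ w1 0 _ _ p0 hl E1 (a.dX2 T)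
    (dl2 hf) ok.a2 ok.c2
  have dp := fun D : Derivation ℂ K K => der1_sound D T.X (1 :: pt)
  set p := ev1 (1 :: pt) T.X
  refine ⟨_, S.add_mem (S.mul_mem (intCast_mem S _) hh1) (S.mul_mem hn hr1), _,
    S.add_mem (S.mul_mem (intCast_mem S _) hh2) (S.mul_mem hn hr2), _,
    S.add_mem (S.mul_mem (intCast_mem S _) (S.mul_mem hh1 hh2)) (S.mul_mem hn hr3),
    r1, hr1, r2, hr2, r3, hr3, α1, hα1, κ1, hκ1, α2, hα2, κ2, hκ2, rfl, rfl, rfl, E1, E2,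
    ?_, ?_, ?_, ?_, ?_, ?_⟩
  · rw [T.v1_apply, mul_assoc, d1]
  · rw [T.v1_apply, mul_assoc, d2]
  · rw [T.v2_apply, mul_assoc, d3, pow_zero, one_mul]
  · rw [T.v2_apply, mul_assoc, d4]
  · apply mul_left_cancel₀ (pow_ne_zero (w1 + w2) p0)
    have := ia_mul (T := T)
    rw [E1, E2, E3] at this
    linear_combination this
  · have hJ := jac_l hf
    rw [Jac_lin T.v1 T.v2 (x := T.X) (n := n) (l := a.l T)
      (a := n * (μ * (p ^ (μ - 1) * ev1 (der1 (1 :: pt)) T.X))) (b := p ^ μ) (fun D => by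
        rw [hl, Derivation.leibniz, Derivation.leibniz_pow, dp]
        simp only [smul_eq_mul, nsmul_eq_mul]; ring), E1, E2, E3] at hJ
    apply mul_left_cancel₀ (mul_ne_zero (pow_ne_zero μ p0) (pow_ne_zero (w1 + w2) p0))
    linear_combination hJ - 4 * T.Φ1 * T.Φ2 * a.pr T 1 1 1 * p ^ (w1 + w2) *
      (cN * (h1 * h2) + n * r3) * hl

theorem pr_mem (S : Subring K) (hx : T.X ∈ S) (hl : a.l T ∈ S) (i j k : ℕ) : a.pr T i j k ∈ S :=
  S.mul_mem (S.mul_mem (S.pow_mem (S.add_mem hl (S.mul_mem (intCast_mem S _) hx)) _)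
    (S.pow_mem (S.add_mem hl (S.mul_mem (intCast_mem S _) hx)) _))
    (S.pow_mem (S.add_mem hl (S.mul_mem (intCast_mem S _) hx)) _)

theorem pr_unit (ok : a.Ok) {V : ValuationSubring K} (hC : HC V) (hx : V.valuation T.X = 1)
    (hl : V.valuation (a.l T) < 1) (i j k : ℕ) : V.valuation (a.pr T i j k) = 1 :=
  unit_mul (unit_mul (unit_pow (add_unit hl (unit_mul (hC.int ok.c1) hx)) _)
    (unit_pow (add_unit hl (unit_mul (hC.int ok.c2) hx)) _))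
    (unit_pow (add_unit hl (unit_mul (hC.int ok.c3) hx)) _)

variable (a) in
/-- the product of lines in the chart at infinity -/
def prI (z : K) (i j k : ℕ) : K := (z + a.c1) ^ i * (z + a.c2) ^ j * (z + a.c3) ^ k

theorem pr_inf {t : K} (hxt : T.X * t = 1) (i j k : ℕ) :
    t ^ (i + j + k) * a.pr T i j k = a.prI (a.l T * t) i j k := by
  have e : ∀ c : ℤ, a.l T * t + c = t * (a.l T + c * T.X) := fun c => by
    linear_combination (-(c : K)) * hxt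
  simp only [prI, pr, e, mul_pow]; ring

theorem prI_mem (S : Subring K) {z : K} (hz : z ∈ S) (i j k : ℕ) : a.prI z i j k ∈ S :=
  S.mul_mem (S.mul_mem (S.pow_mem (S.add_mem hz (intCast_mem S _)) _)
    (S.pow_mem (S.add_mem hz (intCast_mem S _)) _)) (S.pow_mem (S.add_mem hz (intCast_mem S _)) _)

theorem prI_unit (ok : a.Ok) {V : ValuationSubring K} (hC : HC V) {z : K}
    (hz : V.valuation z < 1) (i j k : ℕ) : V.valuation (a.prI z i j k) = 1 :=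
  unit_mul (unit_mul (unit_pow (add_unit hz (hC.int ok.c1)) _)
    (unit_pow (add_unit hz (hC.int ok.c2)) _)) (unit_pow (add_unit hz (hC.int ok.c3)) _)

end Arm

theorem lead_mem (S : Subring K) {x t : K} (ht : t ∈ S) (hxt : x * t = 1) :
    ∀ (p : P1) (c : ℤ), ∃ r ∈ S,
      t ^ p.length * ev1 (c :: p) x = ((c :: p).getLastD 0 : ℤ) + t * r
  | [], c => ⟨0, S.zero_mem, by simp [ev1]⟩
  | b :: p, c => by
    obtain ⟨r, hr, e⟩ := lead_mem S ht hxt p b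
    refine ⟨r + c * t ^ p.length, S.add_mem hr (S.mul_mem (intCast_mem S _) (S.pow_mem ht _)), ?_⟩
    have : (c :: b :: p).getLastD 0 = (b :: p).getLastD 0 := by simp [List.getLastD]
    rw [this, ev1, List.length_cons]
    linear_combination e + t ^ p.length * ev1 (b :: p) x * hxt

theorem arm1_fits (T : Setup K) : arm1.Fits T where
  hπ := T.hπ1
  t1 := by simp only [Tf, Arm.pr, Arm.l, arm1]; push_cast; ring
  t2 := by simp only [Tf, Arm.pr, Arm.l, arm1]; push_cast; ring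
  u := by simp only [Uf, Arm.pr, Arm.l, arm1]; push_cast; ring
  q := by simp only [Qf, Arm.pr, Arm.l, arm1]; push_cast; ring
  dq := by simp only [QX, QY, Arm.l, arm1, ev2, ev1]; push_cast; ring
  n1 := by decide
  n2 := by decide
  n3 := by decide

theorem arm3_fits (T : Setup K) : arm3.Fits T where
  hπ := T.hπ3
  t1 := by simp only [Tf, Arm.pr, Arm.l, arm3]; push_cast; ring
  t2 := by simp only [Tf, Arm.pr, Arm.l, arm3]; push_cast; ring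
  u := by simp only [Uf, Arm.pr, Arm.l, arm3]; push_cast; ring
  q := by simp only [Qf, Arm.pr, Arm.l, arm3]; push_cast; ring
  dq := by simp only [QX, QY, Arm.l, arm3, ev2, ev1]; push_cast; ring
  n1 := by decide
  n2 := by decide
  n3 := by decide

end Crest.Agent.R278
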