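import Mathlib

/-! Dense integer polynomials in one and two variables, with verified membership checks. -/

set_option autoImplicit false

namespace Crest.Agent.R278

abbrev P1 := List ℤ
abbrev P2 := List (List ℤ)

def add1 : P1 → P1 → P1
  | [], q => q
  | a :: p, [] => a :: p
  | a :: p, b :: q => (a + b) :: add1 p q

def smul1 (c : ℤ) : P1 → P1
  | [] => []
  | a :: p => (c * a) :: smul1 c p

def mul1 : P1 → P1 → P1
  | [], _ => []
  | a :: p, q => add1 (smul1 a q) (0 :: mul1 p q)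

def pow1 (p : P1) : ℕ → P1
  | 0 => [1]
  | n + 1 => mul1 p (pow1 p n)

def isZero1 : P1 → Bool
  | [] => true
  | a :: p => decide (a = 0) && isZero1 p

def eq1 (p q : P1) : Bool := isZero1 (add1 p (smul1 (-1) q))

/-- `m` has constant term one: peel off `n` quotient coefficients, the rest must vanish. -/
def dvd1 (mt : P1) : ℕ → P1 → Bool
  | 0, c => isZero1 c
  | _ + 1, [] => true
  | n + 1, a :: c => dvd1 mt n (add1 c (smul1 (-a) mt))

/-- degree at most `n - 1` -/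
def short1 : ℕ → P1 → Bool
  | 0, c => isZero1 c
  | _ + 1, [] => true
  | n + 1, _ :: c => short1 n c

def add2 : P2 → P2 → P2
  | [], q => q
  | a :: p, [] => a :: p
  | a :: p, b :: q => add1 a b :: add2 p q

def smul2 (c : P1) : P2 → P2
  | [] => []
  | a :: p => mul1 c a :: smul2 c p

def mul2 : P2 → P2 → P2
  | [], _ => []
  | a :: p, q => add2 (smul2 a q) ([] :: mul2 p q)

def sub2 (p q : P2) : P2 := add2 p (smul2 [-1] q)

/-- substitute `y = s x + l` -/
def shift2 (s : ℤ) : P2 → P2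
  | [] => []
  | c :: p => add2 [c] (mul2 [[0, s], [1]] (shift2 s p))

/-- substitute `y = -y` -/
def neg2 : P2 → P2
  | [] => []
  | c :: p => c :: smul2 [-1] (neg2 p)

/-- the `i`-th coefficient is divisible by `π ^ (w - μ i)`, where `π = 1 + x * πt` -/
def fin2 (pt : P1) (μ : ℕ) : P2 → ℕ → Bool
  | [], _ => true
  | _ :: _, 0 => true
  | c :: p, w + 1 => dvd1 (pow1 (1 :: pt) (w + 1)).tail (c.length - pt.length * (w + 1)) c
      && decide ((pow1 (1 :: pt) (w + 1)).head? = some 1) && fin2 pt μ p (w + 1 - μ)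

/-- the `i`-th coefficient has degree at most `w + μ i` -/
def inf2 (μ : ℕ) : P2 → ℕ → Bool
  | [], _ => true
  | c :: p, w => short1 (w + 1) c && inf2 μ p (w + μ)

section
variable {K : Type} [CommRing K]

def ev1 : P1 → K → K
  | [], _ => 0
  | a :: p, x => (a : K) + x * ev1 p x

def ev2 : P2 → K → K → K
  | [], _, _ => 0
  | c :: p, x, y => ev1 c x + y * ev2 p x y

theorem ev1_add (x : K) : ∀ p q : P1, ev1 (add1 p q) x = ev1 p x + ev1 q x
  | [], q => by simp [add1, ev1]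
  | a :: p, [] => by simp [add1, ev1]
  | a :: p, b :: q => by simp only [add1, ev1, ev1_add x p q]; push_cast; ring

theorem ev1_smul (c : ℤ) (x : K) : ∀ p : P1, ev1 (smul1 c p) x = c * ev1 p x
  | [] => by simp [smul1, ev1]
  | a :: p => by simp only [smul1, ev1, ev1_smul c x p]; push_cast; ring

theorem ev1_mul (x : K) (q : P1) : ∀ p : P1, ev1 (mul1 p q) x = ev1 p x * ev1 q x
  | [] => by simp [mul1, ev1]
  | a :: p => by simp only [mul1, ev1, ev1_add, ev1_smul, ev1_mul x q p]; push_cast; ring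

theorem ev1_pow (x : K) (p : P1) : ∀ n : ℕ, ev1 (pow1 p n) x = ev1 p x ^ n
  | 0 => by simp [pow1, ev1]
  | n + 1 => by rw [pow1, ev1_mul, ev1_pow x p n]; ring

theorem ev1_isZero (x : K) : ∀ p : P1, isZero1 p = true → ev1 p x = 0
  | [], _ => rfl
  | a :: p, h => by
    simp only [isZero1, Bool.and_eq_true, decide_eq_true_eq] at h
    simp [ev1, h.1, ev1_isZero x p h.2]

theorem ev1_eq (x : K) (p q : P1) (h : eq1 p q = true) : ev1 p x = ev1 q x := by
  have := ev1_isZero x _ h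
  rw [ev1_add, ev1_smul] at this
  push_cast at this
  linear_combination this

theorem ev1_mem (S : Subring K) {x : K} (hx : x ∈ S) : ∀ p : P1, ev1 p x ∈ S
  | [] => S.zero_mem
  | a :: p => S.add_mem (intCast_mem S a) (S.mul_mem hx (ev1_mem S hx p))

theorem ev2_mem (S : Subring K) {x y : K} (hx : x ∈ S) (hy : y ∈ S) : ∀ p : P2, ev2 p x y ∈ S
  | [] => S.zero_mem
  | c :: p => S.add_mem (ev1_mem S hx c) (S.mul_mem hy (ev2_mem S hx hy p))

theorem dvd1_sound (S : Subring K) {x : K} (hx : x ∈ S) (mt : P1) :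
    ∀ (n : ℕ) (c : P1), dvd1 mt n c = true → ∃ q ∈ S, ev1 c x = (1 + x * ev1 mt x) * q
  | 0, c, h => ⟨0, S.zero_mem, by rw [ev1_isZero x c h]; simp⟩
  | _ + 1, [], _ => ⟨0, S.zero_mem, by simp [ev1]⟩
  | n + 1, a :: c, h => by
    obtain ⟨q, hq, e⟩ := dvd1_sound S hx mt n _ h
    rw [ev1_add, ev1_smul] at e
    refine ⟨a + x * q, S.add_mem (intCast_mem S a) (S.mul_mem hx hq), ?_⟩
    push_cast at e
    simp only [ev1]
    linear_combination x * e

theorem short1_sound (S : Subring K) {x t : K} (ht : t ∈ S) (hxt : x * t = 1) :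
    ∀ (n : ℕ) (c : P1), short1 (n + 1) c = true → t ^ n * ev1 c x ∈ S
  | _, [], _ => by simp [ev1]
  | 0, a :: c, h => by
    have : ev1 c x = 0 := ev1_isZero x c h
    simp [ev1, this]
  | n + 1, a :: c, h => by
    have := short1_sound S ht hxt n c h
    have e : t ^ (n + 1) * ev1 (a :: c) x = t ^ (n + 1) * a + t ^ n * ev1 c x := by
      simp only [ev1]; linear_combination (t ^ n * ev1 c x) * hxt
    rw [e]
    exact S.add_mem (S.mul_mem (S.pow_mem ht _) (intCast_mem S a)) this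

theorem ev2_add (x y : K) : ∀ p q : P2, ev2 (add2 p q) x y = ev2 p x y + ev2 q x y
  | [], q => by simp [add2, ev2]
  | a :: p, [] => by simp [add2, ev2]
  | a :: p, b :: q => by simp only [add2, ev2, ev2_add x y p q, ev1_add]; ring

theorem ev2_smul (c : P1) (x y : K) : ∀ p : P2, ev2 (smul2 c p) x y = ev1 c x * ev2 p x y
  | [] => by simp [smul2, ev2]
  | a :: p => by simp only [smul2, ev2, ev2_smul c x y p, ev1_mul]; ring

theorem ev2_mul (x y : K) (q : P2) : ∀ p : P2, ev2 (mul2 p q) x y = ev2 p x y * ev2 q x y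
  | [] => by simp [mul2, ev2]
  | a :: p => by simp only [mul2, ev2, ev1, ev2_add, ev2_smul, ev2_mul x y q p]; ring

theorem ev2_sub (x y : K) (p q : P2) : ev2 (sub2 p q) x y = ev2 p x y - ev2 q x y := by
  rw [sub2, ev2_add, ev2_smul]; simp [ev1]; ring

theorem ev2_shift (s : ℤ) (x l : K) : ∀ p : P2, ev2 (shift2 s p) x l = ev2 p x (s * x + l)
  | [] => by simp [shift2, ev2]
  | c :: p => by
    simp only [shift2, ev2_add, ev2_mul, ev2_shift s x l p, ev2, ev1]; push_cast; ring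

theorem ev2_neg (x y : K) : ∀ p : P2, ev2 (neg2 p) x y = ev2 p x (-y)
  | [] => by simp [neg2, ev2]
  | c :: p => by simp only [neg2, ev2, ev2_smul, ev2_neg x y p, ev1]; push_cast; ring

theorem map_ev1 {L : Type} [CommRing L] (f : K →+* L) (x : K) :
    ∀ p : P1, f (ev1 p x) = ev1 p (f x)
  | [] => by simp [ev1]
  | a :: p => by simp [ev1, map_ev1 f x p]

theorem map_ev2 {L : Type} [CommRing L] (f : K →+* L) (x y : K) :
    ∀ p : P2, f (ev2 p x y) = ev2 p (f x) (f y)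
  | [] => by simp [ev2]
  | a :: p => by simp [ev2, map_ev1, map_ev2 f x y p]

theorem dvd_pow_sound (S : Subring K) {x : K} (hx : x ∈ S) (pt c : P1) (e n : ℕ)
    (h1 : dvd1 (pow1 (1 :: pt) e).tail n c = true) (h2 : (pow1 (1 :: pt) e).head? = some 1) :
    ∃ q ∈ S, ev1 c x = ev1 (1 :: pt) x ^ e * q := by
  obtain ⟨q, hq, e1⟩ := dvd1_sound S hx _ _ _ h1
  refine ⟨q, hq, ?_⟩
  rw [e1, ← ev1_pow]
  rcases hp : pow1 (1 :: pt) e with _ | ⟨a, r⟩
  · rw [hp] at h2; simp at h2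
  · rw [hp] at h2; simp at h2; subst h2; simp [ev1]

/-- chart `l = π ^ μ n` -/
theorem fin2_sound (S : Subring K) {x n : K} (hx : x ∈ S) (hn : n ∈ S) (pt : P1) (μ : ℕ) :
    ∀ (p : P2) (w : ℕ), fin2 pt μ p w = true →
      ∃ q ∈ S, ev2 p x (ev1 (1 :: pt) x ^ μ * n) = ev1 (1 :: pt) x ^ w * q
  | [], _, _ => ⟨0, S.zero_mem, by simp [ev2]⟩
  | c :: p, 0, _ => ⟨ev2 (c :: p) x (ev1 (1 :: pt) x ^ μ * n),
      ev2_mem S hx (S.mul_mem (S.pow_mem (ev1_mem S hx _) _) hn) (c :: p), by simp⟩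
  | c :: p, w + 1, h => by
    simp only [fin2, Bool.and_eq_true, decide_eq_true_eq] at h
    obtain ⟨q, hq, e⟩ := dvd_pow_sound S hx pt c _ _ h.1.1 h.1.2
    obtain ⟨r, hr, e2⟩ := fin2_sound S hx hn pt μ p _ h.2
    have hπ := ev1_mem S hx (1 :: pt)
    refine ⟨q + ev1 (1 :: pt) x ^ (μ + (w + 1 - μ) - (w + 1)) * n * r,
      S.add_mem hq (S.mul_mem (S.mul_mem (S.pow_mem hπ _) hn) hr), ?_⟩
    rw [ev2, e, e2]
    have : μ + (w + 1 - μ) = (w + 1) + (μ + (w + 1 - μ) - (w + 1)) := by omega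
    have e3 : ev1 (1 :: pt) x ^ μ * ev1 (1 :: pt) x ^ (w + 1 - μ) =
        ev1 (1 :: pt) x ^ (w + 1) * ev1 (1 :: pt) x ^ (μ + (w + 1 - μ) - (w + 1)) := by
      rw [← pow_add, ← pow_add, ← this]
    linear_combination (n * r) * e3

/-- chart `π = l n'` (for `μ = 1`) -/
theorem fin2_sound' (S : Subring K) {x l n : K} (hx : x ∈ S) (hl : l ∈ S) (hn : n ∈ S) (pt : P1)
    (hπ : ev1 (1 :: pt) x = l * n) :
    ∀ (p : P2) (w : ℕ), fin2 pt 1 p w = true → ∃ q ∈ S, ev2 p x l = l ^ w * q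
  | [], _, _ => ⟨0, S.zero_mem, by simp [ev2]⟩
  | c :: p, 0, _ => ⟨_, ev2_mem S hx hl (c :: p), by simp⟩
  | c :: p, w + 1, h => by
    simp only [fin2, Bool.and_eq_true, decide_eq_true_eq] at h
    obtain ⟨q, hq, e⟩ := dvd_pow_sound S hx pt c _ _ h.1.1 h.1.2
    obtain ⟨r, hr, e2⟩ := fin2_sound' S hx hl hn pt hπ p _ h.2
    refine ⟨n ^ (w + 1) * q + r, S.add_mem (S.mul_mem (S.pow_mem hn _) hq) hr, ?_⟩
    rw [ev2, e, e2, hπ]
    simp only [Nat.add_sub_cancel]
    ring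

/-- chart at infinity: `x t = 1`, `l = n t ^ μ` -/
theorem inf2_sound (S : Subring K) {x t n : K} (ht : t ∈ S) (hn : n ∈ S) (hxt : x * t = 1)
    (μ : ℕ) : ∀ (p : P2) (w : ℕ), inf2 μ p w = true → t ^ w * ev2 p x (n * t ^ μ) ∈ S
  | [], _, _ => by simp [ev2]
  | c :: p, w, h => by
    simp only [inf2, Bool.and_eq_true] at h
    have h1 := short1_sound S ht hxt w c h.1
    have h2 := inf2_sound S ht hn hxt μ p _ h.2
    have e : t ^ w * ev2 (c :: p) x (n * t ^ μ) =
        t ^ w * ev1 c x + n * (t ^ (w + μ) * ev2 p x (n * t ^ μ)) := by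
      simp only [ev2]; ring
    rw [e]
    exact S.add_mem h1 (S.mul_mem hn h2)

end

end Crest.Agent.R278
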