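import Crest.Agent.R278.Chart
import Crest.Agent.R278.Data

/-! The explicit surface: function field data, symmetry, abstract chart conclusions. -/

set_option autoImplicit false
set_option linter.unusedSectionVars false

namespace Crest.Agent.R278

def gam : ℤ := 3084011171059
def cN : ℤ := 168354258815724398633386909655139132

section
variable {K : Type} [CommRing K]
def QX (x y : K) : K := -1514 * x * y ^ 2 + 219024 * x ^ 3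
def QY (x y : K) : K := 4 * y ^ 3 - 1514 * x ^ 2 * y
def Qf (x y : K) : K := (y - 9 * x) * (y + 9 * x) * (y - 26 * x) * (y + 26 * x)
def Uf (x y : K) : K := (y - 9 * x) ^ 2 * (y + 9 * x) ^ 2 * (y - 26 * x) * (y + 26 * x)
def Tf (x y : K) : K := (y - 9 * x) ^ 4 * (y + 9 * x) ^ 3 * (y - 26 * x) ^ 2 * (y + 26 * x)
def Mf (x : K) : K := 1 - 90 * x
def Nf (x y : K) : K := -(ev2 a1L x y * ev2 b1L x (-y)) - ev2 a1L x (-y) * ev2 b1L x y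
def pt1 : P1 := [2700, 2981610]
def pt3 : P1 := [6420, 18629640, 46572769200, 94826574372600]

theorem Mf_eq (x : K) : ev1 (1 :: [-90]) x = Mf x := by simp [ev1, Mf]; ring
end

structure Setup (K : Type) [Field K] [Algebra ℂ K] where
  X : K
  Y : K
  Φ1 : K
  Φ2 : K
  w1 : Derivation ℂ K K
  w2 : Derivation ℂ K K
  hX : X ≠ 0
  hQ : Qf X Y ≠ 0
  hM : Mf X ≠ 0
  hπ1 : ev1 (1 :: pt1) X ≠ 0
  hπ3 : ev1 (1 :: pt3) X ≠ 0
  hg1 : ev2 g1L X Y ≠ 0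
  hg2 : ev2 g1L X (-Y) ≠ 0
  hN : Nf X Y ≠ 0
  T1 : Φ1 ^ 10 * ev2 g1L X Y = Tf X Y * Mf X ^ 2
  T2 : Φ2 ^ 10 * ev2 g1L X (-Y) = Tf X (-Y) * Mf X ^ 2
  w1X : w1 X * ev2 g1L X (-Y) = ev2 a1L X Y * X + ev2 b1L X Y * QY X Y
  w1Y : w1 Y * ev2 g1L X (-Y) = ev2 a1L X Y * Y - ev2 b1L X Y * QX X Y
  w2X : w2 X * ev2 g1L X Y = ev2 a1L X (-Y) * X - ev2 b1L X (-Y) * QY X Y
  w2Y : w2 Y * ev2 g1L X Y = ev2 a1L X (-Y) * Y + ev2 b1L X (-Y) * QX X Y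

variable {K : Type} [Field K] [Algebra ℂ K]

namespace Setup
variable (T : Setup K)

def G1 : K := ev2 g1L T.X T.Y
def G2 : K := ev2 g1L T.X (-T.Y)
def N : K := Nf T.X T.Y
def M : K := Mf T.X
noncomputable def v1 : Derivation ℂ K K := T.Φ1 • T.w1
noncomputable def v2 : Derivation ℂ K K := T.Φ2 • T.w2
def UM : K := Uf T.X T.Y / Mf T.X ^ 2
def ia : K := T.G1 * T.G2 / T.N

theorem v1_apply (z : K) : T.v1 z = T.Φ1 * T.w1 z := rfl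
theorem v2_apply (z : K) : T.v2 z = T.Φ2 * T.w2 z := rfl

def swap : Setup K where
  X := T.X
  Y := -T.Y
  Φ1 := T.Φ2
  Φ2 := T.Φ1
  w1 := T.w2
  w2 := T.w1
  hX := T.hX
  hQ := by
    have : Qf T.X (-T.Y) = Qf T.X T.Y := by simp only [Qf]; ring
    rw [this]; exact T.hQ
  hM := T.hM
  hπ1 := T.hπ1
  hπ3 := T.hπ3
  hg1 := T.hg2
  hg2 := by rw [neg_neg]; exact T.hg1
  hN := by
    have : Nf T.X (-T.Y) = Nf T.X T.Y := by simp only [Nf, neg_neg]; ring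
    rw [this]; exact T.hN
  T1 := T.T2
  T2 := by rw [neg_neg]; exact T.T1
  w1X := by rw [neg_neg, T.w2X]; simp only [QY]; ring
  w1Y := by
    have := T.w2Y
    rw [neg_neg, map_neg]; simp only [QX] at this ⊢; linear_combination -this
  w2X := by rw [neg_neg, T.w1X]; simp only [QY]; ring
  w2Y := by
    have := T.w1Y
    rw [neg_neg, map_neg]; simp only [QX] at this ⊢; linear_combination -this

/-- `R` contains the six generators -/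
structure Gen (R : Subalgebra ℂ K) : Prop where
  p1 : T.Φ1 ∈ R
  p2 : T.Φ2 ∈ R
  um : T.UM ∈ R
  ia : T.ia ∈ R
  xp : T.X * T.Φ1 * T.Φ2 ∈ R
  yp : T.Y * T.Φ1 * T.Φ2 ∈ R

theorem swap_UM : T.swap.UM = T.UM := by
  have : Uf T.X (-T.Y) = Uf T.X T.Y := by simp only [Uf]; ring
  simp only [UM, swap, this]

theorem swap_ia : T.swap.ia = T.ia := by
  have : Nf T.X (-T.Y) = Nf T.X T.Y := by simp only [Nf, neg_neg]; ring
  simp only [ia, swap, G1, G2, N, this, neg_neg, mul_comm]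

theorem gen_swap {R : Subalgebra ℂ K} (h : T.Gen R) : T.swap.Gen R where
  p1 := h.p2
  p2 := h.p1
  um := T.swap_UM ▸ h.um
  ia := T.swap_ia ▸ h.ia
  xp := by
    have := h.xp
    rw [mul_right_comm] at this; exact this
  yp := by
    have := R.neg_mem h.yp
    rw [mul_right_comm, ← neg_mul, ← neg_mul] at this; exact this

theorem gen_of_swap {R : Subalgebra ℂ K} (h : T.swap.Gen R) : T.Gen R where
  p1 := h.p2
  p2 := h.p1
  um := T.swap_UM ▸ h.um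
  ia := T.swap_ia ▸ h.ia
  xp := by
    have := h.xp
    rw [mul_right_comm] at this; exact this
  yp := by
    have := R.neg_mem h.yp
    rw [mul_right_comm, ← neg_mul, ← neg_mul] at this
    simpa [swap] using this

def GoodT (V : ValuationSubring K) : Prop :=
  ∃ R : Subalgebra ℂ K, (∀ x ∈ R, x ∈ V) ∧ T.Gen R ∧ Stable T.v1 R ∧ Stable T.v2 R ∧
    ∃ u ∈ R, ∃ w ∈ R, V.valuation (Jac T.v1 T.v2 u w) = 1

def Res {V : ValuationSubring K} (hC : HC V) : Prop := T.GoodT V ∨ T.Gen (Cst hC)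

theorem res_of_swap {V : ValuationSubring K} (hC : HC V) (h : T.swap.Res hC) : T.Res hC := by
  rcases h with ⟨R, h1, h2, h3, h4, u, hu, w, hw, h5⟩ | h
  · refine Or.inl ⟨R, h1, T.gen_of_swap h2, h4, h3, w, hw, u, hu, ?_⟩
    have : Jac T.v1 T.v2 w u = Jac T.swap.v1 T.swap.v2 u w := by
      simp only [Jac, v1, v2, swap]; ring
    rw [this]; exact h5
  · exact Or.inr (T.gen_of_swap h)

theorem jac : Jac T.v1 T.v2 T.X T.Y * (T.G1 * T.G2) = -4 * T.Φ1 * T.Φ2 * Qf T.X T.Y * T.N := by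
  have h1 := T.w1X
  have h2 := T.w1Y
  have h3 := T.w2X
  have h4 := T.w2Y
  simp only [Jac, v1_apply, v2_apply, G1, G2, N, Nf, Qf]
  simp only [QX, QY] at h1 h2 h3 h4
  have e : T.Φ1 * T.w1 T.X * (T.Φ2 * T.w2 T.Y) * (ev2 g1L T.X T.Y * ev2 g1L T.X (-T.Y)) =
      T.Φ1 * T.Φ2 * ((T.w1 T.X * ev2 g1L T.X (-T.Y)) * (T.w2 T.Y * ev2 g1L T.X T.Y)) := by ring
  have e' : T.Φ2 * T.w2 T.X * (T.Φ1 * T.w1 T.Y) * (ev2 g1L T.X T.Y * ev2 g1L T.X (-T.Y)) =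
      T.Φ1 * T.Φ2 * ((T.w2 T.X * ev2 g1L T.X T.Y) * (T.w1 T.Y * ev2 g1L T.X (-T.Y))) := by ring
  rw [sub_mul, e, e', h1, h2, h3, h4]
  ring

variable {V : ValuationSubring K} (hC : HC V)
include hC

theorem nu_unit {g1 g2 ν : K} (hia : T.ia ∈ V) (e : T.ia * ν = g1 * g2) (hν : ν ∈ V)
    (u1 : V.valuation g1 = 1) (u2 : V.valuation g2 = 1) : V.valuation ν = 1 :=
  (unit_of_mul hia hν (e ▸ unit_mul u1 u2)).2

theorem chart_good {x n φ1 g1 g2 ν ρ1 ρ2 α1 α2 κ1 κ2 y z1 z2 σ : K} (hG : T.Gen (VA hC))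
    (hx : x ∈ V) (hn : n ∈ V) (h1 : φ1 ∈ V)
    (mg1 : g1 ∈ Cl V {x, n}) (mg2 : g2 ∈ Cl V {x, n}) (mν : ν ∈ Cl V {x, n})
    (mρ1 : ρ1 ∈ Cl V {x, n})
    (mρ2 : ρ2 ∈ Cl V {x, n}) (mα1 : α1 ∈ Cl V {x, n}) (mα2 : α2 ∈ Cl V {x, n})
    (mκ1 : κ1 ∈ Cl V {x, n}) (mκ2 : κ2 ∈ Cl V {x, n}) (my : y ∈ Cl V {x, n})
    (mz1 : z1 ∈ Cl V {x, n}) (mz2 : z2 ∈ Cl V {x, n}) (mu : T.UM ∈ Cl V {x, n})
    (e1 : φ1 ^ 10 * g1 = ρ1) (e2 : T.Φ2 ^ 10 * g2 = ρ2)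
    (u1 : V.valuation ρ1 = 1) (u2 : V.valuation ρ2 = 1)
    (d1 : T.v1 x * g2 = φ1 * α1) (d2 : T.v1 n * g2 = φ1 * κ1)
    (d3 : T.v2 x * g1 = T.Φ2 * α2) (d4 : T.v2 n * g1 = T.Φ2 * κ2)
    (ey : T.Φ1 = y * φ1) (ez1 : T.X * T.Φ1 = z1 * φ1) (ez2 : T.Y * T.Φ1 = z2 * φ1)
    (eia : T.ia * ν = g1 * g2)
    (eJ : Jac T.v1 T.v2 x n * (g1 * g2) = σ * φ1 * T.Φ2 * ν) (uσ : V.valuation σ = 1) :
    T.Res hC := by
  obtain ⟨s1, s2, a1, a2, b1, b2⟩ := chart_stable hC T.v1 T.v2 hx hn h1 hG.p2 mg1 mg2 mρ1 mρ2 mα1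
    mα2 mκ1 mκ2 e1 e2 u1 u2 d1 d2 d3 d4
  have sV : ∀ z ∈ Cl V {x, n}, z ∈ V := Cl_sub hC (by rintro z (rfl | rfl) <;> assumption)
  have uν := T.nu_unit hC hG.ia eia (sV _ mν) a1 a2
  set R := Cl V {x, n, φ1, T.Φ2} with hR
  have iR : InvCl V R := invCl_Cl _ _
  have xR : x ∈ R := subset_Cl _ _ (by simp)
  have nR : n ∈ R := subset_Cl _ _ (by simp)
  have p1 : φ1 ∈ R := subset_Cl _ _ (by simp)
  have p2 : T.Φ2 ∈ R := subset_Cl _ _ (by simp)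
  have le : Cl V {x, n} ≤ R := Cl_le (by rintro z (rfl | rfl) <;> assumption) iR
  refine Or.inl ⟨R, Cl_sub hC ?_, ⟨?_, p2, le mu, ?_, ?_, ?_⟩, s1, s2, x, xR, n, nR, ?_⟩
  · rintro z (rfl | rfl | rfl | rfl)
    exacts [hx, hn, h1, hG.p2]
  · rw [ey]; exact R.mul_mem (le my) p1
  · exact iR.of_mul eia (le mν) uν (R.mul_mem (le mg1) (le mg2))
  · rw [ez1]; exact R.mul_mem (R.mul_mem (le mz1) p1) p2
  · rw [ez2]; exact R.mul_mem (R.mul_mem (le mz2) p1) p2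
  · exact unit_of_mul_unit eJ (unit_mul a1 a2) (unit_mul (unit_mul (unit_mul uσ b1) b2) uν)

theorem chart_bad {φ1 g1 g2 ν h1 h2 m1 m2 m3 y z1 z2 : K}
    (uh1 : V.valuation h1 = 1) (uh2 : V.valuation h2 = 1) (l1 : V.valuation m1 < 1)
    (l2 : V.valuation m2 < 1) (l3 : V.valuation m3 < 1)
    (eg1 : g1 = gam * h1 + m1) (eg2 : g2 = gam * h2 + m2) (eν : ν = cN * (h1 * h2) + m3)
    (e1 : V.valuation (φ1 ^ 10 * g1) < 1) (e2 : V.valuation (T.Φ2 ^ 10 * g2) < 1)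
    (hu : V.valuation T.UM < 1) (hy : y ∈ V) (hz1 : z1 ∈ V) (hz2 : z2 ∈ V)
    (ey : T.Φ1 = y * φ1) (ez1 : T.X * T.Φ1 = z1 * φ1) (ez2 : T.Y * T.Φ1 = z2 * φ1)
    (eia : T.ia * ν = g1 * g2) : T.Gen (Cst hC) := by
  have γ0 : gam ≠ 0 := by decide
  have c0 : cN ≠ 0 := by decide
  have ug1 : V.valuation g1 = 1 := eg1 ▸ unit_add (unit_mul (hC.int γ0) uh1) l1
  have ug2 : V.valuation g2 = 1 := eg2 ▸ unit_add (unit_mul (hC.int γ0) uh2) l2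
  have uν : V.valuation ν = 1 := eν ▸ unit_add (unit_mul (hC.int c0) (unit_mul uh1 uh2)) l3
  have a1 : V.valuation φ1 < 1 := lt_of_pow (lt_of_mul_unit rfl ug1 e1)
  have a2 : V.valuation T.Φ2 < 1 := lt_of_pow (lt_of_mul_unit rfl ug2 e2)
  refine ⟨Cst_of_lt hC (ey ▸ mul_lt hy a1), Cst_of_lt hC a2, Cst_of_lt hC hu, ?_,
    Cst_of_lt hC ?_, Cst_of_lt hC ?_⟩
  · have : T.ia = g1 * g2 / ν := by rw [← eia, mul_div_cancel_right₀ _ (ne_of_unit uν)]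
    rw [this, eg1, eg2, eν]
    exact Cst_of_heads hC γ0 c0 uh1 uh2 l1 l2 l3
  · rw [ez1]; exact mul_lt (V.mul_mem _ _ hz1 (mem_of_lt a1)) a2
  · rw [ez2]; exact mul_lt (V.mul_mem _ _ hz2 (mem_of_lt a1)) a2

end Setup

end Crest.Agent.R278
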