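import Crest.Agent.R278.Defs
import Crest.Agent.R278.Poly

/-! Valuation toolkit for the chart analysis. -/

set_option autoImplicit false
set_option linter.unusedSectionVars false

namespace Crest.Agent.R278

variable {K : Type} [Field K] [Algebra ℂ K]

/-- the constants lie in `V` -/
def HC (V : ValuationSubring K) : Prop := ∀ c : ℂ, algebraMap ℂ K c ∈ V

section basic
variable {V : ValuationSubring K}

theorem vle {x : K} (h : x ∈ V) : V.valuation x ≤ 1 := (V.valuation_le_one_iff x).2 h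
theorem vmem {x : K} (h : V.valuation x ≤ 1) : x ∈ V := (V.valuation_le_one_iff x).1 h
theorem mem_of_lt {x : K} (h : V.valuation x < 1) : x ∈ V := vmem h.le
theorem mem_of_unit {x : K} (h : V.valuation x = 1) : x ∈ V := vmem h.le

theorem ne_of_unit {x : K} (h : V.valuation x = 1) : x ≠ 0 := by
  rintro rfl; simp at h

theorem unit_or_lt {x : K} (h : x ∈ V) : V.valuation x = 1 ∨ V.valuation x < 1 :=
  (vle h).eq_or_lt

theorem lt_mul {x y : K} (hx : V.valuation x < 1) (hy : y ∈ V) : V.valuation (x * y) < 1 := by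
  rw [map_mul]
  exact lt_of_le_of_lt (mul_le_of_le_one_right' (vle hy)) hx

theorem mul_lt {x y : K} (hx : x ∈ V) (hy : V.valuation y < 1) : V.valuation (x * y) < 1 := by
  rw [mul_comm]; exact lt_mul hy hx

theorem lt_add {x y : K} (hx : V.valuation x < 1) (hy : V.valuation y < 1) :
    V.valuation (x + y) < 1 := Valuation.map_add_lt _ hx hy

theorem lt_sub {x y : K} (hx : V.valuation x < 1) (hy : V.valuation y < 1) :
    V.valuation (x - y) < 1 := Valuation.map_sub_lt _ hx hy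

theorem lt_pow {x : K} (hx : V.valuation x < 1) {n : ℕ} (hn : n ≠ 0) :
    V.valuation (x ^ n) < 1 := by
  rw [map_pow]; exact pow_lt_one₀ zero_le hx hn

theorem unit_add {x y : K} (hx : V.valuation x = 1) (hy : V.valuation y < 1) :
    V.valuation (x + y) = 1 := by
  rw [Valuation.map_add_eq_of_lt_left _ (hx ▸ hy), hx]

theorem add_unit {x y : K} (hx : V.valuation x < 1) (hy : V.valuation y = 1) :
    V.valuation (x + y) = 1 := by rw [add_comm]; exact unit_add hy hx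

theorem unit_mul {x y : K} (hx : V.valuation x = 1) (hy : V.valuation y = 1) :
    V.valuation (x * y) = 1 := by rw [map_mul, hx, hy, one_mul]

theorem unit_pow {x : K} (hx : V.valuation x = 1) (n : ℕ) : V.valuation (x ^ n) = 1 := by
  rw [map_pow, hx, one_pow]

theorem unit_inv {x : K} (hx : V.valuation x = 1) : V.valuation x⁻¹ = 1 := by
  rw [map_inv₀, hx, inv_one]

theorem unit_div {x y : K} (hx : V.valuation x = 1) (hy : V.valuation y = 1) :
    V.valuation (x / y) = 1 := by rw [map_div₀, hx, hy, div_one]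

theorem unit_of_mul {x y : K} (hx : x ∈ V) (hy : y ∈ V) (h : V.valuation (x * y) = 1) :
    V.valuation x = 1 ∧ V.valuation y = 1 := by
  constructor
  · rcases unit_or_lt hx with h1 | h1
    · exact h1
    · exact absurd h (lt_mul h1 hy).ne
  · rcases unit_or_lt hy with h1 | h1
    · exact h1
    · exact absurd h (mul_lt hx h1).ne

theorem unit_of_pow {x : K} {n : ℕ} (hn : n ≠ 0) (h : V.valuation (x ^ n) = 1) :
    V.valuation x = 1 := by
  rw [map_pow] at h
  exact (pow_eq_one_iff_of_nonneg zero_le hn).1 h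

theorem mem_of_pow {x : K} {n : ℕ} (hn : n ≠ 0) (h : x ^ n ∈ V) : x ∈ V := by
  have := vle h
  rw [map_pow] at this
  exact vmem ((pow_le_one_iff_of_nonneg zero_le hn).1 this)

theorem lt_of_pow {x : K} {n : ℕ} (h : V.valuation (x ^ n) < 1) : V.valuation x < 1 := by
  rw [map_pow] at h
  by_contra hc
  exact absurd h (not_lt.2 (one_le_pow₀ (not_lt.1 hc)))

/-- `x u = y`, `u` a unit -/
theorem mem_of_mul_unit {x u y : K} (h : x * u = y) (hu : V.valuation u = 1) (hy : y ∈ V) :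
    x ∈ V := by
  have := vle hy
  rw [← h, map_mul, hu, mul_one] at this
  exact vmem this

theorem lt_of_mul_unit {x u y : K} (h : x * u = y) (hu : V.valuation u = 1)
    (hy : V.valuation y < 1) : V.valuation x < 1 := by
  rwa [← h, map_mul, hu, mul_one] at hy

theorem unit_of_mul_unit {x u y : K} (h : x * u = y) (hu : V.valuation u = 1)
    (hy : V.valuation y = 1) : V.valuation x = 1 := by
  rwa [← h, map_mul, hu, mul_one] at hy

theorem lt_or_lt {x y : K} (hx : x ∈ V) (hy : y ∈ V) (h : V.valuation (x * y) < 1) :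
    V.valuation x < 1 ∨ V.valuation y < 1 := by
  rcases unit_or_lt hx with h1 | h1
  · rcases unit_or_lt hy with h2 | h2
    · exact absurd (unit_mul h1 h2) h.ne
    · exact Or.inr h2
  · exact Or.inl h1

theorem HC.unit (hC : HC V) {c : ℂ} (hc : c ≠ 0) : V.valuation (algebraMap ℂ K c) = 1 := by
  refine (unit_of_mul (hC c) (hC c⁻¹) ?_).1
  rw [← map_mul, mul_inv_cancel₀ hc, map_one, map_one]

theorem HC.int (hC : HC V) {c : ℤ} (hc : c ≠ 0) : V.valuation (c : K) = 1 := by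
  have := hC.unit (c := (c : ℂ)) (by exact_mod_cast hc)
  rwa [map_intCast] at this

theorem HC.nat (hC : HC V) (c : ℕ) (hc : c ≠ 0) : V.valuation (c : K) = 1 := by
  have := hC.unit (c := (c : ℂ)) (by exact_mod_cast hc)
  rwa [map_natCast] at this

theorem HC.ofNat (hC : HC V) (c : ℕ) [c.AtLeastTwo] : V.valuation (ofNat(c) : K) = 1 :=
  hC.nat c (by have := Nat.AtLeastTwo.prop (n := c); omega)

/-- if `1 + x q` is in the maximal ideal then `x` is a unit -/
theorem unit_of_one_add {x q : K} (hx : x ∈ V) (hq : q ∈ V) (h : V.valuation (1 + x * q) < 1) :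
    V.valuation x = 1 := by
  rcases unit_or_lt hx with h1 | h1
  · exact h1
  · exact absurd (unit_add (map_one _) (lt_mul h1 hq)) h.ne

theorem ev1_congr {a b : K} (ha : a ∈ V) (hb : b ∈ V) (h : V.valuation (a - b) < 1) :
    ∀ p : P1, V.valuation (ev1 p a - ev1 p b) < 1
  | [] => by simp [ev1]
  | c :: p => by
    have e : ev1 (c :: p) a - ev1 (c :: p) b = (a - b) * ev1 p a + b * (ev1 p a - ev1 p b) := by
      simp only [ev1]; ring
    rw [e]
    exact lt_add (lt_mul h (ev1_mem V.toSubring ha p)) (mul_lt hb (ev1_congr ha hb h p))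

end basic

/-- closed under inverses of units of `V` -/
def InvCl (V : ValuationSubring K) (R : Subalgebra ℂ K) : Prop :=
  ∀ x ∈ R, V.valuation x = 1 → x⁻¹ ∈ R

theorem InvCl.div {V : ValuationSubring K} {R : Subalgebra ℂ K} (h : InvCl V R) {x y : K}
    (hx : x ∈ R) (hy : y ∈ R) (hu : V.valuation y = 1) : x / y ∈ R := by
  rw [div_eq_mul_inv]; exact R.mul_mem hx (h y hy hu)

/-- `x u = y` -/
theorem InvCl.of_mul {V : ValuationSubring K} {R : Subalgebra ℂ K} (h : InvCl V R) {x u y : K}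
    (e : x * u = y) (hu : u ∈ R) (hu1 : V.valuation u = 1) (hy : y ∈ R) : x ∈ R := by
  have : x = y / u := by rw [← e, mul_div_cancel_right₀ _ (ne_of_unit hu1)]
  rw [this]; exact h.div hy hu hu1

/-- the local ring generated by `G` -/
def Cl (V : ValuationSubring K) (G : Set K) : Subalgebra ℂ K :=
  sInf {R | G ⊆ R ∧ InvCl V R}

theorem Cl_le {V : ValuationSubring K} {G : Set K} {R : Subalgebra ℂ K} (h1 : G ⊆ R)
    (h2 : InvCl V R) : Cl V G ≤ R := sInf_le ⟨h1, h2⟩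

theorem subset_Cl (V : ValuationSubring K) (G : Set K) : G ⊆ Cl V G := by
  intro x hx
  simp only [Cl, SetLike.mem_coe, Algebra.mem_sInf]
  exact fun R hR => hR.1 hx

theorem invCl_Cl (V : ValuationSubring K) (G : Set K) : InvCl V (Cl V G) := by
  intro x hx hu
  simp only [Cl, Algebra.mem_sInf] at hx ⊢
  exact fun R hR => hR.2 x (hx R hR) hu

/-- `V` as a subalgebra -/
def VA {V : ValuationSubring K} (hC : HC V) : Subalgebra ℂ K :=
  { V.toSubring with algebraMap_mem' := hC }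

theorem Cl_sub {V : ValuationSubring K} (hC : HC V) {G : Set K} (hG : ∀ x ∈ G, x ∈ V) :
    ∀ x ∈ Cl V G, x ∈ V :=
  fun _ hx => Cl_le (R := VA hC) hG (fun _ _ hu => mem_of_unit (unit_inv hu)) hx

theorem deriv_mem {V : ValuationSubring K} (D : Derivation ℂ K K) {G : Set K}
    {R : Subalgebra ℂ K} (hR : InvCl V R) (hG : ∀ x ∈ G, x ∈ R ∧ D x ∈ R) :
    ∀ z ∈ Cl V G, z ∈ R ∧ D z ∈ R := by
  let S : Subalgebra ℂ K :=
    { carrier := {z | z ∈ R ∧ D z ∈ R}
      mul_mem' := fun {a b} ha hb => ⟨R.mul_mem ha.1 hb.1, by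
        rw [Derivation.leibniz, smul_eq_mul, smul_eq_mul]
        exact R.add_mem (R.mul_mem ha.1 hb.2) (R.mul_mem hb.1 ha.2)⟩
      add_mem' := fun {a b} ha hb => ⟨R.add_mem ha.1 hb.1, by
        rw [map_add]; exact R.add_mem ha.2 hb.2⟩
      algebraMap_mem' := fun c => ⟨R.algebraMap_mem c, by
        rw [Derivation.map_algebraMap]; exact R.zero_mem⟩ }
  have : Cl V G ≤ S := Cl_le hG (fun x hx hu => ⟨hR x hx.1 hu, by
    rw [Derivation.leibniz_inv, smul_eq_mul]
    exact R.mul_mem (R.neg_mem (R.pow_mem (hR x hx.1 hu) 2)) hx.2⟩)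
  exact fun z hz => this hz

theorem stable_Cl {V : ValuationSubring K} (D : Derivation ℂ K K) {G : Set K}
    (hG : ∀ x ∈ G, D x ∈ Cl V G) : Stable D (Cl V G) :=
  fun z hz => (deriv_mem D (invCl_Cl V G) (fun x hx => ⟨subset_Cl V G hx, hG x hx⟩) z hz).2

/-- logarithmic derivative in `R` -/
def LogIn (D : Derivation ℂ K K) (R : Subalgebra ℂ K) (z : K) : Prop :=
  z ≠ 0 ∧ ∃ r ∈ R, D z = r * z

theorem LogIn.mul {D : Derivation ℂ K K} {R : Subalgebra ℂ K} {x y : K} (hx : LogIn D R x)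
    (hy : LogIn D R y) : LogIn D R (x * y) := by
  obtain ⟨x0, r, hr, e⟩ := hx
  obtain ⟨y0, s, hs, e'⟩ := hy
  refine ⟨mul_ne_zero x0 y0, r + s, R.add_mem hr hs, ?_⟩
  rw [Derivation.leibniz, e, e', smul_eq_mul, smul_eq_mul]; ring

theorem LogIn.pow {D : Derivation ℂ K K} {R : Subalgebra ℂ K} {x : K} (hx : LogIn D R x) :
    ∀ n : ℕ, LogIn D R (x ^ n)
  | 0 => ⟨by simp, 0, R.zero_mem, by simp⟩
  | n + 1 => by rw [pow_succ]; exact (LogIn.pow hx n).mul hx

theorem LogIn.of_unit {V : ValuationSubring K} {D : Derivation ℂ K K} {R : Subalgebra ℂ K}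
    (hR : InvCl V R) {x : K} (hx : x ∈ R) (hu : V.valuation x = 1) (hD : D x ∈ R) :
    LogIn D R x :=
  ⟨ne_of_unit hu, D x / x, hR.div hD hx hu, by rw [div_mul_cancel₀ _ (ne_of_unit hu)]⟩

theorem LogIn.root {D : Derivation ℂ K K} {R : Subalgebra ℂ K} {φ g ρ : K} {m : ℕ} (hm : m ≠ 0)
    (e : φ ^ m * g = ρ) (hg : LogIn D R g) (hρ : LogIn D R ρ) : LogIn D R φ := by
  obtain ⟨g0, r, hr, e1⟩ := hg
  obtain ⟨ρ0, s, hs, e2⟩ := hρ
  have φ0 : φ ≠ 0 := by
    rintro rfl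
    rw [zero_pow hm, zero_mul] at e
    exact ρ0 e.symm
  obtain ⟨k, rfl⟩ := Nat.exists_eq_succ_of_ne_zero hm
  have hk : ((k : ℂ) + 1) ≠ 0 := by exact_mod_cast Nat.succ_ne_zero k
  refine ⟨φ0, algebraMap ℂ K ((k : ℂ) + 1)⁻¹ * (s - r),
    R.mul_mem (R.algebraMap_mem _) (R.sub_mem hs hr), ?_⟩
  have h1 := congrArg D e
  rw [Derivation.leibniz, Derivation.leibniz_pow, e1, e2, ← e] at h1
  simp only [smul_eq_mul, nsmul_eq_mul, Nat.succ_eq_add_one, Nat.add_sub_cancel] at h1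
  have hk' : ((k : K) + 1) * algebraMap ℂ K ((k : ℂ) + 1)⁻¹ = 1 := by
    have : ((k : K) + 1) = algebraMap ℂ K ((k : ℂ) + 1) := by simp
    rw [this, ← map_mul, mul_inv_cancel₀ hk, map_one]
  have h2 : φ ^ k * g ≠ 0 := mul_ne_zero (pow_ne_zero _ φ0) g0
  apply mul_left_cancel₀ h2
  push_cast at h1
  linear_combination algebraMap ℂ K ((k : ℂ) + 1)⁻¹ * h1 - (φ ^ k * g * D φ) * hk'

theorem LogIn.mem {D : Derivation ℂ K K} {R : Subalgebra ℂ K} {x : K} (h : LogIn D R x)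
    (hx : x ∈ R) : D x ∈ R := by
  obtain ⟨_, r, hr, e⟩ := h
  rw [e]; exact R.mul_mem hr hx

/-- a root of a unit -/
theorem root_mem {V : ValuationSubring K} {D : Derivation ℂ K K} {R : Subalgebra ℂ K}
    (hR : InvCl V R) {φ g ρ : K} {m : ℕ} (hm : m ≠ 0) (e : φ ^ m * g = ρ) (hφ : φ ∈ R)
    (hg : g ∈ R ∧ D g ∈ R) (hρ : ρ ∈ R ∧ D ρ ∈ R) (ug : V.valuation g = 1)
    (uρ : V.valuation ρ = 1) : D φ ∈ R :=
  (LogIn.root hm e (LogIn.of_unit hR hg.1 ug hg.2) (LogIn.of_unit hR hρ.1 uρ hρ.2)).mem hφ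

/-- elements of `V` with constant residue -/
def Cst {V : ValuationSubring K} (hC : HC V) : Subalgebra ℂ K where
  carrier := {x | ∃ c : ℂ, V.valuation (x - algebraMap ℂ K c) < 1}
  mul_mem' := by
    rintro a b ⟨c, hc⟩ ⟨d, hd⟩
    refine ⟨c * d, ?_⟩
    have e : a * b - algebraMap ℂ K (c * d) = (a - algebraMap ℂ K c) * (b - algebraMap ℂ K d) +
        (a - algebraMap ℂ K c) * algebraMap ℂ K d + algebraMap ℂ K c * (b - algebraMap ℂ K d) := by
      rw [map_mul]; ring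
    rw [e]
    exact lt_add (lt_add (lt_mul hc (mem_of_lt hd)) (lt_mul hc (hC d))) (mul_lt (hC c) hd)
  add_mem' := by
    rintro a b ⟨c, hc⟩ ⟨d, hd⟩
    refine ⟨c + d, ?_⟩
    have e : a + b - algebraMap ℂ K (c + d) = (a - algebraMap ℂ K c) + (b - algebraMap ℂ K d) := by
      rw [map_add]; ring
    rw [e]
    exact lt_add hc hd
  algebraMap_mem' := fun c => ⟨c, by simp⟩

section cst
variable {V : ValuationSubring K} (hC : HC V)

theorem mem_Cst {x : K} : x ∈ Cst hC ↔ ∃ c : ℂ, V.valuation (x - algebraMap ℂ K c) < 1 := Iff.rfl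

theorem Cst_of_lt {x : K} (h : V.valuation x < 1) : x ∈ Cst hC := ⟨0, by simpa using h⟩

theorem mem_of_Cst {x : K} (h : x ∈ Cst hC) : x ∈ V := by
  obtain ⟨c, hc⟩ := h
  have := V.add_mem _ _ (mem_of_lt hc) (hC c)
  rwa [sub_add_cancel] at this

theorem invCl_Cst : InvCl V (Cst hC) := by
  rintro x ⟨c, hc⟩ hu
  have c0 : c ≠ 0 := by
    rintro rfl
    rw [map_zero, sub_zero] at hc
    exact hc.ne hu
  refine ⟨c⁻¹, ?_⟩
  have x0 := ne_of_unit hu
  have e1 : algebraMap ℂ K c * algebraMap ℂ K c⁻¹ = 1 := by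
    rw [← map_mul, mul_inv_cancel₀ c0, map_one]
  have e : x⁻¹ - algebraMap ℂ K c⁻¹ =
      (x - algebraMap ℂ K c) * (-(x⁻¹ * algebraMap ℂ K c⁻¹)) := by
    have := mul_inv_cancel₀ x0
    linear_combination (-algebraMap ℂ K c⁻¹) * this + (-x⁻¹) * e1 + 2 * algebraMap ℂ K c⁻¹ * this
  rw [e]
  exact lt_mul hc (V.neg_mem _ (V.mul_mem _ _ (mem_of_unit (unit_inv hu)) (hC _)))

theorem Cst_of_root {x : K} (hx : x ∈ V) (P : Polynomial ℂ) (hP : P ≠ 0)
    (h : V.valuation (Polynomial.aeval x P) < 1) : x ∈ Cst hC := by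
  by_contra hn
  have hu : ∀ r : ℂ, V.valuation (x - algebraMap ℂ K r) = 1 := fun r =>
    (unit_or_lt (V.toSubring.sub_mem hx (hC r))).resolve_right fun h' => hn ⟨r, h'⟩
  have hs := (IsAlgClosed.splits P).eq_prod_roots
  rw [hs, map_mul, Polynomial.aeval_C, map_mul, hC.unit (Polynomial.leadingCoeff_ne_zero.2 hP),
    one_mul, map_multiset_prod, map_multiset_prod] at h
  have : (Multiset.map V.valuation (Multiset.map (Polynomial.aeval x)
      (Multiset.map (fun a => Polynomial.X - Polynomial.C a) P.roots))).prod = 1 := by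
    apply Multiset.prod_eq_one
    intro y hy
    simp only [Multiset.map_map, Multiset.mem_map, Function.comp] at hy
    obtain ⟨r, _, rfl⟩ := hy
    simpa using hu r
  exact h.ne this

theorem Cst_of_pow {φ g ρ : K} {m : ℕ} (hm : m ≠ 0) (e : φ ^ m * g = ρ) (hφ : φ ∈ V)
    (hg : g ∈ Cst hC) (ug : V.valuation g = 1) (hρ : ρ ∈ Cst hC) : φ ∈ Cst hC := by
  obtain ⟨c, hc⟩ := (invCl_Cst hC).of_mul e hg ug hρ
  refine Cst_of_root hC hφ (Polynomial.X ^ m - Polynomial.C c)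
    (Polynomial.X_pow_sub_C_ne_zero (Nat.pos_of_ne_zero hm) c) ?_
  simpa using hc

theorem Cst_of_ev1 {x : K} (hx : x ∈ V) (pt : P1) (h : V.valuation (ev1 (1 :: pt) x) < 1) :
    x ∈ Cst hC := by
  refine Cst_of_root hC hx (ev1 (1 :: pt) Polynomial.X) ?_ ?_
  · intro h0
    have := congrArg (Polynomial.evalRingHom (0 : ℂ)) h0
    rw [map_ev1] at this
    simp [ev1] at this
  · have := map_ev1 (Polynomial.aeval (R := ℂ) x).toRingHom Polynomial.X (1 :: pt)
    simp only [AlgHom.toRingHom_eq_coe, RingHom.coe_coe, Polynomial.aeval_X] at this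
    rwa [this]

/-- the quotient of the leading terms is constant -/
theorem Cst_of_heads {γ cN : ℤ} (hγ : γ ≠ 0) (hN : cN ≠ 0) {h1 h2 m1 m2 m3 : K}
    (u1 : V.valuation h1 = 1) (u2 : V.valuation h2 = 1) (l1 : V.valuation m1 < 1)
    (l2 : V.valuation m2 < 1) (l3 : V.valuation m3 < 1) :
    (γ * h1 + m1) * (γ * h2 + m2) / (cN * (h1 * h2) + m3) ∈ Cst hC := by
  have uν : V.valuation (cN * (h1 * h2) + m3) = 1 :=
    unit_add (unit_mul (hC.int hN) (unit_mul u1 u2)) l3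
  have hh := ne_of_unit (unit_mul u1 u2)
  have e : (γ * h1 + m1) * (γ * h2 + m2) / (cN * (h1 * h2) + m3) =
      ((γ + m1 / h1) * (γ + m2 / h2)) / (cN + m3 / (h1 * h2)) := by
    have := ne_of_unit u1
    have := ne_of_unit u2
    have h3 : (cN + m3 / (h1 * h2)) = (cN * (h1 * h2) + m3) / (h1 * h2) := by field_simp
    rw [h3]
    have := ne_of_unit uν
    field_simp
  have d : ∀ {m h : K}, V.valuation m < 1 → V.valuation h = 1 → V.valuation (m / h) < 1 := by
    intro m h a b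
    rw [div_eq_mul_inv]; exact lt_mul a (mem_of_unit (unit_inv b))
  rw [e]
  have _ := hγ
  refine (invCl_Cst hC).div (Subalgebra.mul_mem _ ?_ ?_) ?_ ?_
  · exact Subalgebra.add_mem _ (intCast_mem _ _) (Cst_of_lt hC (d l1 u1))
  · exact Subalgebra.add_mem _ (intCast_mem _ _) (Cst_of_lt hC (d l2 u2))
  · exact Subalgebra.add_mem _ (intCast_mem _ _) (Cst_of_lt hC (d l3 (unit_mul u1 u2)))
  · exact unit_add (hC.int hN) (d l3 (unit_mul u1 u2))

end cst

/-- the generic chart -/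
theorem chart_stable {V : ValuationSubring K} (hC : HC V) (v1 v2 : Derivation ℂ K K)
    {x n φ1 φ2 g1 g2 ρ1 ρ2 α1 α2 κ1 κ2 : K} (hx : x ∈ V) (hn : n ∈ V) (h1 : φ1 ∈ V) (h2 : φ2 ∈ V)
    (mg1 : g1 ∈ Cl V {x, n}) (mg2 : g2 ∈ Cl V {x, n}) (mρ1 : ρ1 ∈ Cl V {x, n})
    (mρ2 : ρ2 ∈ Cl V {x, n}) (mα1 : α1 ∈ Cl V {x, n}) (mα2 : α2 ∈ Cl V {x, n})
    (mκ1 : κ1 ∈ Cl V {x, n}) (mκ2 : κ2 ∈ Cl V {x, n})
    (e1 : φ1 ^ 10 * g1 = ρ1) (e2 : φ2 ^ 10 * g2 = ρ2)
    (u1 : V.valuation ρ1 = 1) (u2 : V.valuation ρ2 = 1)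
    (d1 : v1 x * g2 = φ1 * α1) (d2 : v1 n * g2 = φ1 * κ1)
    (d3 : v2 x * g1 = φ2 * α2) (d4 : v2 n * g1 = φ2 * κ2) :
    Stable v1 (Cl V {x, n, φ1, φ2}) ∧ Stable v2 (Cl V {x, n, φ1, φ2}) ∧
      V.valuation g1 = 1 ∧ V.valuation g2 = 1 ∧ V.valuation φ1 = 1 ∧ V.valuation φ2 = 1 := by
  have sV : ∀ z ∈ Cl V {x, n}, z ∈ V := Cl_sub hC (by rintro z (rfl | rfl) <;> assumption)
  obtain ⟨a1, b1⟩ := unit_of_mul (V.toSubring.pow_mem h1 10) (sV _ mg1) (e1 ▸ u1)
  obtain ⟨a2, b2⟩ := unit_of_mul (V.toSubring.pow_mem h2 10) (sV _ mg2) (e2 ▸ u2)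
  set R := Cl V {x, n, φ1, φ2} with hR
  have iR : InvCl V R := invCl_Cl _ _
  have xR : x ∈ R := subset_Cl _ _ (by simp)
  have nR : n ∈ R := subset_Cl _ _ (by simp)
  have p1 : φ1 ∈ R := subset_Cl _ _ (by simp)
  have p2 : φ2 ∈ R := subset_Cl _ _ (by simp)
  have le : Cl V {x, n} ≤ R := Cl_le (by rintro z (rfl | rfl) <;> assumption) iR
  have key : ∀ D : Derivation ℂ K K, D x ∈ R → D n ∈ R → Stable D R := by
    intro D dx dn
    have hD := deriv_mem D (G := {x, n}) iR (by rintro z (rfl | rfl) <;> exact ⟨‹_›, ‹_›⟩)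
    apply stable_Cl
    rintro z (rfl | rfl | rfl | rfl)
    · exact dx
    · exact dn
    · exact root_mem iR (by norm_num) e1 p1 (hD _ mg1) (hD _ mρ1) b1 u1
    · exact root_mem iR (by norm_num) e2 p2 (hD _ mg2) (hD _ mρ2) b2 u2
  refine ⟨key v1 ?_ ?_, key v2 ?_ ?_, b1, b2, unit_of_pow (by norm_num) a1,
    unit_of_pow (by norm_num) a2⟩
  · exact iR.of_mul d1 (le mg2) b2 (R.mul_mem p1 (le mα1))
  · exact iR.of_mul d2 (le mg2) b2 (R.mul_mem p1 (le mκ1))
  · exact iR.of_mul d3 (le mg1) b1 (R.mul_mem p2 (le mα2))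
  · exact iR.of_mul d4 (le mg1) b1 (R.mul_mem p2 (le mκ2))

end Crest.Agent.R278
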